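import Vale.Agent.P233.H994.RK8
import Vale.Agent.P233.H103.Semi5

/-! P233, RCDA, part K (helper994): block KA3. -/

set_option linter.all false

open MeasureTheory Filter Topology Set
open scoped ENNReal NNReal MeasureTheory

universe u

namespace Vale.Agent.P233.H994.RK

open Vale.Agent.P233.RA

variable {M : Type u} [MetricSpace M] [MeasurableSpace M] {m : Measure M}
  [BorelSpace M] [SecondCountableTopology M] {n : ℕ} {K θ : ℝ}

section taylor

variable {f h h' : M →ₘ[m] ℝ} {κ : ℝ}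

theorem P_int2 (hD : IsDir (sob m)) (hfh : (sob m).IsLap f h) {g : M →ₘ[m] ℝ} (hg : MemLp g 2 m)
    {s t : ℝ} (hs : 0 ≤ s) (ht : 0 ≤ t) :
    ∫ r in s..t, I ((sob m).P r h * g) = I ((sob m).P t f * g) - I ((sob m).P s f * g) := by
  have hc := hD.P_cont_I hfh.2.1 hg
  have h1 := hD.P_integral hs hfh hg
  have h2 := hD.P_integral ht hfh hg
  have h3 := intervalIntegral.integral_add_adjacent_intervals (hc.intervalIntegrable (μ := volume) 0 s)
    (hc.intervalIntegrable (μ := volume) s t)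
  rw [h1, h2] at h3
  linarith

theorem P_I_le (hD : IsDir (sob m)) (hh : MemLp h' 2 m) (hκ : ∀ᵐ x ∂m, |h' x| ≤ κ)
    {g : M →ₘ[m] ℝ} (hg2 : MemLp g 2 m) (hg1 : MemLp g 1 m) (hg0 : 0 ≤ g) {r : ℝ} (hr : 0 ≤ r) :
    |I ((sob m).P r h' * g)| ≤ κ * I g := by
  have h1 := hD.P_bdd hr hh hκ
  have h2 : |I ((sob m).P r h' * g)| ≤ ∫ x, |((sob m).P r h' * g : M →ₘ[m] ℝ) x| ∂m :=
    abs_integral_le_integral_abs
  refine h2.trans ?_
  unfold I
  rw [← integral_const_mul]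
  refine integral_mono_ae (int_of_mem (mem_mul_22 (hD.P_mem2 r hh) hg2)).abs
    ((int_of_mem hg1).const_mul κ) ?_
  filter_upwards [h1, mul_ae ((sob m).P r h') g, nonneg_iff_ae.1 hg0] with x a1 a2 a3
  show |((sob m).P r h' * g : M →ₘ[m] ℝ) x| ≤ κ * g x
  rw [a2, abs_mul, abs_of_nonneg a3]
  exact mul_le_mul_of_nonneg_right a1 a3

theorem taylor_I (hD : IsDir (sob m)) (hfh : (sob m).IsLap f h) (hhh : (sob m).IsLap h h')
    (hκ : ∀ᵐ x ∂m, |h' x| ≤ κ) (hκ0 : 0 ≤ κ) {g : M →ₘ[m] ℝ} (hg2 : MemLp g 2 m)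
    (hg1 : MemLp g 1 m) (hg0 : 0 ≤ g) {τ a : ℝ} (hτ : 0 ≤ τ) (ha : 0 ≤ τ + a) :
    |I ((sob m).P (τ + a) f * g) - I ((sob m).P τ f * g) - a * I ((sob m).P τ h * g)|
      ≤ κ * a ^ 2 * I g := by
  have hIg : 0 ≤ I g := I_nonneg hg0
  have hc := hD.P_cont_I hfh.2.1 hg2
  have h1 := P_int2 hD hfh hg2 hτ ha
  have h2 : ∀ s : ℝ, 0 ≤ s → |I ((sob m).P s h * g) - I ((sob m).P τ h * g)|
      ≤ κ * I g * |s - τ| := by
    intro s hs
    rw [← P_int2 hD hhh hg2 hτ hs]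
    have := intervalIntegral.norm_integral_le_of_norm_le_const
      (f := fun r => I ((sob m).P r h' * g)) (a := τ) (b := s) (C := κ * I g) (fun r hr => by
        have hr0 : 0 ≤ r := by
          rcases le_total τ s with h3 | h3
          · rw [uIoc_of_le h3] at hr; linarith [hr.1]
          · rw [uIoc_of_ge h3] at hr; linarith [hr.1]
        rw [Real.norm_eq_abs]
        exact P_I_le hD hhh.2.1 hκ hg2 hg1 hg0 hr0)
    rwa [Real.norm_eq_abs] at this
  have h3 : I ((sob m).P (τ + a) f * g) - I ((sob m).P τ f * g) - a * I ((sob m).P τ h * g)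
      = ∫ r in τ..(τ + a), (I ((sob m).P r h * g) - I ((sob m).P τ h * g)) := by
    rw [intervalIntegral.integral_sub (hc.intervalIntegrable (μ := volume) _ _)
      intervalIntegrable_const, h1, intervalIntegral.integral_const]
    simp
  rw [h3]
  have h4 := intervalIntegral.norm_integral_le_of_norm_le_const
    (f := fun r => I ((sob m).P r h * g) - I ((sob m).P τ h * g)) (a := τ) (b := τ + a)
    (C := κ * I g * |a|) (fun r hr => by
      have hr1 : 0 ≤ r ∧ |r - τ| ≤ |a| := by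
        rcases le_total 0 a with h5 | h5
        · rw [uIoc_of_le (by linarith)] at hr
          refine ⟨by linarith [hr.1], ?_⟩
          rw [abs_of_nonneg (by linarith [hr.1]), abs_of_nonneg h5]
          linarith [hr.2]
        · rw [uIoc_of_ge (by linarith)] at hr
          refine ⟨by linarith [hr.1], ?_⟩
          rw [abs_of_nonpos (by linarith [hr.2]), abs_of_nonpos h5]
          linarith [hr.1]
      rw [Real.norm_eq_abs]
      refine (h2 r hr1.1).trans ?_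
      exact mul_le_mul_of_nonneg_left hr1.2 (by positivity))
  rw [Real.norm_eq_abs, add_sub_cancel_left] at h4
  refine h4.trans (le_of_eq ?_)
  rw [mul_assoc, ← sq, sq_abs]
  ring

/-- Taylor expansion of the flow, uniform in space -/
theorem taylor (hN : NSp m n K θ) (hfh : (sob m).IsLap f h) (hhh : (sob m).IsLap h h')
    (hκ : ∀ᵐ x ∂m, |h' x| ≤ κ) (hκ0 : 0 ≤ κ) {τ a : ℝ} (hτ : 0 ≤ τ) (ha : 0 ≤ τ + a) :
    ∀ᵐ x ∂m, |(sob m).P (τ + a) f x - ((sob m).P τ f x + a * (sob m).P τ h x)| ≤ κ * a ^ 2 := by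
  rcases isEmpty_or_nonempty M with hM | hM
  · exact ae_of_all _ fun x => (hM.false x).elim
  obtain ⟨x₀⟩ := hM
  have hD := hN.isDir
  have hf2 := hD.memLp _ hfh.1
  set v : M → ℝ := fun x => (sob m).P (τ + a) f x - ((sob m).P τ f x + a * (sob m).P τ h x) with hv
  have l1 := LI_of_mem2 hN (hD.P_mem2 (τ + a) hf2)
  have l2 := LI_of_mem2 hN (hD.P_mem2 τ hf2)
  have l3 := LI_of_mem2 hN (hD.P_mem2 τ hfh.2.1)
  have hvI : LI m v := fun x r => (l1 x r).sub ((l2 x r).add ((l3 x r).const_mul a))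
  have hA : ∀ A : Set M, MeasurableSet A → Bornology.IsBounded A →
      |∫ x in A, v x ∂m| ≤ κ * a ^ 2 * (m A).toReal := by
    intro A hA hb
    have g2 := ind_mem (m := m) hA (fin_of_bdd hN hb) 2
    have g1 := ind_mem (m := m) hA (fin_of_bdd hN hb) 1
    have key := taylor_I hD hfh hhh hκ hκ0 g2 g1 (ind_nonneg hA) hτ ha
    rw [I_mul_ind hA, I_mul_ind hA, I_mul_ind hA, I_ind hA] at key
    have e : ∫ x in A, v x ∂m = ∫ x in A, (sob m).P (τ + a) f x ∂m
        - ∫ x in A, (sob m).P τ f x ∂m - a * ∫ x in A, (sob m).P τ h x ∂m := by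
      simp only [hv]
      have hsum : IntegrableOn (fun x => (sob m).P τ f x + a * (sob m).P τ h x) A m :=
        (l2.on hb).add ((l3.on hb).const_mul a)
      rw [integral_sub (l1.on hb) hsum,
        integral_add (l2.on hb) ((l3.on hb).const_mul a), integral_const_mul]
      ring
    rw [e]; exact key
  have k1 : ∀ k : ℕ, ∀ᵐ y ∂m, dist x₀ y ≤ k → v y ≤ κ * a ^ 2 := fun k =>
    ae_le_ball hN.fin hvI x₀ k _ fun A hA' h0 hs =>
      (abs_le.1 (hA A hA' (Metric.isBounded_closedBall.subset hs))).2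
  have k2 : ∀ k : ℕ, ∀ᵐ y ∂m, dist x₀ y ≤ k → -(κ * a ^ 2) ≤ v y := fun k =>
    ae_ge_ball hN.fin hvI x₀ k _ fun A hA' h0 hs => by
      have := (abs_le.1 (hA A hA' (Metric.isBounded_closedBall.subset hs))).1
      linarith
  filter_upwards [ae_all_iff.2 k1, ae_all_iff.2 k2] with y b1 b2
  obtain ⟨k, hk⟩ := exists_nat_gt (dist x₀ y)
  exact abs_le.2 ⟨b2 k hk.le, b1 k hk.le⟩

end taylor

theorem J_of_lap {C : Calc m} (hD : IsDir C) {f h : M →ₘ[m] ℝ} (hfh : C.IsLap f h) {lam : ℝ}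
    (hl : 0 < lam) : C.J lam (f - lam • h) = f := by
  have hf2 := hD.memLp _ hfh.1
  refine hD.J_eq hl ⟨hfh.1, fun k hk => ?_⟩
  have hk2 := hD.memLp _ hk
  have e1 : I (C.Γ f k) = -I (h * k) := hfh.2.2 _ hk
  have e2 : (f - lam • h) * k = f * k - lam • (h * k) := by
    rw [sub_mul, smul_mul_assoc]
  rw [e2, I_sub (mem_mul_22 hf2 hk2) (mem_smul _ (mem_mul_22 hfh.2.1 hk2)), I_smul, e1]
  ring

/-- `f` is Lipschitz if `f`, `Δf`, `Δ²f` are bounded -/
theorem reg_B (hN : NSp m n K θ) (hB : (sob m).BEi K) {f h h' : M →ₘ[m] ℝ}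
    (hfh : (sob m).IsLap f h) (hhh : (sob m).IsLap h h') (hf : MemLp f ∞ m) (hh : MemLp h ∞ m)
    (hh' : MemLp h' ∞ m) : f ∈ (sob m).B := by
  haveI : SigmaFinite m := sigmaFinite_of_ball hN.fin
  have hD := hN.isDir
  have hf2 := hD.memLp _ hfh.1
  have hh2 := hD.memLp _ hhh.1
  set r : ℝ := 1 / (4 * |K| + 4) with hr
  have hr0 : 0 < r := by positivity
  have hr4 : 4 * |K| * r ≤ 1 := by
    rw [hr, mul_one_div, div_le_one (by positivity)]
    linarith
  set g : M →ₘ[m] ℝ := (f - r • h) - r • (h - r • h') with hg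
  have h1 : (sob m).IsLap (f - r • h) (h - r • h') := by
    have := hD.isLap_add hfh (hD.isLap_smul (-r) hhh)
    rwa [neg_smul, neg_smul, ← sub_eq_add_neg, ← sub_eq_add_neg] at this
  have e1 : (sob m).J r g = f - r • h := J_of_lap hD h1 hr0
  have e2 : (sob m).J r ((sob m).J r g) = f := by rw [e1]; exact J_of_lap hD hfh hr0
  have hg2 : MemLp g 2 m := mem_sub (mem_sub hf2 (mem_smul _ hh2))
    (mem_smul _ (mem_sub hh2 (mem_smul _ hhh.2.1)))
  have hgt : MemLp g ∞ m := mem_sub (mem_sub hf (mem_smul _ hh))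
    (mem_smul _ (mem_sub hh (mem_smul _ hh')))
  have h2 := hN.isGamma.testI_JJ hB hr0 hr4 hg2 hgt
  rw [e2] at h2
  exact h2.1.1

/-- bounded + Lipschitz representative of `Q_t h`, `h` bounded -/
theorem rep_bdd (hN : NSp m n K θ) (hB : (sob m).BEi K) {h : M →ₘ[m] ℝ} (h2 : MemLp h 2 m)
    (ht' : MemLp h ∞ m) {t : ℝ} (ht : 0 < t) :
    ∃ (W : M → ℝ) (B L : ℝ), H131.BL W B L ∧ Q m t h =ᵐ[m] W := by
  haveI : SigmaFinite m := sigmaFinite_of_ball hN.fin
  have ht2 : 0 < t / 2 := by positivity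
  have h1 := hN.isGamma.P_Γ_top hB ht2 h2 ht'
  have h3 : Q m t h ∈ (sob m).B :=
    (hN.isGamma.lip_iff _ (hN.isDir.P_mem ht2 h2)).2 ⟨hN.isDir.P_memTop ht2.le h2 ht', h1⟩
  obtain ⟨W, B, L, hW, he⟩ := exists_BL h3
  refine ⟨W, B, L, hW, ?_⟩
  rw [← he]
  exact cl_ae hW.cont.aestronglyMeasurable

/-- optimisation in the second parameter -/
theorem opt_rat {w β X : ℝ} (hβ : 0 < β) (h : ∀ ϑ : ℚ, X ≤ ϑ * w + β * (ϑ : ℝ) ^ 2) :
    X + w ^ 2 / (4 * β) ≤ 0 := by
  have hcl : IsClosed {ϑ : ℝ | X ≤ ϑ * w + β * ϑ ^ 2} :=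
    isClosed_le continuous_const (by fun_prop)
  have h1 : ∀ ϑ : ℝ, X ≤ ϑ * w + β * ϑ ^ 2 := by
    intro ϑ
    have hsub : range ((↑) : ℚ → ℝ) ⊆ {ϑ : ℝ | X ≤ ϑ * w + β * ϑ ^ 2} := by
      rintro _ ⟨q, rfl⟩
      exact h q
    exact (hcl.closure_subset_iff.2 hsub) (Rat.denseRange_cast ϑ)
  have h2 := h1 (-w / (2 * β))
  have h3 : -w / (2 * β) * w + β * (-w / (2 * β)) ^ 2 = -(w ^ 2 / (4 * β)) := by
    field_simp
    ring
  linarith

end Vale.Agent.P233.H994.RK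

namespace Vale.Agent.P233.RA

open Vale.Agent.P233.H994.RK

/-- KA3 -/
theorem blk_KA3 : Blk_KA3.{u} := by
  intro M _ _ _ _ _ m n K θ hN h hB f h₁ h₂ hf1 hf2 hft h1t h2t t ht
  have hD := hN.isDir
  have hn : (0 : ℝ) < n := by exact_mod_cast hN.n_pos
  have ht2 : 0 < t / 2 := by positivity
  obtain ⟨u, B, L, hu, hcl⟩ := exists_BL (reg_B hN hB hf1 hf2 hft h1t h2t)
  subst hcl
  have hW := hf1.1
  have hL2 := hD.memLp _ hW
  obtain ⟨U, hU, he⟩ := lip_rep hN h hu hL2 ht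
  have hL := hu.L0
  have hUL := rep_BL hN hu hL2 ht.le (by positivity) hU he
  obtain ⟨W, BW, LW, hWL, hWe⟩ := rep_bdd hN hB hf1.2.1 h1t ht
  obtain ⟨κ, hκ⟩ := mem_top_iff.1 h2t
  have hκ' : ∀ᵐ x ∂m, |h₂ x| ≤ |κ| := hκ.mono fun x hx => hx.trans (le_abs_self κ)
  set E := Real.exp (max (-K) 0 * t) with hE
  have hE0 : 0 < E := Real.exp_pos _
  set β : ℝ := n / 8 * t * E with hβ
  have hβ0 : 0 < β := by positivity
  set w : M → ℝ := fun x => t / 2 * W x with hw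
  have hwc : Continuous w := continuous_const.mul hWL.cont
  have hT : Fa m u t U w univ := by
    intro ϑ _
    refine ⟨|κ| * (ϑ * t / 2) ^ 2, 1 / (|(ϑ : ℝ)| + 1), by positivity, fun s hs hs' => ?_⟩
    have hs0 : (0 : ℝ) < s := by exact_mod_cast hs
    have hp : 0 < 1 + (ϑ : ℝ) * s := by
      rw [lt_div_iff₀ (by positivity)] at hs'
      have h3 : -(|(ϑ : ℝ)| * s) ≤ (ϑ : ℝ) * s := by
        have := neg_abs_le (ϑ : ℝ)
        nlinarith
      nlinarith
    obtain ⟨U', hU', he'⟩ := lip_rep hN h hu hL2 (t := (1 + (ϑ : ℝ) * s) * t) (by positivity)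
    refine ⟨hp, U', _, by positivity, hU', he', ?_⟩
    have hUc' := (rep_BL hN hu hL2 (by positivity) (by positivity) hU' he').cont
    have hUc := hUL.cont
    refine le_of_ae_le hN.full (a := fun x => |U' x - (U x + s * (ϑ * w x))|)
      (b := fun _ => |κ| * (ϑ * t / 2) ^ 2 * (s : ℝ) ^ 2) (by fun_prop) continuous_const ?_
    have htay := taylor hN hf1 hf2 hκ' (abs_nonneg κ) (τ := t / 2) (a := ϑ * s * (t / 2)) ht2.le
      (by
        have : t / 2 + ϑ * s * (t / 2) = (1 + ϑ * s) * (t / 2) := by ring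
        rw [this]; positivity)
    have e1 : t / 2 + ϑ * s * (t / 2) = (1 + ϑ * s) * t / 2 := by ring
    rw [e1] at htay
    filter_upwards [htay, he, he', hWe] with x b1 b2 b3 b4
    have b5 : (sob m).P ((1 + ϑ * s) * t / 2) (cl m u) x = U' x := b3
    have b6 : (sob m).P (t / 2) (cl m u) x = U x := b2
    have b7 : (sob m).P (t / 2) h₁ x = W x := b4
    rw [b5, b6, b7] at b1
    have e2 : U x + s * (ϑ * w x) = U x + ϑ * s * (t / 2) * W x := by simp only [hw]; ring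
    have e3 : |κ| * (ϑ * t / 2) ^ 2 * (s : ℝ) ^ 2 = |κ| * (ϑ * s * (t / 2)) ^ 2 := by ring
    show |U' x - (U x + s * (ϑ * w x))| ≤ |κ| * (ϑ * t / 2) ^ 2 * (s : ℝ) ^ 2
    rw [e2, e3]
    exact b1
  have hSI : LI m fun y => w y ^ 2 / (4 * β) := by
    have hb : ∀ x, |w x ^ 2 / (4 * β)| ≤ (t / 2 * BW) ^ 2 / (4 * β) := fun x => by
      rw [abs_of_nonneg (by positivity)]
      have h3 := hWL.bd x
      have h4 : |w x| ≤ t / 2 * BW := by
        simp only [hw]
        rw [abs_mul, abs_of_pos ht2]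
        gcongr
      have h5 : w x ^ 2 ≤ (t / 2 * BW) ^ 2 := by
        rw [← sq_abs]; exact pow_le_pow_left₀ (abs_nonneg _) h4 2
      gcongr
    exact LI_of_bdd hN.fin (by
      have : Continuous fun y => w y ^ 2 / (4 * β) := by fun_prop
      exact this.aestronglyMeasurable) hb
  have key := stepE hN h hu hW ht hUL he hwc hT (S := fun y => w y ^ 2 / (4 * β)) hSI
    (fun y X hX => opt_rat hβ0 fun ϑ => hX ϑ (mem_univ _))
    (fun y X hX => by
      have := opt_rat (w := -w y) hβ0 fun ϑ => hX ϑ (mem_univ _)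
      rwa [neg_sq] at this)
  rw [le_iff_ae]
  filter_upwards [key, smul_ae ((sob m).Γ (Q m t (cl m u)) (Q m t (cl m u))) (Real.exp (K * t)),
    add_ae (Real.exp (K * t) • (sob m).Γ (Q m t (cl m u)) (Q m t (cl m u)))
      ((t / (n * E)) • (Q m t h₁) ^ 2), smul_ae ((Q m t h₁) ^ 2) (t / (n * E)), sq_ae (Q m t h₁), hWe]
    with y b1 b2 b3 b4 b5 b6
  rw [b3, b2, b4, b5, b6]
  have e4 : 2 * (w y ^ 2 / (4 * β)) = t / (n * E) * W y ^ 2 := by
    simp only [hw, hβ]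
    field_simp
    ring
  rw [e4] at b1
  exact b1

end Vale.Agent.P233.RA
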