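import Vale.Agent.P233.RA.IfHK
import Vale.Agent.P233.H131.HL

/-! P233, RCDA, part K: literal statements of the split KA (helper994), K1S (helper368),
KD (helper886). -/

set_option linter.all false

open MeasureTheory Filter Topology Set
open scoped ENNReal NNReal MeasureTheory

universe u

namespace Vale.Agent.P233.RA

/-- the rate for `δ → ∞` -/
noncomputable def Ci (K p q : ℝ) : ℝ := -(K / 3 * (√(p * q) + p + q))

section

variable {M : Type u} [MetricSpace M] [MeasurableSpace M]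

/-- K1 in integrated form, for normalised indicator functions of bounded sets; `δ → ∞` is done.
`H131.qq f s` is the Hopf-Lax function `Q_s f`, `f` is bounded and Lipschitz (no bounded
support). -/
def K1S (m : Measure M) (n : ℕ) (K : ℝ) : Prop :=
  ∀ (f : M → ℝ) (B L : ℝ), H131.BL f B L → ∀ A A' : Set M, MeasurableSet A → MeasurableSet A' →
    m A ≠ 0 → m A' ≠ 0 → Bornology.IsBounded A → Bornology.IsBounded A' → ∀ D : ℝ, 0 ≤ D →
    (∀ x ∈ A, ∀ y ∈ A', dist x y ≤ D) → ∀ p q t s : ℝ, 0 ≤ p → 0 ≤ q → 0 ≤ t → 0 < s →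
    (∫ x, H131.qq f s x * Q m (q * t) (cl m (A'.indicator fun _ => (1 : ℝ))) x ∂m) / (m A').toReal
      - (∫ x, f x * Q m (p * t) (cl m (A.indicator fun _ => (1 : ℝ))) x ∂m) / (m A).toReal ≤
    s⁻¹ * (Real.exp (Ci K p q * t) * (D ^ 2 / 2)
      + n / 2 * (√p - √q) ^ 2 * t * Real.exp (max (Ci K p q) 0 * t))

/-- KA2: the gradient estimate -/
def KA2 (m : Measure M) (K : ℝ) : Prop :=
  ∀ f ∈ (sob m).W, f ∈ (sob m).B → ∀ t : ℝ, 0 < t →
    Real.exp (K * t) • (sob m).Γ (Q m t f) (Q m t f) ≤ Q m t ((sob m).Γ f f)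

/-- KA3: the gradient estimate with the dimension term -/
def KA3 (m : Measure M) (n : ℕ) (K : ℝ) : Prop :=
  ∀ f h h' : M →ₘ[m] ℝ, (sob m).IsLap f h → (sob m).IsLap h h' → MemLp f ∞ m → MemLp h ∞ m →
    MemLp h' ∞ m → ∀ t : ℝ, 0 < t →
    Real.exp (K * t) • (sob m).Γ (Q m t f) (Q m t f)
      + (t / (n * Real.exp (max (-K) 0 * t))) • (Q m t h) ^ 2 ≤ Q m t ((sob m).Γ f f)

end

/-- K1 (helper368); may use the blocks H0, H1, H2a, H2b. -/
def Blk_K1S : Prop := ForN.{u} fun M _ _ m n K θ => OutC m n K → K1S m n K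

/-- KA2, KA3 (helper994) -/
def Blk_KA2 : Prop := ForN.{u} fun M _ _ m n K θ => K1S m n K → KA2 m K
def Blk_KA3 : Prop := ForN.{u} fun M _ _ m n K θ => K1S m n K → (sob m).BEi K → KA3 m n K

/-- KD2, KD3 (helper886) -/
def Blk_KD2 : Prop := ForN.{u} fun M _ _ m n K θ => KA2 m K → (sob m).BEi K
def Blk_KD3 : Prop := ForN.{u} fun M _ _ m n K θ => (sob m).BEi K → KA3 m n K → (sob m).BE K n

theorem partN_of' (h1 : Blk_ST.{u}) (h2 : Blk_K1S.{u}) (h3 : Blk_KA2.{u}) (h4 : Blk_KD2.{u})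
    (h5 : Blk_KA3.{u}) (h6 : Blk_KD3.{u}) : PartN.{u} := by
  intro M _ _ _ _ _ m n K θ h
  have a1 : OutC m n K := h1 M m n K θ h
  have a2 : K1S m n K := h2 M m n K θ h a1
  have a3 : (sob m).BEi K := h4 M m n K θ h (h3 M m n K θ h a2)
  exact h6 M m n K θ h a3 (h5 M m n K θ h a2 a3)

end Vale.Agent.P233.RA
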