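import Vale.Agent.P233.H994.Conv

/-!
P233, block C6b (helper994): the weak limits of the Hessians of `θ`.
-/

set_option linter.all false

open MeasureTheory Filter Topology Set
open scoped ENNReal NNReal InnerProductSpace

universe u

namespace Vale.Agent.P233.H994

open Vale.Agent.P233.PA (en OutA)
open Vale.Agent.P233.PC

theorem blk_C6b : Blk_C6b.{u} := by
  intro M _ _ _ _ _ m K N κ P p s₀ C₀ hyp E _ _ _ Gr V D HO e hE u φ hA hB U hU φ₀ L B R₀ c' ρ R Y
    hP hO hLim hMu hM hF hS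
  have c : Ctx m K N κ P p s₀ C₀ Gr V D HO e u φ U (fun t => cl m (φ₀ t)) ρ R Y :=
    ⟨hyp, hE, hA, hB, hU, hO, hLim, hM, hF, hS⟩
  haveI : SigmaFinite m := std_sigma hyp.std
  obtain ⟨ρ0, r1, r2, r3, r4⟩ := c.exists_rho
  have hρ : Rho m u φ U ρ ρ0 := ⟨r1, r2, r3, r4⟩
  obtain ⟨H, Λ, h1, h2, h3⟩ := c.exists_Hglue hρ
  refine ⟨fun h t y => H h (t, y), fun t y => max (Λ (t, y)) 0, ?_⟩
  have hΛ : ∀ z, max (Λ z) 0 = Λ z := fun z => max_eq_left ((h3 (sk 0) (sk_mem 0)).nn z)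
  -- from space-time to the flow
  have flow : ∀ Q : ℝ × M → Prop, (∀ s ∈ Ioo (0 : ℝ) 1, ∀ᵐ z ∂(ms m s), ρ0 z ≠ 0 → Q z) →
      ∀ᵐ t ∂((volume : Measure ℝ).restrict (Ioc 0 1)), ∀ᵐ x ∂m, Q (t, Y t x) := by
    intro Q hQ
    refine ae_Ioc_of fun k => ?_
    have hs := sk_mem k
    have h5 := psi_ae hM hF.meas hs.1.le hρ.meas.measurable hρ.slice (Q := Q) (by
      filter_upwards [hQ _ hs] with z hz h0 using hz h0.ne')
    exact ms_ae h5
  constructor
  · intro h hh
    exact h1 h hh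
  · exact (h2.max measurable_const)
  · intro t y
    exact le_max_right _ _
  · intro s hs
    obtain ⟨C, hC⟩ := c.Λ_ebd hρ hs (h3 s hs)
    have i1 := psi_integrable hM hF.meas hs.1.le hρ.meas.measurable hρ.slice
      (F := fun z => ‖Λ z‖ ^ 2) (h2.norm.pow_const 2).aestronglyMeasurable
      (Eventually.of_forall hρ.nonneg) hC.int
    have i2 := i1.lintegral_lt_top
    have i3 : Measurable fun z : ℝ × M => ENNReal.ofReal (‖Λ (psi Y z)‖ ^ 2) :=
      (((h2.comp (psi_meas hF.meas)).norm.pow_const 2)).ennreal_ofReal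
    rw [lintegral_prod _ i3.aemeasurable] at i2
    refine lt_of_le_of_lt (le_of_eq ?_) i2
    refine lintegral_congr fun t => lintegral_congr fun x => ?_
    simp only [hΛ, Real.norm_eq_abs, sq_abs]
    rfl
  · intro h hh
    have := flow (fun z => ‖H h z‖ ≤ Λ z * ‖Gr h z.2‖) fun s hs => by
      filter_upwards [(h3 s hs).bd h hh] with z hz h0
      exact hz (lt_of_le_of_ne (hρ.nonneg z) (Ne.symm h0))
    filter_upwards [this] with t ht
    filter_upwards [ht] with x hx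
    rw [hΛ]; exact hx
  · intro h hh h' hh' a
    exact flow (fun z => H (h + a • h') z = H h z + a • H h' z) fun s hs =>
      c.H_lin hρ hs (h3 s hs) hh hh' a
  · intro h hh h' hh'
    exact flow (fun z => ⟪H h z, Gr h' z.2⟫_ℝ = ⟪H h' z, Gr h z.2⟫_ℝ) fun s hs =>
      c.H_sym hρ hs (h3 s hs) hh hh'
  · intro h hh
    exact flow (fun z => H h z
      ∈ (Submodule.span ℝ (range fun j => Gr (e j) z.2)).topologicalClosure) fun s hs =>
      c.H_span hρ hs (h3 s hs) hh
  · intro l hl h hh s hs Φ hΦm hΦ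
    exact c.conv hρ hs (h3 s hs) hl hh hΦm hΦ

end Vale.Agent.P233.H994
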