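import Vale.Agent.P233.H994.Glue
import Vale.Agent.P233.H671.C6bHess
import Vale.Agent.P233.H131.Total

/-!
P233, block C6b (helper994): convergence for all final densities.
-/

set_option linter.all false

open MeasureTheory Filter Topology Set
open scoped ENNReal NNReal InnerProductSpace

universe u

namespace Vale.Agent.P233.H994

open Vale.Agent.P233.PA (en OutA)
open Vale.Agent.P233.PC

section metric

variable {M : Type u} [MetricSpace M] [CompleteSpace M] [SecondCountableTopology M]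
  [MeasurableSpace M] [BorelSpace M] {m : Measure M} {K N κ : ℝ}
  {P : ℝ → (M →ₘ[m] ℝ) → (M →ₘ[m] ℝ)} {p : M} {s₀ C₀ : ℝ}
variable {E : Type} [NormedAddCommGroup E] [InnerProductSpace ℝ E] [CompleteSpace E]
variable {Gr : (M →ₘ[m] ℝ) → M → E} {V : (M →ₘ[m] ℝ) → (M →ₘ[m] ℝ) → M → E}
  {D : (M →ₘ[m] ℝ) → (M →ₘ[m] ℝ)} {HO : (M →ₘ[m] ℝ) → M → E →L[ℝ] E} {e : ℕ → M →ₘ[m] ℝ}
variable {u : ℕ → ℝ → M →ₘ[m] ℝ} {φ : (M →ₘ[m] ℝ) → ℕ → ℝ → M →ₘ[m] ℝ} {U : Ultrafilter ℕ}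
variable {ψ ρ : ℝ → M →ₘ[m] ℝ} {R : ℝ → ℝ → (M →ₘ[m] ℝ) → (M →ₘ[m] ℝ)} {Y : ℝ → M → M}

variable (c : Ctx m K N κ P p s₀ C₀ Gr V D HO e u φ U ψ ρ R Y)

include c

/-- bounds of the densities in space-time -/
theorem Ctx.jρ_bd [SigmaFinite m] {l : M →ₘ[m] ℝ} (hl : l ∈ (sob m).TestI) {s : ℝ}
    (hs : s ∈ Ioo (0 : ℝ) 1) : ∃ k : ℝ, 0 ≤ k ∧ ∀ᶠ n in (U : Filter ℕ), ∀ᵐ z ∂(ms m s),
      0 ≤ jρ u φ l n z ∧ jρ u φ l n z ≤ k := by
  obtain ⟨k, hk0, hk⟩ := rn_bd c.hyp.std.hN c.hA c.hyp.hC0 hl (c.top hl) hs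
  refine ⟨k, hk0, ?_⟩
  filter_upwards [c.hU hk, c.hU (jρ_spec c.hC c.hB hl)] with n a1 a2
  refine ae_ms ?_ fun t ht => ?_
  · exact (measurableSet_le measurable_const (jρ_meas l n).measurable).inter
      (measurableSet_le (jρ_meas l n).measurable measurable_const)
  · have ht' : t ∈ Icc s 1 := ⟨ht.1.le, ht.2⟩
    have ht0 : t ∈ Icc (0 : ℝ) 1 := ⟨hs.1.le.trans ht.1.le, ht.2⟩
    filter_upwards [a1 t ht', a2 t ht0, rn_pos (u := u) (φ := φ) l n t] with x b1 b2 b3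
    rw [b2]
    exact ⟨b3.le, b1⟩

/-- `L²` bound of `ρ^l V θ^l h` -/
theorem Ctx.rV_bd [SigmaFinite m] {l h : M →ₘ[m] ℝ} (hl : l ∈ (sob m).TestI)
    (hh : h ∈ (sob m).TestI) {s : ℝ} (hs : s ∈ Ioo (0 : ℝ) 1) :
    ∃ B : ℝ, ∀ᶠ n in (U : Filter ℕ), MemLp (fun z => jρ u φ l n z • jV V u φ l h n z) 2 (ms m s) ∧
      ∫ z, ‖jρ u φ l n z • jV V u φ l h n z‖ ^ 2 ∂(ms m s) ≤ B := by
  obtain ⟨k, hk0, hk⟩ := c.jρ_bd hl hs
  obtain ⟨C, hC⟩ := c.ebdV hl hh hs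
  refine ⟨k * C, ?_⟩
  filter_upwards [hk, hC] with n h1 h2
  exact ⟨h2.memLp (jρ_meas l n).aestronglyMeasurable h1,
    h2.sq_le (jρ_meas l n).aestronglyMeasurable h1 hk0⟩

/-- `ρ^l = ρ^0 w` in space-time -/
theorem Ctx.jw_mul [SigmaFinite m] {l : M →ₘ[m] ℝ} (hl : l ∈ (sob m).TestI) {s : ℝ}
    (hs : s ∈ Ioo (0 : ℝ) 1) : ∀ᶠ n in (U : Filter ℕ), ∀ᵐ z ∂(ms m s),
      jρ u φ l n z = jw u φ l n z * jρ u φ 0 n z := by
  filter_upwards [c.jw_spec hl] with n a2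
  refine ae_ms (measurableSet_eq_fun (jρ_meas l n).measurable
    ((jw_meas l n).measurable.mul (jρ_meas 0 n).measurable)) fun t ht => ?_
  have ht0 : t ∈ Icc (0 : ℝ) 1 := ⟨hs.1.le.trans ht.1.le, ht.2⟩
  filter_upwards [a2 t ht0] with x b
  obtain ⟨b1, b2, b3, b4, b5⟩ := b
  rw [b1, b2, b4, b5, mul_comm]

/-- the Hessians of `θ^l` and of `θ^0` have the same limit -/
theorem Ctx.T1 [SigmaFinite m] {l h : M →ₘ[m] ℝ} (hl : l ∈ (sob m).TestI)
    (hh : h ∈ (sob m).TestI) {s : ℝ} (hs : s ∈ Ioo (0 : ℝ) 1) {Kb : ℝ} {w0 : ℝ × M → ℝ}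
    (hw : WDat m u φ U Y l Kb w0) {Φ : ℝ × M → E} (hΦ : MemLp Φ 2 (ms m s)) :
    (∀ᶠ n in (U : Filter ℕ),
      MemLp (fun z => jρ u φ l n z • (jV V u φ l h n z - jV V u φ 0 h n z)) 2 (ms m s)) ∧
    Tendsto (fun n => ∫ z, ⟪jρ u φ l n z • (jV V u φ l h n z - jV V u φ 0 h n z), Φ z⟫_ℝ ∂(ms m s))
      U (𝓝 0) := by
  obtain ⟨B1, hB1⟩ := c.rV_bd hl hh hs
  obtain ⟨B2, hB2⟩ := c.rV_bd c.zero hh hs
  have hF : ∀ᶠ n in (U : Filter ℕ),
      MemLp (fun z => jρ u φ l n z • (jV V u φ l h n z - jV V u φ 0 h n z)) 2 (ms m s) ∧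
      ∫ z, ‖jρ u φ l n z • (jV V u φ l h n z - jV V u φ 0 h n z)‖ ^ 2 ∂(ms m s)
        ≤ 2 * B1 + 2 * Kb ^ 2 * B2 ∧
      ∀ᵐ z ∂(ms m s), jρ u φ l n z • (jV V u φ l h n z - jV V u φ 0 h n z)
        ∈ (Submodule.span ℝ (range fun j => Gr (e j) z.2)).topologicalClosure := by
    filter_upwards [hB1, hB2, hw.bdn s hs, c.jw_mul hl hs, c.jV_mem hl hh, c.jV_mem c.zero hh]
      with n h1 h2 h3 h4 h5 h6
    have e1 : ∀ᵐ z ∂(ms m s), jρ u φ l n z • (jV V u φ l h n z - jV V u φ 0 h n z)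
        = jρ u φ l n z • jV V u φ l h n z - jw u φ l n z • (jρ u φ 0 n z • jV V u φ 0 h n z) := by
      filter_upwards [h4] with z hz
      rw [smul_sub, smul_smul, ← hz]
    have m2 : MemLp (fun z => jw u φ l n z • (jρ u φ 0 n z • jV V u φ 0 h n z)) 2 (ms m s) :=
      memLp_bdd_smul h2.1 (jw_meas l n).aestronglyMeasurable h3
    have m3 : MemLp (fun z => jρ u φ l n z • (jV V u φ l h n z - jV V u φ 0 h n z)) 2 (ms m s) :=
      (h1.1.sub m2).ae_eq (e1.mono fun z hz => hz.symm)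
    refine ⟨m3, ?_, ?_⟩
    · have i1 := (memLp_two_iff_integrable_sq_norm h1.1.1).1 h1.1
      have i2 := (memLp_two_iff_integrable_sq_norm h2.1.1).1 h2.1
      have i3 := (memLp_two_iff_integrable_sq_norm m3.1).1 m3
      calc ∫ z, ‖jρ u φ l n z • (jV V u φ l h n z - jV V u φ 0 h n z)‖ ^ 2 ∂(ms m s)
          ≤ ∫ z, (2 * ‖jρ u φ l n z • jV V u φ l h n z‖ ^ 2
              + 2 * Kb ^ 2 * ‖jρ u φ 0 n z • jV V u φ 0 h n z‖ ^ 2) ∂(ms m s) := by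
            refine integral_mono_ae i3 ((i1.const_mul _).add (i2.const_mul _)) ?_
            filter_upwards [e1, h3] with z a1 a2
            show ‖jρ u φ l n z • (jV V u φ l h n z - jV V u φ 0 h n z)‖ ^ 2 ≤ _
            rw [a1]
            have k1 : ‖jw u φ l n z • (jρ u φ 0 n z • jV V u φ 0 h n z)‖ ^ 2
                ≤ Kb ^ 2 * ‖jρ u φ 0 n z • jV V u φ 0 h n z‖ ^ 2 := by
              rw [norm_smul, mul_pow]
              refine mul_le_mul_of_nonneg_right ?_ (by positivity)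
              exact pow_le_pow_left₀ (norm_nonneg _) a2 2
            have k2 := norm_sub_le (jρ u φ l n z • jV V u φ l h n z)
              (jw u φ l n z • (jρ u φ 0 n z • jV V u φ 0 h n z))
            have k3 := pow_le_pow_left₀ (norm_nonneg _) k2 2
            nlinarith [sq_nonneg (‖jρ u φ l n z • jV V u φ l h n z‖
              - ‖jw u φ l n z • (jρ u φ 0 n z • jV V u φ 0 h n z)‖)]
        _ = 2 * ∫ z, ‖jρ u φ l n z • jV V u φ l h n z‖ ^ 2 ∂(ms m s)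
            + 2 * Kb ^ 2 * ∫ z, ‖jρ u φ 0 n z • jV V u φ 0 h n z‖ ^ 2 ∂(ms m s) := by
            rw [integral_add (i1.const_mul _) (i2.const_mul _), integral_const_mul,
              integral_const_mul]
        _ ≤ _ := by
            have := mul_le_mul_of_nonneg_left h2.2 (by positivity : 0 ≤ 2 * Kb ^ 2)
            linarith [h1.2]
    · filter_upwards [h5 s hs, h6 s hs] with z a1 a2
      exact Submodule.smul_mem _ _ (Submodule.sub_mem _ a1 a2)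
  refine ⟨hF.mono fun n hn => hn.1, ?_⟩
  refine H131.weak_zero_stat c.hC c.hE.stat hF (fun a b ha hab hb i j => ?_) hΦ
  have hi := c.hE.stat.testI i
  have hj := c.hE.stat.testI j
  obtain ⟨g, hg1, hg2⟩ := H671.hess_diff c.hyp.std c.hB c.hU c.hS hl hh hi hj hs
  refine squeeze_zero_norm' ?_ hg2
  filter_upwards [hF, hg1, c.jV_all hl, c.jV_all c.zero, c.hU (jρ_spec c.hC c.hB hl),
    c.hU (c.hB.mem l hl), c.hU (c.hB.mem 0 c.zero)] with n h1 h2 h3 h4 h5 h6 h7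
  obtain ⟨Lj, hLj⟩ := mem_top_iff.1 (c.top hj)
  obtain ⟨Li, hLi0, hLi⟩ := c.gr_bd hi
  have hGi : MemLp (fun z : ℝ × M => Gr (e i) z.2) 2 (ms m s) := memLp_snd (c.gr2 hi)
  have k0 : Integrable (fun z : ℝ × M => ⟪jρ u φ l n z • (jV V u φ l h n z - jV V u φ 0 h n z),
      Gr (e i) z.2⟫_ℝ) (ms m s) := int_inner_of_memLp h1.1 hGi
  have k1 : Integrable (fun z : ℝ × M => e j z.2 *
      ⟪jρ u φ l n z • (jV V u φ l h n z - jV V u φ 0 h n z), Gr (e i) z.2⟫_ℝ) (ms m s) :=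
    k0.bdd_mul (asm_snd (e j).aestronglyMeasurable) (ms_snd hLj)
  have k2 : Integrable (fun z : ℝ × M => (Ioc a b).indicator (fun _ => (1 : ℝ)) z.1 * (e j z.2 *
      ⟪jρ u φ l n z • (jV V u φ l h n z - jV V u φ 0 h n z), Gr (e i) z.2⟫_ℝ)) (ms m s) := by
    refine k1.bdd_mul (c := 1) ?_ (ae_of_all _ fun z => by
      by_cases hz : z.1 ∈ Ioc a b <;> simp [hz])
    exact ((measurable_const.indicator measurableSet_Ioc).comp measurable_fst).aestronglyMeasurable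
  have k3 : ∀ t ∈ Ioc s 1, ∫ x, e j x *
      ⟪jρ u φ l n (t, x) • (jV V u φ l h n (t, x) - jV V u φ 0 h n (t, x)), Gr (e i) x⟫_ℝ ∂m
      = I (e j * rn u φ l n t * ((sob m).hess (tn u φ l n t) h (e i)
        - (sob m).hess (tn u φ 0 n t) h (e i))) := by
    intro t ht
    have ht0 : t ∈ Icc (0 : ℝ) 1 := ⟨hs.1.le.trans ht.1.le, ht.2⟩
    unfold I
    refine integral_congr_ae ?_
    filter_upwards [h3 h hh t ht0, h4 h hh t ht0, h5 t ht0,
      c.hE.hu.inner _ (h6 t ht0).2.1.1 _ hh.1 _ hi.1, c.hE.hu.inner _ (h7 t ht0).2.1.1 _ hh.1 _ hi.1,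
      mul_ae (e j * rn u φ l n t) ((sob m).hess (tn u φ l n t) h (e i)
        - (sob m).hess (tn u φ 0 n t) h (e i)), mul_ae (e j) (rn u φ l n t),
      sub_ae ((sob m).hess (tn u φ l n t) h (e i)) ((sob m).hess (tn u φ 0 n t) h (e i))]
      with x b1 b2 b3 b4 b5 b6 b7 b8
    rw [b6, b7, b8, b1, b2, b3, real_inner_smul_left, inner_sub_left, b4, b5]
    ring
  have k4 := int_tensor (m := m) (f := fun z => e j z.2 *
      ⟪jρ u φ l n z • (jV V u φ l h n z - jV V u φ 0 h n z), Gr (e i) z.2⟫_ℝ) ha hab hb k2 k3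
  rw [k4]
  have k5 : IntervalIntegrable (g n) volume a b := by
    refine h2.1.mono_set ?_
    rw [uIcc_of_le hab, uIcc_of_le hs.2.le]
    exact Icc_subset_Icc ha hb
  refine (intervalIntegral.norm_integral_le_of_norm_le hab (g := g n) ?_ k5).trans ?_
  · refine Eventually.of_forall fun t ht => ?_
    exact h2.2 t ⟨ha.trans ht.1.le, ht.2.trans hb⟩
  · refine intervalIntegral.integral_mono_interval ha hab hb ?_ h2.1
    refine (ae_restrict_iff' measurableSet_Ioc).2 (Eventually.of_forall fun t ht => ?_)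
    exact (abs_nonneg _).trans (h2.2 t ⟨ht.1.le, ht.2⟩)

/-- **convergence for all final densities** -/
theorem Ctx.conv [SigmaFinite m] {ρ0 : ℝ × M → ℝ} (hρ : Rho m u φ U ρ ρ0)
    {H : (M →ₘ[m] ℝ) → ℝ × M → E} {Λ : ℝ × M → ℝ} {s : ℝ} (hs : s ∈ Ioo (0 : ℝ) 1)
    (hD : HDat m Gr V e u φ U ρ0 s H Λ) {l h : M →ₘ[m] ℝ} (hl : l ∈ (sob m).TestI)
    (hh : h ∈ (sob m).TestI) {Φ : ℝ → M → E}
    (hΦm : StronglyMeasurable (fun z : ℝ × M => Φ z.1 z.2))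
    (hΦ : MemLp (fun z : ℝ × M => Φ z.1 z.2) 2 (ms m s)) :
    Tendsto (fun n => ∫ t in s..1, I (rn u φ l n t * ipE m (V (tn u φ l n t) h) (Φ t))) U
      (𝓝 (∫ t in s..1, ∫ x, Real.exp (l x) * ⟪H h (t, Y t x), Φ t (Y t x)⟫_ℝ ∂m)) := by
  obtain ⟨Kb, w0, hw⟩ := c.exists_w hρ hl
  obtain ⟨k, hk0, hst⟩ := hρ.star s hs
  obtain ⟨C, hC⟩ := c.ebdV c.zero hh hs
  obtain ⟨B1, hB1⟩ := c.rV_bd hl hh hs
  obtain ⟨t1, t2⟩ := c.T1 hl hh hs hw hΦ
  have hW := (hD.wl h hh).mul_weight hst hC (w := fun n => jw u φ l n) (w0 := w0) (K' := Kb)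
    (fun n => (jw_meas l n).aestronglyMeasurable) hw.meas.aestronglyMeasurable
    (hw.bdn s hs) (hw.bd s hs) (hw.strong s hs)
  have h1 := hW.lim _ hΦ
  -- the limit
  have hlim : ∫ z, ⟪ρ0 z • (w0 z • H h z), Φ z.1 z.2⟫_ℝ ∂(ms m s)
      = ∫ t in s..1, ∫ x, Real.exp (l x) * ⟪H h (t, Y t x), Φ t (Y t x)⟫_ℝ ∂m := by
    have e1 : ∀ z : ℝ × M, ⟪ρ0 z • (w0 z • H h z), Φ z.1 z.2⟫_ℝ
        = ρ0 z • (w0 z * ⟪H h z, Φ z.1 z.2⟫_ℝ) := by
      intro z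
      rw [real_inner_smul_left, real_inner_smul_left, smul_eq_mul]
    have i1 : Integrable (fun z : ℝ × M => ρ0 z • (w0 z * ⟪H h z, Φ z.1 z.2⟫_ℝ)) (ms m s) := by
      have := int_inner_of_memLp hW.mem hΦ
      simpa only [e1] using this
    have hFm : AEStronglyMeasurable (fun z : ℝ × M => w0 z * ⟪H h z, Φ z.1 z.2⟫_ℝ) (ms m s) :=
      hw.meas.aestronglyMeasurable.mul ((hD.wl h hh).meas.inner hΦm.aestronglyMeasurable)
    have i2 := psi_integrable c.hM c.hF.meas hs.1.le hρ.meas.measurable hρ.slice hFm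
      (Eventually.of_forall hρ.nonneg) i1
    have i3 := psi_int c.hM c.hF.meas hs.1.le hρ.meas.measurable hρ.slice hFm
      (Eventually.of_forall hρ.nonneg)
    simp only [e1]
    rw [← i3, int_ms i2 hs.2.le]
    have e2 := ms_ae (hw.flow s hs)
    rw [intervalIntegral.integral_of_le hs.2.le, intervalIntegral.integral_of_le hs.2.le]
    refine integral_congr_ae ?_
    filter_upwards [e2] with t ht
    refine integral_congr_ae ?_
    filter_upwards [ht] with x hx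
    rw [hx]
    rfl
  rw [← hlim]
  -- the levels
  have h3 := h1.add t2
  rw [add_zero] at h3
  refine h3.congr' ?_
  filter_upwards [t1, hB1, c.jw_mul hl hs, hC, hst.bd, hw.bdn s hs, c.jV_all hl,
    c.hU (jρ_spec c.hC c.hB hl), c.hU (c.hB.mem l hl)] with n a1 a2 a3 a4 a5 a6 a7 a8 a9
  have m1 : MemLp (fun z => jρ u φ 0 n z • (jw u φ l n z • jV V u φ 0 h n z)) 2 (ms m s) := by
    have := memLp_bdd_smul (a4.memLp (hst.meas n) a5) (jw_meas l n).aestronglyMeasurable a6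
    refine this.ae_eq (ae_of_all _ fun z => ?_)
    simp only [smul_comm (jw u φ l n z)]
  rw [← integral_add (int_inner_of_memLp m1 hΦ) (int_inner_of_memLp a1 hΦ)]
  have e1 : ∀ᵐ z ∂(ms m s), ⟪jρ u φ 0 n z • (jw u φ l n z • jV V u φ 0 h n z), Φ z.1 z.2⟫_ℝ
      + ⟪jρ u φ l n z • (jV V u φ l h n z - jV V u φ 0 h n z), Φ z.1 z.2⟫_ℝ
      = ⟪jρ u φ l n z • jV V u φ l h n z, Φ z.1 z.2⟫_ℝ := by
    filter_upwards [a3] with z hz
    rw [← inner_add_left, smul_sub, smul_smul, mul_comm (jρ u φ 0 n z), ← hz]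
    congr 1
    abel
  rw [integral_congr_ae e1, int_ms (int_inner_of_memLp a2.1 hΦ) hs.2.le,
    intervalIntegral.integral_of_le hs.2.le, intervalIntegral.integral_of_le hs.2.le]
  refine setIntegral_congr_fun measurableSet_Ioc fun t ht => ?_
  have ht0 : t ∈ Icc (0 : ℝ) 1 := ⟨hs.1.le.trans ht.1.le, ht.2⟩
  show ∫ x, ⟪jρ u φ l n (t, x) • jV V u φ l h n (t, x), Φ t x⟫_ℝ ∂m
    = I (rn u φ l n t * ipE m (V (tn u φ l n t) h) (Φ t))
  have hΦt : AEStronglyMeasurable (Φ t) m :=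
    (hΦm.comp_measurable (measurable_prodMk_left (x := t))).aestronglyMeasurable
  unfold I
  refine integral_congr_ae ?_
  filter_upwards [a7 h hh t ht0, a8 t ht0,
    mul_ae (rn u φ l n t) (ipE m (V (tn u φ l n t) h) (Φ t)),
    ipE_ae (c.hE.hu.mem _ (a9 t ht0).2.1.1 _ hh.1).1 hΦt] with x b1 b2 b3 b4
  rw [b3, b4, b1, b2, real_inner_smul_left]

end metric

end Vale.Agent.P233.H994
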