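import Vale.Agent.P233.H994.Tensor

/-!
P233, block C6b (helper994): gluing of the limit tensors in time, and their algebraic properties.
-/

set_option linter.all false

open MeasureTheory Filter Topology Set
open scoped ENNReal NNReal InnerProductSpace

universe u

namespace Vale.Agent.P233.H994

open Vale.Agent.P233.PA (en OutA)
open Vale.Agent.P233.PC

section abstract

variable {X : Type*} [MeasurableSpace X] {m : Measure X} [SFinite m] {U : Ultrafilter ℕ}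
  {E : Type*} [NormedAddCommGroup E] [InnerProductSpace ℝ E]
  {ρ : ℕ → ℝ × X → ℝ} {ρ0 : ℝ × X → ℝ} {F : ℕ → ℝ × X → E}

theorem wlim_unique {s s₁ : ℝ} {F0 F1 : ℝ × X → E} (h0 : WLim U (ms m s) ρ ρ0 F F0)
    (h1 : WLim U (ms m s₁) ρ ρ0 F F1) :
    ∀ᵐ z ∂(ms m s), s₁ < z.1 → ρ0 z ≠ 0 → F0 z = F1 z := by
  have hS : MeasurableSet (Ioi (max s s₁) ×ˢ (univ : Set X)) :=
    measurableSet_Ioi.prod MeasurableSet.univ
  have a0 := h0.restrict hS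
  have a1 := h1.restrict hS
  rw [ms_restrict (le_max_left _ _)] at a0
  rw [ms_restrict (le_max_right _ _)] at a1
  have a2 := a0.unique a1
  rw [← ms_restrict (m := m) (le_max_left s s₁), ae_restrict_iff' hS] at a2
  filter_upwards [a2, ms_fst (m := m) (s := s)] with z b1 b2 b3
  exact b1 ⟨max_lt b2.1 b3, mem_univ _⟩

theorem wlim_glue {F0 : ℝ → ℝ × X → E} (h : ∀ s ∈ Ioo (0 : ℝ) 1, WLim U (ms m s) ρ ρ0 F (F0 s))
    {Fm : ℕ → ℝ × X → E} (hm : ∀ k, StronglyMeasurable (Fm k))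
    (hFm : ∀ k, ∀ᵐ z ∂(ms m (sk k)), Fm k z = F0 (sk k) z) :
    StronglyMeasurable (fun z : ℝ × X => Fm (kk z.1) z) ∧
    ∀ s ∈ Ioo (0 : ℝ) 1, WLim U (ms m s) ρ ρ0 F (fun z => Fm (kk z.1) z) ∧
      ∀ᵐ z ∂(ms m s), ρ0 z ≠ 0 → Fm (kk z.1) z = F0 s z := by
  have h1 : ∀ k, WLim U (ms m (sk k)) ρ ρ0 F (Fm k) := fun k =>
    (h _ (sk_mem k)).congr0 (hm k).aestronglyMeasurable (by
      filter_upwards [hFm k] with z hz; rw [hz])
  have hgm := glue_meas hm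
  refine ⟨hgm, fun s hs => ?_⟩
  have h2 : ∀ᵐ z ∂(ms m s), ρ0 z ≠ 0 → Fm (kk z.1) z = F0 s z := by
    have h3 : ∀ k, ∀ᵐ z ∂(ms m s), sk k < z.1 → ρ0 z ≠ 0 → F0 s z = Fm k z := fun k =>
      wlim_unique (h s hs) (h1 k)
    filter_upwards [ae_all_iff.2 h3, ms_fst (m := m) (s := s)] with z a1 a2 a3
    exact (a1 (kk z.1) (sk_lt (hs.1.trans a2.1)) a3).symm
  refine ⟨(h s hs).congr0 hgm.aestronglyMeasurable ?_, h2⟩
  filter_upwards [h2] with z hz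
  by_cases h0 : ρ0 z = 0
  · rw [h0, zero_smul, zero_smul]
  · rw [hz h0]

/-- Closed pointwise subspaces. -/
theorem WLim.mem_closed {Y : Type*} [MeasurableSpace Y] {ν : Measure Y} {ρ : ℕ → Y → ℝ}
    {ρ0 : Y → ℝ} {F : ℕ → Y → E} {F0 : Y → E} [CompleteSpace E]
    {S : Y → Submodule ℝ E} (hS : ∀ y, IsClosed (S y : Set E))
    (h : WLim U ν ρ ρ0 F F0) (hm : ∀ᶠ n in (U : Filter ℕ), MemLp (fun y => ρ n y • F n y) 2 ν)
    (hFS : ∀ᶠ n in (U : Filter ℕ), ∀ᵐ y ∂ν, F n y ∈ S y) :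
    ∀ᵐ y ∂ν, ρ0 y ≠ 0 → F0 y ∈ S y := by
  classical
  let 𝒮 : Submodule ℝ (Lp E 2 ν) :=
    { carrier := {f | ∀ᵐ y ∂ν, (f : Y → E) y ∈ S y}
      add_mem' := fun {f g} hf hg => by
        simp only [mem_setOf_eq] at hf hg ⊢
        filter_upwards [hf, hg, Lp.coeFn_add f g] with y a1 a2 a3
        rw [a3]
        exact (S y).add_mem a1 a2
      zero_mem' := by
        simp only [mem_setOf_eq]
        filter_upwards [Lp.coeFn_zero E 2 ν] with y hy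
        rw [hy]
        exact (S y).zero_mem
      smul_mem' := fun c f hf => by
        simp only [mem_setOf_eq] at hf ⊢
        filter_upwards [hf, Lp.coeFn_smul c f] with y a1 a2
        rw [a2]
        exact (S y).smul_mem c a1 }
  have hcl : IsClosed (𝒮 : Set (Lp E 2 ν)) := by
    refine IsSeqClosed.isClosed fun f g hf hg => ?_
    show ∀ᵐ y ∂ν, (g : Y → E) y ∈ S y
    refine H131.mem_of_tendsto hS (F := fun n => (f n : Y → E)) (fun n => Lp.aestronglyMeasurable _)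
      (Lp.aestronglyMeasurable _) ?_ fun n => hf n
    rw [tendsto_iff_edist_tendsto_0] at hg
    exact hg.congr fun n => Lp.edist_def _ _
  haveI : CompleteSpace 𝒮 := hcl.completeSpace_coe
  let x : Lp E 2 ν := h.mem.toLp
  let Px : Lp E 2 ν := 𝒮.starProjection x
  have hPx : Px ∈ 𝒮 := Submodule.starProjection_apply_mem _ _
  have hort : x - Px ∈ 𝒮ᗮ := Submodule.sub_starProjection_mem_orthogonal x
  have hz : ∀ f ∈ 𝒮, ⟪f, x - Px⟫_ℝ = 0 := fun f hf => Submodule.inner_right_of_mem_orthogonal hf hort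
  have hd : MemLp ((x - Px : Lp E 2 ν) : Y → E) 2 ν := Lp.memLp _
  have h1 := h.lim _ hd
  have h2 : ∫ y, ⟪ρ0 y • F0 y, ((x - Px : Lp E 2 ν) : Y → E) y⟫_ℝ ∂ν = ⟪x, x - Px⟫_ℝ := by
    rw [← inner_toLp h.mem hd, Lp.toLp_coeFn]
  have h3 : ⟪x, x - Px⟫_ℝ = 0 := by
    rw [← h2]
    refine tendsto_nhds_unique h1 (tendsto_const_nhds.congr' ?_)
    filter_upwards [hm, hFS] with n a1 a2
    have h4 : a1.toLp ∈ 𝒮 := by
      show ∀ᵐ y ∂ν, (a1.toLp : Y → E) y ∈ S y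
      filter_upwards [a1.coeFn_toLp, a2] with y b1 b2
      rw [b1]
      exact (S y).smul_mem _ b2
    rw [← hz _ h4, ← inner_toLp a1 hd, Lp.toLp_coeFn]
  have h5 : x - Px = 0 := by
    rw [← inner_self_eq_zero (𝕜 := ℝ)]
    rw [inner_sub_left, h3, hz _ hPx, sub_zero]
  have h6 : x ∈ 𝒮 := by rw [sub_eq_zero.1 h5]; exact hPx
  have h7 : ∀ᵐ y ∂ν, (x : Y → E) y ∈ S y := h6
  filter_upwards [h7, h.mem.coeFn_toLp] with y a1 a2 a3
  rw [a2] at a1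
  have := (S y).smul_mem (ρ0 y)⁻¹ a1
  rwa [smul_smul, inv_mul_cancel₀ a3, one_smul] at this

end abstract

section metric

variable {M : Type u} [MetricSpace M] [CompleteSpace M] [SecondCountableTopology M]
  [MeasurableSpace M] [BorelSpace M] {m : Measure M} {K N κ : ℝ}
  {P : ℝ → (M →ₘ[m] ℝ) → (M →ₘ[m] ℝ)} {p : M} {s₀ C₀ : ℝ}
variable {E : Type} [NormedAddCommGroup E] [InnerProductSpace ℝ E] [CompleteSpace E]
variable {Gr : (M →ₘ[m] ℝ) → M → E} {V : (M →ₘ[m] ℝ) → (M →ₘ[m] ℝ) → M → E}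
  {D : (M →ₘ[m] ℝ) → (M →ₘ[m] ℝ)} {HO : (M →ₘ[m] ℝ) → M → E →L[ℝ] E} {e : ℕ → M →ₘ[m] ℝ}
variable {u : ℕ → ℝ → M →ₘ[m] ℝ} {φ : (M →ₘ[m] ℝ) → ℕ → ℝ → M →ₘ[m] ℝ} {U : Ultrafilter ℕ}
variable {ψ ρ : ℝ → M →ₘ[m] ℝ} {R : ℝ → ℝ → (M →ₘ[m] ℝ) → (M →ₘ[m] ℝ)} {Y : ℝ → M → M}

variable (c : Ctx m K N κ P p s₀ C₀ Gr V D HO e u φ U ψ ρ R Y)

include c

/-- **the glued limit tensor** -/
theorem Ctx.exists_Hglue [SigmaFinite m] {ρ0 : ℝ × M → ℝ} (hρ : Rho m u φ U ρ ρ0) :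
    ∃ (H : (M →ₘ[m] ℝ) → ℝ × M → E) (Λ : ℝ × M → ℝ),
      (∀ h ∈ (sob m).TestI, StronglyMeasurable (H h)) ∧ Measurable Λ ∧
      ∀ s ∈ Ioo (0 : ℝ) 1, HDat m Gr V e u φ U ρ0 s H Λ := by
  classical
  choose! H' Λ' hd using fun (s : ℝ) (hs : s ∈ Ioo (0 : ℝ) 1) => c.exists_H hρ hs
  let Hm : (M →ₘ[m] ℝ) → ℕ → ℝ × M → E := fun h k =>
    if hh : h ∈ (sob m).TestI then ((hd (sk k) (sk_mem k)).wl h hh).meas.mk _ else 0
  have hHm : ∀ h k, StronglyMeasurable (Hm h k) := by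
    intro h k
    simp only [Hm]
    split_ifs with hh
    · exact AEStronglyMeasurable.stronglyMeasurable_mk _
    · exact stronglyMeasurable_const
  have hHe : ∀ h ∈ (sob m).TestI, ∀ k, ∀ᵐ z ∂(ms m (sk k)), Hm h k z = H' (sk k) h z := by
    intro h hh k
    simp only [Hm, dif_pos hh]
    exact (AEStronglyMeasurable.ae_eq_mk _).symm
  let Λm : ℕ → ℝ × M → ℝ := fun k z => max ((hd (sk k) (sk_mem k)).wΛ.meas.mk _ z) 0
  have hΛm : ∀ k, StronglyMeasurable (Λm k) := fun k =>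
    (AEStronglyMeasurable.stronglyMeasurable_mk _).sup stronglyMeasurable_const
  have hΛe : ∀ k, ∀ᵐ z ∂(ms m (sk k)), Λm k z = Λ' (sk k) z := by
    intro k
    filter_upwards [(hd (sk k) (sk_mem k)).wΛ.meas.ae_eq_mk] with z hz
    simp only [Λm]
    rw [← hz]
    exact max_eq_left ((hd (sk k) (sk_mem k)).nn z)
  have g1 := fun h (hh : h ∈ (sob m).TestI) => wlim_glue (F0 := fun s => H' s h)
    (fun s hs => (hd s hs).wl h hh) (hHm h) (hHe h hh)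
  have g2 := wlim_glue (F0 := fun s => Λ' s) (fun s hs => (hd s hs).wΛ) hΛm hΛe
  refine ⟨fun h z => Hm h (kk z.1) z, fun z => Λm (kk z.1) z, fun h hh => (g1 h hh).1,
    g2.1.measurable, fun s hs => ⟨fun h hh => ((g1 h hh).2 s hs).1, (g2.2 s hs).1,
      fun z => le_max_right _ _, fun h hh => ?_⟩⟩
  filter_upwards [((g1 h hh).2 s hs).2, (g2.2 s hs).2, (hd s hs).bd h hh] with z a1 a2 a3 a4
  rw [a1 a4.ne', a2 a4.ne']
  exact a3 a4

/-- the Hessians take their values in the tangent spaces -/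
theorem Ctx.jV_mem [SigmaFinite m] {l h : M →ₘ[m] ℝ} (hl : l ∈ (sob m).TestI)
    (hh : h ∈ (sob m).TestI) : ∀ᶠ n in (U : Filter ℕ), ∀ s ∈ Ioo (0 : ℝ) 1, ∀ᵐ z ∂(ms m s),
      jV V u φ l h n z ∈ (Submodule.span ℝ (range fun j => Gr (e j) z.2)).topologicalClosure := by
  filter_upwards [c.jV_all hl, c.hU (c.hB.mem l hl)] with n h1 h2 s hs
  have h3 : ∀ᵐ z ∂(ms m s), ∀ r : ℕ, ∃ j, ‖jV V u φ l h n z - Gr (e j) z.2‖ < 1 / ((r : ℝ) + 1) := by
    refine ae_ms ?_ fun t ht => ?_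
    · have : {z : ℝ × M | ∀ r : ℕ, ∃ j, ‖jV V u φ l h n z - Gr (e j) z.2‖ < 1 / ((r : ℝ) + 1)}
          = ⋂ r : ℕ, ⋃ j, {z : ℝ × M | ‖jV V u φ l h n z - Gr (e j) z.2‖ < 1 / ((r : ℝ) + 1)} := by
        ext z; simp
      rw [this]
      refine MeasurableSet.iInter fun r => MeasurableSet.iUnion fun j => ?_
      exact measurableSet_lt ((jr_meas _).sub ((c.gradI
        (c.hE.stat.testI j)).comp_measurable measurable_snd)).norm.measurable measurable_const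
    · have ht0 : t ∈ Icc (0 : ℝ) 1 := ⟨hs.1.le.trans ht.1.le, ht.2⟩
      filter_upwards [h1 h hh t ht0, H671.V_mem c.hC c.hE.hu c.hE.stat (h2 t ht0).2.1.1 hh.1,
        H671.ae_dense c.hC c.bei c.hE.stat] with x a1 a2 a3 r
      have a4 := a3 _ a2
      obtain ⟨y, ⟨j, hj⟩, hy⟩ := Metric.mem_closure_iff.1 a4 (1 / ((r : ℝ) + 1)) (by positivity)
      refine ⟨j, ?_⟩
      rw [a1, ← dist_eq_norm]
      rwa [← hj] at hy
  filter_upwards [h3] with z hz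
  have h4 : jV V u φ l h n z ∈ closure (range fun j => Gr (e j) z.2) := by
    rw [Metric.mem_closure_iff]
    intro ε hε
    obtain ⟨r, hr⟩ := exists_nat_one_div_lt hε
    obtain ⟨j, hj⟩ := hz r
    exact ⟨_, ⟨j, rfl⟩, by rw [dist_eq_norm]; exact hj.trans hr⟩
  exact closure_mono Submodule.subset_span h4

variable [SigmaFinite m] {ρ0 : ℝ × M → ℝ} (hρ : Rho m u φ U ρ ρ0)
variable {H : (M →ₘ[m] ℝ) → ℝ × M → E} {Λ : ℝ × M → ℝ} {s : ℝ} (hs : s ∈ Ioo (0 : ℝ) 1)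
variable (hD : HDat m Gr V e u φ U ρ0 s H Λ)

include hρ hs hD

theorem Ctx.Λ_ebd : ∃ C, EBd (ms m s) C ρ0 Λ := by
  obtain ⟨k, hk0, hst⟩ := hρ.star s hs
  obtain ⟨C, hC⟩ := c.ebdΛ hs
  exact ⟨C, hD.wΛ.ebd hst hC⟩

theorem Ctx.rV_mem {h : M →ₘ[m] ℝ} (hh : h ∈ (sob m).TestI) :
    ∀ᶠ n in (U : Filter ℕ), MemLp (fun z => jρ u φ 0 n z • jV V u φ 0 h n z) 2 (ms m s) := by
  obtain ⟨k, hk0, hst⟩ := hρ.star s hs
  obtain ⟨C, hC⟩ := c.ebdV c.zero hh hs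
  filter_upwards [hC, hst.bd] with n h1 h2
  exact h1.memLp (hst.meas n) h2

theorem Ctx.H_lin {h h' : M →ₘ[m] ℝ} (hh : h ∈ (sob m).TestI) (hh' : h' ∈ (sob m).TestI) (a : ℝ) :
    ∀ᵐ z ∂(ms m s), ρ0 z ≠ 0 → H (h + a • h') z = H h z + a • H h' z := by
  have hs' := c.hC.testI_add c.bei hh (c.hC.testI_smul c.bei a hh')
  have w1 := hD.wl _ hs'
  have w2 := (hD.wl h' hh').bsmul (c := fun _ => a) (c1 := |a|) aestronglyMeasurable_const
    (ae_of_all _ fun _ => le_rfl)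
  have w3 := (hD.wl h hh).add w2 (c.rV_mem hρ hs hD hh) (by
    filter_upwards [c.rV_mem hρ hs hD hh'] with n hn
    refine (hn.const_smul a).ae_eq (ae_of_all _ fun z => ?_)
    simp only [Pi.smul_apply, smul_comm a])
  have w4 : WLim U (ms m s) (fun n => jρ u φ 0 n) ρ0 (fun n => jV V u φ 0 (h + a • h') n)
      (fun z => H h z + a • H h' z) := by
    refine w3.congr ?_
    filter_upwards [c.jV_all c.zero, c.hU (c.hB.mem 0 c.zero)] with n h1 h2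
    have h3 : ∀ᵐ z ∂(ms m s), jV V u φ 0 (h + a • h') n z
        = jV V u φ 0 h n z + a • jV V u φ 0 h' n z := by
      refine ae_ms (StronglyMeasurable.measurableSet_eq_fun (jr_meas _)
        ((jr_meas _).add ((jr_meas _).const_smul a))) fun t ht => ?_
      have ht0 : t ∈ Icc (0 : ℝ) 1 := ⟨hs.1.le.trans ht.1.le, ht.2⟩
      filter_upwards [h1 _ hs' t ht0, h1 _ hh t ht0, h1 _ hh' t ht0,
        c.hE.hu.lin_a c.hC c.bei c.hE.stat.grad a hh.1 hh'.1 (h2 t ht0).2.1.1] with x b1 b2 b3 b4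
      rw [b1, b2, b3, b4]
    filter_upwards [h3] with z hz
    rw [hz]
  exact w1.unique w4

theorem Ctx.H_sym {h h' : M →ₘ[m] ℝ} (hh : h ∈ (sob m).TestI) (hh' : h' ∈ (sob m).TestI) :
    ∀ᵐ z ∂(ms m s), ρ0 z ≠ 0 → ⟪H h z, Gr h' z.2⟫_ℝ = ⟪H h' z, Gr h z.2⟫_ℝ := by
  refine (hD.wl h hh).symm (hD.wl h' hh') (X := fun z => Gr h z.2) (X' := fun z => Gr h' z.2)
    (memLp_snd (c.gr2 hh)) (memLp_snd (c.gr2 hh')) ?_
  filter_upwards [c.jV_all c.zero, c.hU (c.hB.mem 0 c.zero)] with n h1 h2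
  refine ae_ms (measurableSet_eq_fun
    ((jr_meas _).inner ((c.gradI hh').comp_measurable measurable_snd)).measurable
    ((jr_meas _).inner ((c.gradI hh).comp_measurable measurable_snd)).measurable) fun t ht => ?_
  have ht0 : t ∈ Icc (0 : ℝ) 1 := ⟨hs.1.le.trans ht.1.le, ht.2⟩
  have hθ := (h2 t ht0).2.1.1
  filter_upwards [h1 _ hh t ht0, h1 _ hh' t ht0, c.hE.hu.inner _ hθ _ hh.1 _ hh'.1,
    c.hE.hu.inner _ hθ _ hh'.1 _ hh.1, eq_iff_ae.1 (c.hC.hess_symm c.bei hθ hh.1 hh'.1)]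
    with x b1 b2 b3 b4 b5
  rw [b1, b2, b3, b4, b5]

theorem Ctx.H_span {h : M →ₘ[m] ℝ} (hh : h ∈ (sob m).TestI) :
    ∀ᵐ z ∂(ms m s), ρ0 z ≠ 0 →
      H h z ∈ (Submodule.span ℝ (range fun j => Gr (e j) z.2)).topologicalClosure := by
  let S : ℝ × M → Submodule ℝ E :=
    fun z => (Submodule.span ℝ (range fun j => Gr (e j) z.2)).topologicalClosure
  have hS : ∀ z, IsClosed (S z : Set E) := fun z => Submodule.isClosed_topologicalClosure _
  have h1 := c.rV_mem hρ hs hD hh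
  have h2 : ∀ᶠ n in (U : Filter ℕ), ∀ᵐ z ∂(ms m s), jV V u φ 0 h n z ∈ S z :=
    (c.jV_mem c.zero hh).mono fun n hn => hn s hs
  exact WLim.mem_closed (S := S) hS (hD.wl h hh) h1 h2

end metric

end Vale.Agent.P233.H994
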