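import Vale.Agent.P233.MathlibUsed2
import Mathlib.MeasureTheory.Constructions.Polish.StronglyMeasurable
import Mathlib.MeasureTheory.Function.Floor

/-!
P233, block C6b (helper994): jointly strongly measurable representatives of strongly continuous
curves in `L²`.
-/

open MeasureTheory Filter Topology Set
open scoped ENNReal NNReal

namespace Vale.Agent.P233.H994

variable {X : Type*} [MeasurableSpace X] {m : Measure X}
variable {E : Type*} [NormedAddCommGroup E]

/-- Fast convergence in `L²` implies convergence a.e. -/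
theorem ae_tendsto_of_fast {f : ℕ → X → E} {g : X → E} (hf : ∀ k, AEStronglyMeasurable (f k) m)
    (hg : AEStronglyMeasurable g m)
    (h : ∀ k, eLpNorm (fun x => f k x - g x) 2 m ≤ ENNReal.ofReal ((1 / 2 : ℝ) ^ k)) :
    ∀ᵐ x ∂m, Tendsto (fun k => f k x) atTop (𝓝 (g x)) := by
  have h1 : ∀ k, ∫⁻ x, ‖f k x - g x‖ₑ ^ 2 ∂m ≤ ENNReal.ofReal ((1 / 2 : ℝ) ^ k) := by
    intro k
    have h2 := eLpNorm_eq_lintegral_rpow_enorm_toReal (μ := m) (f := fun x => f k x - g x)
      (p := 2) two_ne_zero ENNReal.ofNat_ne_top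
    have h3 : ∫⁻ x, ‖f k x - g x‖ₑ ^ 2 ∂m = eLpNorm (fun x => f k x - g x) 2 m ^ 2 := by
      rw [h2]
      simp only [ENNReal.toReal_ofNat, one_div, ENNReal.rpow_ofNat]
      rw [← ENNReal.rpow_natCast, ← ENNReal.rpow_mul]
      simp
    rw [h3]
    have h4 : ENNReal.ofReal ((1 / 2 : ℝ) ^ k) ≤ 1 := by
      rw [← ENNReal.ofReal_one]
      exact ENNReal.ofReal_le_ofReal (pow_le_one₀ (by norm_num) (by norm_num))
    calc eLpNorm (fun x => f k x - g x) 2 m ^ 2
        ≤ ENNReal.ofReal ((1 / 2 : ℝ) ^ k) ^ 2 := pow_le_pow_left₀ zero_le (h k) 2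
      _ = ENNReal.ofReal ((1 / 2 : ℝ) ^ k) * ENNReal.ofReal ((1 / 2 : ℝ) ^ k) := sq _
      _ ≤ 1 * ENNReal.ofReal ((1 / 2 : ℝ) ^ k) := mul_le_mul_left h4 _
      _ = _ := one_mul _
  have h5 : ∑' k, ∫⁻ x, ‖f k x - g x‖ₑ ^ 2 ∂m ≠ ∞ := by
    refine ne_top_of_le_ne_top ?_ (ENNReal.tsum_le_tsum h1)
    rw [← ENNReal.ofReal_tsum_of_nonneg (fun k => by positivity)
      (summable_geometric_of_lt_one (by norm_num) (by norm_num))]
    exact ENNReal.ofReal_ne_top
  have hm : ∀ k, AEMeasurable (fun x => ‖f k x - g x‖ₑ ^ 2) m := fun k =>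
    ((hf k).sub hg).enorm.pow_const 2
  rw [← lintegral_tsum hm] at h5
  have h6 := ae_lt_top' (AEMeasurable.tsum hm) h5
  filter_upwards [h6] with x hx
  have h7 := ENNReal.tendsto_atTop_zero_of_tsum_ne_top hx.ne
  rw [tendsto_iff_edist_tendsto_0]
  have h8 : Tendsto (fun k => (‖f k x - g x‖ₑ ^ 2) ^ (1 / 2 : ℝ)) atTop (𝓝 (0 ^ (1 / 2 : ℝ))) :=
    (ENNReal.continuous_rpow_const.tendsto _).comp h7
  rw [ENNReal.zero_rpow_of_pos (by norm_num)] at h8
  refine h8.congr fun k => ?_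
  rw [edist_eq_enorm_sub, ← ENNReal.rpow_natCast, ← ENNReal.rpow_mul]
  simp

theorem exists_joint_aux [CompleteSpace E] {Φ : ℝ → Lp E 2 m} (hu : UniformContinuous Φ) :
    ∃ G : ℝ × X → E, StronglyMeasurable G ∧ ∀ t, ∀ᵐ x ∂m, G (t, x) = (Φ t : X → E) x := by
  -- the grids
  have hN : ∀ k : ℕ, ∃ N : ℕ, ∀ s t : ℝ, dist s t ≤ 1 / ((N : ℝ) + 1) →
      dist (Φ s) (Φ t) < (1 / 2 : ℝ) ^ k := by
    intro k
    obtain ⟨δ, hδ, h1⟩ := Metric.uniformContinuous_iff.1 hu ((1 / 2 : ℝ) ^ k) (by positivity)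
    obtain ⟨N, hN⟩ := exists_nat_one_div_lt hδ
    exact ⟨N, fun s t hst => h1 (hst.trans_lt hN)⟩
  choose N hN using hN
  let gr : ℕ → ℝ → ℝ := fun k t => (⌊t * ((N k : ℝ) + 1)⌋ : ℝ) / ((N k : ℝ) + 1)
  have hgr : ∀ k t, dist (gr k t) t ≤ 1 / ((N k : ℝ) + 1) := by
    intro k t
    have hpos : (0 : ℝ) < (N k : ℝ) + 1 := by positivity
    rw [Real.dist_eq, abs_sub_comm, abs_of_nonneg]
    · simp only [gr]
      rw [sub_le_iff_le_add, ← add_div, le_div_iff₀ hpos]
      have := Int.lt_floor_add_one (t * ((N k : ℝ) + 1))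
      linarith
    · rw [sub_nonneg]
      simp only [gr]
      rw [div_le_iff₀ hpos]
      exact Int.floor_le _
  let r : ℕ → ℤ → X → E := fun k j => (Φ ((j : ℝ) / ((N k : ℝ) + 1)) : X → E)
  have hr : ∀ k, StronglyMeasurable (Function.uncurry (r k)) := fun k =>
    stronglyMeasurable_uncurry_of_continuous_of_stronglyMeasurable
      (fun x => continuous_of_discreteTopology) (fun j => Lp.stronglyMeasurable _)
  let f : ℕ → ℝ × X → E := fun k z => Function.uncurry (r k) (⌊z.1 * ((N k : ℝ) + 1)⌋, z.2)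
  have hf : ∀ k, StronglyMeasurable (f k) := fun k =>
    (hr k).comp_measurable (Measurable.prodMk
      ((Measurable.floor (measurable_fst.mul_const _))) measurable_snd)
  refine ⟨fun z => limUnder atTop fun k => f k z, StronglyMeasurable.limUnder hf, fun t => ?_⟩
  have key : ∀ᵐ x ∂m, Tendsto (fun k => f k (t, x)) atTop (𝓝 ((Φ t : X → E) x)) := by
    refine ae_tendsto_of_fast (fun k => ?_) (Lp.aestronglyMeasurable _) fun k => ?_
    · exact ((hf k).comp_measurable measurable_prodMk_left).aestronglyMeasurable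
    · have h1 : dist (Φ (gr k t)) (Φ t) ≤ (1 / 2 : ℝ) ^ k := (hN k _ _ (hgr k t)).le
      rw [Lp.dist_def] at h1
      have h2 : eLpNorm (⇑(Φ (gr k t)) - ⇑(Φ t)) 2 m ≠ ∞ :=
        ((Lp.memLp _).sub (Lp.memLp _)).2.ne
      exact (ENNReal.le_ofReal_iff_toReal_le h2 (by positivity)).2 h1
  filter_upwards [key] with x h1
  exact h1.limUnder_eq

/-- **Joint representatives.** -/
theorem exists_joint [CompleteSpace E] {F : ℝ → X → E} {a b : ℝ} (hab : a ≤ b)
    (hF : ∀ t ∈ Icc a b, MemLp (F t) 2 m)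
    (hc : ∀ t ∈ Icc a b, Tendsto (fun s => eLpNorm (fun x => F s x - F t x) 2 m)
      (𝓝[Icc a b] t) (𝓝 0)) :
    ∃ G : ℝ × X → E, StronglyMeasurable G ∧ ∀ t ∈ Icc a b, ∀ᵐ x ∂m, G (t, x) = F t x := by
  -- the curve in `L²`
  let Ψ : Icc a b → Lp E 2 m := fun t => (hF t t.2).toLp (F t)
  have hΨ : Continuous Ψ := by
    rw [continuous_iff_continuousAt]
    intro t
    rw [ContinuousAt, tendsto_iff_edist_tendsto_0]
    have h2 : Tendsto (fun s : Icc a b => eLpNorm (fun x => F s x - F t x) 2 m) (𝓝 t) (𝓝 0) := by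
      have h3 : Tendsto (fun s : Icc a b => (s : ℝ)) (𝓝 t) (𝓝[Icc a b] t) := by
        rw [← map_nhds_subtype_val]
        exact tendsto_map
      exact (hc t t.2).comp h3
    refine h2.congr fun s => ?_
    simp only [Ψ]
    rw [Lp.edist_toLp_toLp]
    rfl
  have hu : UniformContinuous Ψ := CompactSpace.uniformContinuous_of_continuous hΨ
  have h3 : UniformContinuous (projIcc a b hab) := (LipschitzWith.projIcc hab).uniformContinuous
  obtain ⟨G, hG, hG2⟩ := exists_joint_aux (hu.comp h3)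
  refine ⟨G, hG, fun t ht => ?_⟩
  filter_upwards [hG2 t, (hF t ht).coeFn_toLp] with x h1 h2
  rw [h1, ← h2]
  simp only [Function.comp_apply, Ψ]
  rw [projIcc_of_mem hab ht]

end Vale.Agent.P233.H994
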