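import Vale.Agent.P233.H994.SliceEq
import Vale.Agent.P233.Gig.IfC
import Vale.Agent.P233.H748.Ex

/-!
P233, block C6b (helper994): joint representatives and bounds of the level data.
-/

set_option linter.all false

open MeasureTheory Filter Topology Set
open scoped ENNReal NNReal InnerProductSpace

universe u

namespace Vale.Agent.P233.H994

open Vale.Agent.P233.PA (en OutA)
open Vale.Agent.P233.PC

/-! ### a separating family -/

section sep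

variable {M : Type u} [MeasurableSpace M] {m : Measure M} {C : Calc m}

theorem sep_of_dense (hC : IsDir C) {e : ℕ → M →ₘ[m] ℝ} (heW : ∀ i, e i ∈ C.W)
    (hd : ∀ f ∈ C.W, ∀ ε > 0, ∃ i, C.nrm2 (f - e i) < ε) (g : M →ₘ[m] ℝ) (hg : MemLp g 2 m)
    (h : ∀ i, I (e i * g) = 0) : g = 0 := by
  -- the family is dense in `L²`
  have h1 : ∀ ε > 0, I (g ^ 2) ≤ ε := by
    intro ε hε
    obtain ⟨f, hf, hfe⟩ := hC.dense_L2 g hg (ε / 4) (by positivity)
    obtain ⟨i, hi⟩ := hd f hf (ε / 4) (by positivity)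
    have h2 : I ((f - e i) ^ 2) < ε / 4 := (hC.I_sq_le_nrm2 (hC.sub_mem hf (heW i))).trans_lt hi
    have m1 : MemLp (g - e i : M →ₘ[m] ℝ) 2 m := mem_sub hg (hC.memLp _ (heW i))
    have m2 := hC.memLp _ hf
    have m3 := hC.memLp _ (heW i)
    have h3 : I ((g - e i) ^ 2) ≤ ε := by
      have h4 : I ((g - e i) ^ 2) ≤ I ((2 : ℝ) • (g - f) ^ 2 + (2 : ℝ) • (f - e i) ^ 2) := by
        refine I_mono (mem_sq m1) (mem_add (mem_smul _ (mem_sq (mem_sub hg m2)))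
          (mem_smul _ (mem_sq (mem_sub m2 m3)))) ?_
        rw [le_iff_ae]
        filter_upwards [sq_ae (g - e i), sq_ae (g - f), sq_ae (f - e i), sub_ae g (e i),
          sub_ae g f, sub_ae f (e i), add_ae ((2 : ℝ) • (g - f) ^ 2) ((2 : ℝ) • (f - e i) ^ 2),
          smul_ae ((g - f) ^ 2) (2 : ℝ), smul_ae ((f - e i) ^ 2) (2 : ℝ)]
          with x a1 a2 a3 a4 a5 a6 a7 a8 a9
        rw [a7, a8, a9, a1, a2, a3, a4, a5, a6]
        nlinarith [sq_nonneg (g x - f x - (f x - e i x))]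
      rw [I_add (mem_smul _ (mem_sq (mem_sub hg m2))) (mem_smul _ (mem_sq (mem_sub m2 m3))),
        I_smul, I_smul] at h4
      linarith
    have h5 : I (g ^ 2) ≤ I ((g - e i) ^ 2) := by
      have e1 : (g - e i) ^ 2 = g ^ 2 - (2 : ℝ) • (e i * g) + e i ^ 2 := by
        rw [two_smul]; ring
      rw [e1, I_add (mem_sub (mem_sq hg) (mem_smul _ (mem_mul_22 m3 hg))) (mem_sq m3),
        I_sub (mem_sq hg) (mem_smul _ (mem_mul_22 m3 hg)), I_smul, h i]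
      have : 0 ≤ I (e i ^ 2) := I_sq_nonneg _
      linarith
    linarith
  exact I_sq_eq_zero hg (le_antisymm (le_of_forall_pos_le_add fun ε hε => by
    simpa using h1 ε hε) (I_sq_nonneg g))

end sep

/-! ### joint representatives -/

section rep

variable {M : Type u} [MeasurableSpace M] {m : Measure M}
variable {E : Type*} [NormedAddCommGroup E]

open Classical in
/-- joint representative on `[0,1]` -/
noncomputable def jr (m : Measure M) (F : ℝ → M → E) : ℝ × M → E :=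
  if h : ∃ G : ℝ × M → E, StronglyMeasurable G ∧ ∀ t ∈ Icc (0 : ℝ) 1, ∀ᵐ x ∂m, G (t, x) = F t x
  then h.choose else 0

theorem jr_meas (F : ℝ → M → E) : StronglyMeasurable (jr m F) := by
  unfold jr
  split_ifs with h
  · exact h.choose_spec.1
  · exact stronglyMeasurable_const

theorem jr_spec {F : ℝ → M → E} (h : ∃ G : ℝ × M → E, StronglyMeasurable G ∧
    ∀ t ∈ Icc (0 : ℝ) 1, ∀ᵐ x ∂m, G (t, x) = F t x) :
    ∀ t ∈ Icc (0 : ℝ) 1, ∀ᵐ x ∂m, jr m F (t, x) = F t x := by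
  unfold jr
  rw [dif_pos h]
  exact h.choose_spec.2

/-- joint representatives of curves of functions -/
theorem exists_joint_fun {F : ℝ → M →ₘ[m] ℝ} (hF : ∀ t ∈ Icc (0 : ℝ) 1, MemLp (F t - 1 : M →ₘ[m] ℝ) 2 m)
    (hc : ∀ t ∈ Icc (0 : ℝ) 1, Tendsto (fun s => I ((F s - F t) ^ 2)) (𝓝[Icc 0 1] t) (𝓝 0)) :
    ∃ G : ℝ × M → ℝ, StronglyMeasurable G ∧ ∀ t ∈ Icc (0 : ℝ) 1, ∀ᵐ x ∂m, G (t, x) = F t x := by
  obtain ⟨G, hG, h⟩ := exists_joint (m := m) (F := fun t x => (F t - 1 : M →ₘ[m] ℝ) x)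
    (zero_le_one (α := ℝ)) (fun t ht => hF t ht) fun t ht => by
      have h1 : Tendsto (fun s => ENNReal.ofReal √(I ((F s - F t) ^ 2))) (𝓝[Icc 0 1] t) (𝓝 0) := by
        have h2 := (hc t ht).sqrt
        rw [Real.sqrt_zero] at h2
        have h3 := ENNReal.tendsto_ofReal h2
        rwa [ENNReal.ofReal_zero] at h3
      refine h1.congr' ?_
      filter_upwards [self_mem_nhdsWithin] with s hs
      have h4 : (F s - 1 : M →ₘ[m] ℝ) - (F t - 1) = F s - F t := by abel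
      have h5 : MemLp (F s - F t : M →ₘ[m] ℝ) 2 m := by
        rw [← h4]; exact mem_sub (hF s hs) (hF t ht)
      have h6 : eLpNorm (fun x => (F s - 1 : M →ₘ[m] ℝ) x - (F t - 1 : M →ₘ[m] ℝ) x) 2 m
          = eLpNorm (F s - F t : M →ₘ[m] ℝ) 2 m := by
        refine eLpNorm_congr_ae ?_
        filter_upwards [sub_ae (F s - 1) (F t - 1)] with x hx
        rw [← h4, hx]
      rw [h6, eLpNorm_eq_sqrt_I h5]
  refine ⟨fun z => G z + 1, hG.add stronglyMeasurable_const, fun t ht => ?_⟩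
  filter_upwards [h t ht, sub_ae (F t) 1, one_ae (M := M) (m := m)] with x a1 a2 a3
  rw [a1, a2, a3]; ring

end rep

/-! ### level facts -/

section level

variable {M : Type u} [MetricSpace M] [SecondCountableTopology M] [MeasurableSpace M]
  [BorelSpace M] {m : Measure M} {K N κ : ℝ} {P : ℝ → (M →ₘ[m] ℝ) → (M →ₘ[m] ℝ)} {p : M} {s₀ C₀ : ℝ}
variable {E : Type} [NormedAddCommGroup E] [InnerProductSpace ℝ E]
variable {Gr : (M →ₘ[m] ℝ) → M → E} {V : (M →ₘ[m] ℝ) → (M →ₘ[m] ℝ) → M → E}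
  {D : (M →ₘ[m] ℝ) → (M →ₘ[m] ℝ)} {HO : (M →ₘ[m] ℝ) → M → E →L[ℝ] E} {e : ℕ → M →ₘ[m] ℝ}
variable {u : ℕ → ℝ → M →ₘ[m] ℝ} {φ : (M →ₘ[m] ℝ) → ℕ → ℝ → M →ₘ[m] ℝ}

theorem std_gamma (h : Std m K N) : IsGamma (sob m) :=
  isGamma_sob h.hfin h.rcd.quadratic h.rcd.sobolev_to_lipschitz

theorem std_bei (h : Std m K N) : (sob m).BEi K := (std_gamma h).bei h.hN h.rcd.bochner

theorem en_pos (n : ℕ) : 0 < en n := by unfold en; positivity

theorem en_le (n : ℕ) : en n ≤ 1 := by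
  unfold en
  rw [inv_le_one₀ (by positivity)]
  have : (0 : ℝ) ≤ n := Nat.cast_nonneg n
  linarith

/-- the densities are bounded on `[s,1]`, uniformly in the level -/
theorem rn_bd (hN : 0 < N) (hA : OutA m K N P p s₀ C₀ u φ) (hC0 : 0 < C₀) {l : M →ₘ[m] ℝ}
    (hl : l ∈ (sob m).TestI) (hlt : MemLp l ∞ m) {s : ℝ} (hs : s ∈ Ioo (0 : ℝ) 1) :
    ∃ k : ℝ, 0 ≤ k ∧ ∀ᶠ n in atTop, ∀ t ∈ Icc s 1, ∀ᵐ x ∂m, rn u φ l n t x ≤ k := by
  obtain ⟨c, hc⟩ := mem_top_iff.1 hlt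
  set c' := max c 0 with hc'
  have h1 : ∀ᵐ x ∂m, l x ≤ Real.log (Real.exp c') := by
    rw [Real.log_exp]
    filter_upwards [hc] with x hx using (le_abs_self _).trans (hx.trans (le_max_left _ _))
  obtain ⟨D, D', hD⟩ := hA.levF l hl (Real.exp c') (Real.one_le_exp (le_max_right _ _)) h1
  refine ⟨s ^ (-N) * Real.exp ((1 + |K|) * |K| * C₀) * Real.exp c', ?_, ?_⟩
  · have := Real.rpow_nonneg hs.1.le (-N)
    positivity
  filter_upwards [hD] with n hn t ht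
  have ht0 : 0 < t := hs.1.trans_le ht.1
  filter_upwards [hn.dens t ⟨ht0, ht.2⟩] with x hx
  refine hx.trans ?_
  have e1 : t ^ (-N) ≤ s ^ (-N) := Real.rpow_le_rpow_of_nonpos hs.1 ht.1 (neg_nonpos.2 hN.le)
  have e2 : PA.c1 K (en n) C₀ * (1 - t) ≤ (1 + |K|) * |K| * C₀ := by
    unfold PA.c1
    have a1 : 0 ≤ |K| := abs_nonneg K
    have a2 := en_pos n
    have a3 := en_le n
    have a4 : (1 + en n * |K|) * |K| * C₀ ≤ (1 + |K|) * |K| * C₀ := by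
      refine mul_le_mul_of_nonneg_right (mul_le_mul_of_nonneg_right ?_ a1) hC0.le
      nlinarith
    have a5 : 0 ≤ (1 + en n * |K|) * |K| * C₀ := by positivity
    calc (1 + en n * |K|) * |K| * C₀ * (1 - t) ≤ (1 + en n * |K|) * |K| * C₀ * 1 :=
          mul_le_mul_of_nonneg_left (by linarith) a5
      _ ≤ _ := by rw [mul_one]; exact a4
  have e3 := Real.exp_le_exp.2 e2
  have e4 : 0 ≤ t ^ (-N) := Real.rpow_nonneg ht0.le _
  exact mul_le_mul_of_nonneg_right (mul_le_mul e1 e3 (Real.exp_pos _).le (e4.trans e1))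
    (Real.exp_pos _).le

/-- `L²` bound of the densities -/
theorem rn_sq (hA : OutA m K N P p s₀ C₀ u φ) {l : M →ₘ[m] ℝ}
    (hl : l ∈ (sob m).TestI) (hlt : MemLp l ∞ m) {s : ℝ} (hs : s ∈ Ioo (0 : ℝ) 1) :
    ∃ B : ℝ, ∀ᶠ n in atTop, ∀ t ∈ Icc s 1, I ((rn u φ l n t - 1) ^ 2) ≤ B := by
  obtain ⟨c, hc⟩ := mem_top_iff.1 hlt
  set c' := max c 0 with hc'
  have h1 : ∀ᵐ x ∂m, l x ≤ Real.log (Real.exp c') := by
    rw [Real.log_exp]
    filter_upwards [hc] with x hx using (le_abs_self _).trans (hx.trans (le_max_left _ _))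
  obtain ⟨D, D', hD⟩ := hA.levF l hl (Real.exp c') (Real.one_le_exp (le_max_right _ _)) h1
  refine ⟨D' s, ?_⟩
  filter_upwards [hD] with n hn t ht
  exact hn.rho2 s ⟨hs.1, hs.2.le⟩ t ht

theorem rn_nonneg (l : M →ₘ[m] ℝ) (n : ℕ) (t : ℝ) : 0 ≤ rn u φ l n t := ex_nonneg _

theorem rn_pos (l : M →ₘ[m] ℝ) (n : ℕ) (t : ℝ) : ∀ᵐ x ∂m, 0 < rn u φ l n t x := ex_pos_ae _

/-- joint representatives of the densities -/
noncomputable def jρ (u : ℕ → ℝ → M →ₘ[m] ℝ) (φ : (M →ₘ[m] ℝ) → ℕ → ℝ → M →ₘ[m] ℝ)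
    (l : M →ₘ[m] ℝ) (n : ℕ) : ℝ × M → ℝ := jr m fun t x => rn u φ l n t x

/-- joint representatives of the Hessians -/
noncomputable def jV (V : (M →ₘ[m] ℝ) → (M →ₘ[m] ℝ) → M → E) (u : ℕ → ℝ → M →ₘ[m] ℝ)
    (φ : (M →ₘ[m] ℝ) → ℕ → ℝ → M →ₘ[m] ℝ) (l h : M →ₘ[m] ℝ) (n : ℕ) : ℝ × M → E :=
  jr m fun t x => V (tn u φ l n t) h x

theorem jρ_meas (l : M →ₘ[m] ℝ) (n : ℕ) : StronglyMeasurable (jρ u φ l n) := jr_meas _

theorem jV_meas (l h : M →ₘ[m] ℝ) (n : ℕ) : StronglyMeasurable (jV V u φ l h n) := jr_meas _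

theorem jρ_spec (hC : IsGamma (sob m)) (hL : LevB m Gr V D κ u φ) {l : M →ₘ[m] ℝ}
    (hl : l ∈ (sob m).TestI) :
    ∀ᶠ n in atTop, ∀ t ∈ Icc (0 : ℝ) 1, ∀ᵐ x ∂m, jρ u φ l n (t, x) = rn u φ l n t x := by
  filter_upwards [hL.mem l hl, hL.fld l hl l hl] with n h1 h2
  exact jr_spec (exists_joint_fun (fun t ht =>
    hC.memLp _ (hC.test_A ((h1 t ht).2.2.1).1).1) fun t ht => (h2 t ht).2.2)

theorem jV_spec [CompleteSpace E] (hC : IsGamma (sob m)) (hU : IsHU (sob m) Gr V)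
    (hL : LevB m Gr V D κ u φ) {l h : M →ₘ[m] ℝ}
    (hl : l ∈ (sob m).TestI) (hh : h ∈ (sob m).TestI) :
    ∀ᶠ n in atTop, ∀ t ∈ Icc (0 : ℝ) 1, ∀ᵐ x ∂m, jV V u φ l h n (t, x) = V (tn u φ l n t) h x := by
  filter_upwards [hL.mem l hl, hL.fld l hl h hh] with n h1 h2
  exact jr_spec (exists_joint (zero_le_one (α := ℝ)) (fun t ht =>
    hU.mem _ (h1 t ht).2.1.1 _ hh.1) fun t ht => (h2 t ht).1)

end level

end Vale.Agent.P233.H994
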