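import Vale.Agent.P233.H994.SliceEq
import Vale.Agent.P233.H183.MapsAux

/-!
P233, block C6b (helper994): gluing in time; the image of the space-time measure under the flow;
weak-* convergence from weak `L²` convergence.
-/

set_option linter.all false

open MeasureTheory Filter Topology Set
open scoped ENNReal NNReal InnerProductSpace

universe u

namespace Vale.Agent.P233.H994

open Vale.Agent.P233.PC

/-! ### gluing in time -/

/-- the times `1/(k+2)` -/
noncomputable def sk (k : ℕ) : ℝ := ((k : ℝ) + 2)⁻¹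

/-- the index of a time -/
noncomputable def kk (t : ℝ) : ℕ := ⌈t⁻¹⌉₊

theorem sk_mem (k : ℕ) : sk k ∈ Ioo (0 : ℝ) 1 := by
  unfold sk
  have : (0 : ℝ) ≤ k := Nat.cast_nonneg k
  refine ⟨by positivity, ?_⟩
  rw [inv_lt_one₀ (by positivity)]
  linarith

theorem sk_lt {t : ℝ} (ht : 0 < t) : sk (kk t) < t := by
  unfold sk kk
  rw [inv_lt_comm₀ (by positivity) ht]
  have := Nat.le_ceil t⁻¹
  linarith

theorem kk_meas : Measurable kk := Nat.measurable_ceil.comp measurable_inv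

section glue

variable {X : Type*} [MeasurableSpace X] {m : Measure X}
variable {E : Type*} [TopologicalSpace E] [TopologicalSpace.PseudoMetrizableSpace E]

theorem glue_meas {f : ℕ → ℝ × X → E} (hf : ∀ k, StronglyMeasurable (f k)) :
    StronglyMeasurable fun z : ℝ × X => f (kk z.1) z := by
  have h1 : StronglyMeasurable (Function.uncurry f) :=
    stronglyMeasurable_uncurry_of_continuous_of_stronglyMeasurable
      (fun x => continuous_of_discreteTopology) hf
  exact h1.comp_measurable (Measurable.prodMk (kk_meas.comp measurable_fst) measurable_id)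

end glue

theorem glue_ae {Q : ℕ → ℝ → Prop}
    (h : ∀ k, ∀ᵐ t ∂((volume : Measure ℝ).restrict (Ioc (sk k) 1)), Q k t) :
    ∀ᵐ t ∂((volume : Measure ℝ).restrict (Ioc 0 1)), Q (kk t) t := by
  rw [ae_restrict_iff' measurableSet_Ioc]
  have h1 : ∀ k, ∀ᵐ t : ℝ, t ∈ Ioc (sk k) 1 → Q k t := fun k =>
    (ae_restrict_iff' measurableSet_Ioc).1 (h k)
  filter_upwards [ae_all_iff.2 h1] with t ht ht2
  exact ht _ ⟨sk_lt ht2.1, ht2.2⟩

theorem ae_Ioc_of {Q : ℝ → Prop} (h : ∀ k, ∀ᵐ t ∂((volume : Measure ℝ).restrict (Ioc (sk k) 1)), Q t) :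
    ∀ᵐ t ∂((volume : Measure ℝ).restrict (Ioc 0 1)), Q t := glue_ae (Q := fun _ => Q) h

theorem ae_Ioc_mono {Q : ℝ → Prop} {s : ℝ} (hs : 0 ≤ s)
    (h : ∀ᵐ t ∂((volume : Measure ℝ).restrict (Ioc 0 1)), Q t) :
    ∀ᵐ t ∂((volume : Measure ℝ).restrict (Ioc s 1)), Q t :=
  ae_restrict_of_ae_restrict_of_subset (Ioc_subset_Ioc_left hs) h

/-! ### weak-* convergence -/

section wstar

variable {Y : Type*} [MeasurableSpace Y] {ν : Measure Y} {ι : Type*} {U : Ultrafilter ι}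
  {K : ℝ} {ρ : ι → Y → ℝ} {ρ0 : Y → ℝ}

theorem wstar_of_weak (hm : ∀ n, AEStronglyMeasurable (ρ n) ν) (hm0 : AEStronglyMeasurable ρ0 ν)
    (hbd : ∀ᶠ n in (U : Filter ι), ∀ᵐ y ∂ν, 0 ≤ ρ n y ∧ ρ n y ≤ K)
    (hbd0 : ∀ᵐ y ∂ν, 0 ≤ ρ0 y ∧ ρ0 y ≤ K)
    (h2 : ∀ᶠ n in (U : Filter ι), MemLp (fun y => ρ n y - 1) 2 ν)
    (h20 : MemLp (fun y => ρ0 y - 1) 2 ν)
    (h : ∀ g : Y → ℝ, MemLp g 2 ν → Tendsto (fun n => ∫ y, g y * (ρ n y - 1) ∂ν) U
      (𝓝 (∫ y, g y * (ρ0 y - 1) ∂ν))) : WStar U ν K ρ ρ0 where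
  meas := hm
  meas0 := hm0
  bd := hbd
  bd0 := hbd0
  lim := fun g hg => by
    rw [Metric.tendsto_nhds]
    intro ε hε
    -- approximation by a simple function
    obtain ⟨g', hg1, hg2⟩ := (memLp_one_iff_integrable.2 hg).exists_simpleFunc_eLpNorm_sub_lt
      ENNReal.one_ne_top (ε := ENNReal.ofReal (ε / (4 * (|K| + 1))))
      (by simpa using (by positivity : 0 < ε / (4 * (|K| + 1))))
    have hg'1 : Integrable g' ν := memLp_one_iff_integrable.1 hg2
    have hg'2 : MemLp g' 2 ν :=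
      (SimpleFunc.memLp_iff_integrable two_ne_zero ENNReal.ofNat_ne_top).2 hg'1
    have hd : Integrable (fun y => g y - g' y) ν := hg.sub hg'1
    have hsmall : ∫ y, |g y - g' y| ∂ν ≤ ε / (4 * (|K| + 1)) := by
      have h1 := hg1.le
      rw [eLpNorm_one_eq_lintegral_enorm] at h1
      rw [show ∫ y, |g y - g' y| ∂ν = (∫⁻ y, ‖(⇑g' - g) y‖ₑ ∂ν).toReal by
        rw [← integral_norm_eq_lintegral_enorm (hg'1.sub hg).1]
        refine integral_congr_ae (ae_of_all _ fun y => ?_)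
        simp only [Pi.sub_apply, Real.norm_eq_abs]
        rw [abs_sub_comm]]
      rw [show ∫⁻ y, ‖(⇑g' - g) y‖ₑ ∂ν = ∫⁻ y, ‖(g - ⇑g') y‖ₑ ∂ν by
        refine lintegral_congr fun y => ?_
        rw [Pi.sub_apply, Pi.sub_apply, ← enorm_neg, neg_sub]]
      exact ENNReal.toReal_le_of_le_ofReal (by positivity) h1
    -- the error
    have herr : ∀ r : Y → ℝ, AEStronglyMeasurable r ν → (∀ᵐ y ∂ν, 0 ≤ r y ∧ r y ≤ K) →
        Integrable (fun y => r y * g y) ν ∧ Integrable (fun y => r y * g' y) ν ∧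
        |∫ y, r y * g y ∂ν - ∫ y, r y * g' y ∂ν| ≤ ε / 4 := by
      intro r hr hrb
      have hb : ∀ᵐ y ∂ν, ‖r y‖ ≤ |K| := by
        filter_upwards [hrb] with y hy
        rw [Real.norm_of_nonneg hy.1]; exact hy.2.trans (le_abs_self K)
      have i1 := hg.bdd_mul hr hb
      have i2 := hg'1.bdd_mul hr hb
      refine ⟨i1, i2, ?_⟩
      rw [← integral_sub i1 i2]
      have i3 : Integrable (fun y => |K| * |g y - g' y|) ν := hd.abs.const_mul _
      calc |∫ y, (r y * g y - r y * g' y) ∂ν|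
          ≤ ∫ y, |r y * g y - r y * g' y| ∂ν := abs_integral_le_integral_abs
        _ ≤ ∫ y, |K| * |g y - g' y| ∂ν := by
            refine integral_mono_ae (i1.sub i2).abs i3 ?_
            filter_upwards [hb] with y hy
            show |r y * g y - r y * g' y| ≤ |K| * |g y - g' y|
            rw [← mul_sub, abs_mul]
            exact mul_le_mul_of_nonneg_right hy (abs_nonneg _)
        _ = |K| * ∫ y, |g y - g' y| ∂ν := integral_const_mul _ _
        _ ≤ |K| * (ε / (4 * (|K| + 1))) := mul_le_mul_of_nonneg_left hsmall (abs_nonneg _)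
        _ ≤ ε / 4 := by
            rw [mul_div_assoc', div_le_div_iff₀ (by positivity) (by positivity)]
            nlinarith [abs_nonneg K]
    have e0 := herr ρ0 hm0 hbd0
    have hlim := h _ hg'2
    filter_upwards [hbd, h2, (Metric.tendsto_nhds.1 hlim) (ε / 4) (by positivity)] with n a1 a2 a3
    have en := herr (ρ n) (hm n) a1
    rw [Real.dist_eq] at a3 ⊢
    have split : ∀ r : Y → ℝ, Integrable (fun y => r y * g' y) ν →
        ∫ y, r y * g' y ∂ν = ∫ y, g' y * (r y - 1) ∂ν + ∫ y, g' y ∂ν := by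
      intro r hr
      have i1 : Integrable (fun y => g' y * (r y - 1)) ν := by
        have := hr.sub hg'1
        refine this.congr (ae_of_all _ fun y => ?_)
        simp only [Pi.sub_apply]; ring
      rw [← integral_add i1 hg'1]
      refine integral_congr_ae (ae_of_all _ fun y => ?_)
      simp only; ring
    have s1 := split _ e0.2.1
    have s2 := split _ en.2.1
    have b0 := abs_le.1 e0.2.2
    have bn := abs_le.1 en.2.2
    rw [abs_lt] at a3 ⊢
    constructor <;> linarith [b0.1, b0.2, bn.1, bn.2, a3.1, a3.2]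

end wstar

/-! ### the image of space-time under the flow -/

section push

variable {M : Type u} [MetricSpace M] [MeasurableSpace M] {m : Measure M} [SFinite m]
variable {ρ : ℝ → M →ₘ[m] ℝ} {R : ℝ → ℝ → (M →ₘ[m] ℝ) → (M →ₘ[m] ℝ)} {Y : ℝ → M → M} {s : ℝ}

/-- the map `(t,x) ↦ (t, Y t x)` -/
def psi (Y : ℝ → M → M) (z : ℝ × M) : ℝ × M := (z.1, Y z.1 z.2)

theorem psi_meas (hY : Measurable fun z : ℝ × M => Y z.1 z.2) : Measurable (psi Y) :=
  measurable_fst.prodMk hY

theorem map_psi (hM : Maps ρ R Y) (hY : Measurable fun z : ℝ × M => Y z.1 z.2) (hs : 0 ≤ s)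
    {ρ0 : ℝ × M → ℝ} (hρ0 : Measurable ρ0)
    (hsl : ∀ᵐ t ∂((volume : Measure ℝ).restrict (Ioc 0 1)), ∀ᵐ x ∂m, ρ0 (t, x) = ρ t x) :
    (ms m s).map (psi Y) = (ms m s).withDensity fun z => ENNReal.ofReal (ρ0 z) := by
  ext A hA
  rw [Measure.map_apply (psi_meas hY) hA, withDensity_apply _ hA,
    ← lintegral_indicator hA, Measure.prod_apply (psi_meas hY hA),
    lintegral_prod _ ((hρ0.ennreal_ofReal.indicator hA).aemeasurable)]
  refine lintegral_congr_ae ?_
  filter_upwards [ae_Ioc_mono hs hsl, ae_restrict_mem measurableSet_Ioc] with t h1 h2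
  have ht : t ∈ Ioc (0 : ℝ) 1 := ⟨hs.trans_lt h2.1, h2.2⟩
  have hA' : MeasurableSet (Prod.mk t ⁻¹' A) := measurable_prodMk_left hA
  have h3 : Prod.mk t ⁻¹' (psi Y ⁻¹' A) = Y t ⁻¹' (Prod.mk t ⁻¹' A) := rfl
  rw [h3, hM.map t ht _ hA', ← lintegral_indicator hA']
  refine lintegral_congr_ae ?_
  filter_upwards [h1] with x hx
  by_cases hxA : (t, x) ∈ A
  · have : x ∈ Prod.mk t ⁻¹' A := hxA
    rw [indicator_of_mem this, indicator_of_mem hxA, hx]
  · have : x ∉ Prod.mk t ⁻¹' A := hxA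
    rw [indicator_of_notMem this, indicator_of_notMem hxA]

variable (hM : Maps ρ R Y) (hY : Measurable fun z : ℝ × M => Y z.1 z.2) (hs : 0 ≤ s)
    {ρ0 : ℝ × M → ℝ} (hρ0 : Measurable ρ0)
    (hsl : ∀ᵐ t ∂((volume : Measure ℝ).restrict (Ioc 0 1)), ∀ᵐ x ∂m, ρ0 (t, x) = ρ t x)

include hM hY hs hρ0 hsl

theorem psi_ac : (ms m s).map (psi Y) ≪ ms m s := by
  rw [map_psi hM hY hs hρ0 hsl]
  exact withDensity_absolutelyContinuous _ _

theorem psi_ae {Q : ℝ × M → Prop} (h : ∀ᵐ z ∂(ms m s), 0 < ρ0 z → Q z) :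
    ∀ᵐ z ∂(ms m s), Q (psi Y z) := by
  refine ae_of_ae_map (psi_meas hY).aemeasurable ?_
  rw [map_psi hM hY hs hρ0 hsl, ae_withDensity_iff hρ0.ennreal_ofReal]
  filter_upwards [h] with z hz hne
  refine hz ?_
  by_contra hneg
  exact hne (ENNReal.ofReal_eq_zero.2 (not_lt.1 hneg))

theorem psi_int {E : Type*} [NormedAddCommGroup E] [NormedSpace ℝ E] {F : ℝ × M → E}
    (hF : AEStronglyMeasurable F (ms m s)) (h0 : ∀ᵐ z ∂(ms m s), 0 ≤ ρ0 z) :
    ∫ z, F (psi Y z) ∂(ms m s) = ∫ z, ρ0 z • F z ∂(ms m s) := by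
  have h1 : ∫ z, F (psi Y z) ∂(ms m s) = ∫ z, F z ∂((ms m s).map (psi Y)) := by
    rw [integral_map (psi_meas hY).aemeasurable (hF.mono_ac (psi_ac hM hY hs hρ0 hsl))]
  have h2 : Measurable fun z => Real.toNNReal (ρ0 z) := hρ0.real_toNNReal
  have h3 : (ms m s).withDensity (fun z => ENNReal.ofReal (ρ0 z))
      = (ms m s).withDensity (fun z => ((Real.toNNReal (ρ0 z) : ℝ≥0) : ℝ≥0∞)) := rfl
  rw [h1, map_psi hM hY hs hρ0 hsl, h3, integral_withDensity_eq_integral_smul h2]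
  refine integral_congr_ae ?_
  filter_upwards [h0] with z hz
  rw [NNReal.smul_def, Real.coe_toNNReal _ hz]

theorem psi_integrable {E : Type*} [NormedAddCommGroup E] [NormedSpace ℝ E] {F : ℝ × M → E}
    (hF : AEStronglyMeasurable F (ms m s)) (h0 : ∀ᵐ z ∂(ms m s), 0 ≤ ρ0 z)
    (hi : Integrable (fun z => ρ0 z • F z) (ms m s)) :
    Integrable (fun z => F (psi Y z)) (ms m s) := by
  have h2 : Measurable fun z => Real.toNNReal (ρ0 z) := hρ0.real_toNNReal
  have h3 : (ms m s).withDensity (fun z => ENNReal.ofReal (ρ0 z))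
      = (ms m s).withDensity (fun z => ((Real.toNNReal (ρ0 z) : ℝ≥0) : ℝ≥0∞)) := rfl
  have h1 : Integrable F ((ms m s).map (psi Y)) := by
    rw [map_psi hM hY hs hρ0 hsl, h3, integrable_withDensity_iff_integrable_smul h2]
    refine hi.congr ?_
    filter_upwards [h0] with z hz
    rw [NNReal.smul_def, Real.coe_toNNReal _ hz]
  exact h1.comp_measurable (psi_meas hY)

end push

end Vale.Agent.P233.H994
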