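import Vale.Agent.P233.H994.RKDef

/-! P233, RCDA, part K (helper994): indicator densities, Lipschitz representatives. -/

set_option linter.all false

open MeasureTheory Filter Topology Set
open scoped ENNReal NNReal MeasureTheory

universe u

namespace Vale.Agent.P233.H994.RK

open Vale.Agent.P233.RA

variable {M : Type u} [MetricSpace M] [MeasurableSpace M] {m : Measure M}

theorem cl_ae {f : M → ℝ} (h : AEStronglyMeasurable f m) : ⇑(cl m f) =ᵐ[m] f := by
  unfold cl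
  rw [dif_pos h]
  exact AEEqFun.coeFn_mk f h

/-- the class of an indicator function -/
noncomputable def ind (m : Measure M) (A : Set M) : M →ₘ[m] ℝ := cl m (A.indicator fun _ => (1 : ℝ))

theorem ind_aesm {A : Set M} (hA : MeasurableSet A) :
    AEStronglyMeasurable (A.indicator fun _ => (1 : ℝ)) m :=
  (measurable_const.indicator hA).aestronglyMeasurable

theorem ind_ae {A : Set M} (hA : MeasurableSet A) :
    ⇑(ind m A) =ᵐ[m] A.indicator fun _ => (1 : ℝ) := cl_ae (ind_aesm hA)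

theorem ind_nonneg {A : Set M} (hA : MeasurableSet A) : 0 ≤ ind m A := by
  rw [nonneg_iff_ae]
  filter_upwards [ind_ae (m := m) hA] with x hx
  rw [hx]
  exact indicator_nonneg (fun _ _ => zero_le_one) x

theorem ind_memTop {A : Set M} (hA : MeasurableSet A) : MemLp (ind m A) ∞ m := by
  refine mem_top_iff.2 ⟨1, ?_⟩
  filter_upwards [ind_ae (m := m) hA] with x hx
  rw [hx]
  by_cases h : x ∈ A
  · simp [h]
  · simp [h]

theorem ind_mem {A : Set M} (hA : MeasurableSet A) (hf : m A < ∞) (p : ℝ≥0∞) :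
    MemLp (ind m A) p m :=
  (memLp_congr_ae (ind_ae hA)).2 (memLp_indicator_const p hA 1 (Or.inr hf.ne))

theorem int_mul_ind {A : Set M} (hA : MeasurableSet A) (g : M → ℝ) :
    ∫ x, g x * ind m A x ∂m = ∫ x in A, g x ∂m := by
  rw [← integral_indicator hA]
  refine integral_congr_ae ?_
  filter_upwards [ind_ae (m := m) hA] with x hx
  rw [hx]
  by_cases h : x ∈ A
  · simp [h]
  · simp [h]

theorem I_mul_ind {A : Set M} (hA : MeasurableSet A) (g : M →ₘ[m] ℝ) :
    I (g * ind m A) = ∫ x in A, g x ∂m := by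
  rw [← int_mul_ind hA]
  exact integral_congr_ae (mul_ae g _)

theorem I_ind {A : Set M} (hA : MeasurableSet A) : I (ind m A) = (m A).toReal := by
  unfold I
  rw [integral_congr_ae (ind_ae hA), integral_indicator hA]
  simp [Measure.real]

variable [BorelSpace M] [SecondCountableTopology M] {n : ℕ} {K θ : ℝ}

/-- balls have finite measure -/
theorem fin_of_bdd (hN : NSp m n K θ) {A : Set M} (hA : Bornology.IsBounded A) : m A < ∞ := by
  by_cases h : A.Nonempty
  · obtain ⟨x, hx⟩ := h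
    obtain ⟨r, hr⟩ := hA.subset_ball x
    exact (measure_mono hr).trans_lt (hN.fin x r)
  · rw [not_nonempty_iff_eq_empty.1 h]; simp

theorem Q_symm (hN : NSp m n K θ) (t : ℝ) {f g : M →ₘ[m] ℝ} (hf : MemLp f 2 m)
    (hg : MemLp g 2 m) : I (Q m t f * g) = I (f * Q m t g) :=
  hN.isDir.P_symm (t / 2) hf hg

theorem Q_mem2 (hN : NSp m n K θ) (t : ℝ) {f : M →ₘ[m] ℝ} (hf : MemLp f 2 m) :
    MemLp (Q m t f) 2 m := hN.isDir.P_mem2 (t / 2) hf

theorem Q_nonneg (hN : NSp m n K θ) {t : ℝ} (ht : 0 ≤ t) {f : M →ₘ[m] ℝ} (hf : MemLp f 2 m)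
    (h0 : 0 ≤ f) : 0 ≤ Q m t f := hN.isDir.P_nonneg (by positivity) hf h0

theorem Q_L1 (hN : NSp m n K θ) {t : ℝ} (ht : 0 ≤ t) {f : M →ₘ[m] ℝ} (hf : MemLp f 2 m)
    (hf1 : MemLp f 1 m) (h0 : 0 ≤ f) : MemLp (Q m t f) 1 m ∧ I (Q m t f) ≤ I f :=
  hN.isDir.P_L1_nonneg (by positivity) hf hf1 h0

/-- `Q_t 1_A`, for bounded measurable `A` -/
theorem Q_ind (hN : NSp m n K θ) {t : ℝ} (ht : 0 ≤ t) {A : Set M} (hA : MeasurableSet A)
    (hb : Bornology.IsBounded A) :
    0 ≤ Q m t (ind m A) ∧ MemLp (Q m t (ind m A)) 1 m ∧ MemLp (Q m t (ind m A)) 2 m ∧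
      I (Q m t (ind m A)) ≤ (m A).toReal := by
  have h1 := ind_mem (m := m) hA (fin_of_bdd hN hb) 1
  have h2 := ind_mem (m := m) hA (fin_of_bdd hN hb) 2
  have h3 := Q_L1 hN ht h2 h1 (ind_nonneg hA)
  refine ⟨Q_nonneg hN ht h2 (ind_nonneg hA), h3.1, Q_mem2 hN t h2, h3.2.trans (I_ind hA).le⟩

/-- K1 for normalised indicator functions. -/
theorem k1s (hN : NSp m n K θ) (h : K1S m n K) {f : M → ℝ} {B L : ℝ} (hf : H131.BL f B L)
    {A A' : Set M} (hA : MeasurableSet A) (hA' : MeasurableSet A') (h0 : m A ≠ 0) (h0' : m A' ≠ 0)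
    (hb : Bornology.IsBounded A) (hb' : Bornology.IsBounded A') {D : ℝ} (hD : 0 ≤ D)
    (hd : ∀ x ∈ A, ∀ y ∈ A', dist x y ≤ D) {p q t s : ℝ} (hp : 0 < p) (hq : 0 < q) (ht : 0 < t)
    (hs : 0 < s) :
    (∫ x, H131.qq f s x * Q m (q * t) (ind m A') x ∂m) / (m A').toReal
      - (∫ x, f x * Q m (p * t) (ind m A) x ∂m) / (m A).toReal ≤
    s⁻¹ * (Real.exp (Ci K p q * t) * (D ^ 2 / 2)
      + n / 2 * (√p - √q) ^ 2 * t * Real.exp (max (Ci K p q) 0 * t)) :=
  h f B L hf A A' hA hA' h0 h0' hb hb' D hD hd p q t s hp.le hq.le ht.le hs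

end Vale.Agent.P233.H994.RK
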