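import Vale.Agent.P233.H994.RK4

/-! P233, RCDA, part K (helper994): limits at one point; suprema of difference quotients. -/

set_option linter.all false

open MeasureTheory Filter Topology Set
open scoped ENNReal NNReal MeasureTheory

universe u

namespace Vale.Agent.P233.H994.RK

open Vale.Agent.P233.RA

/-! ### the limit `s → 0` at one point -/

section

variable {M : Type u} [MetricSpace M]

theorem lim_pt0 {U g : M → ℝ} {y : M} {H κ s₀ c₀ : ℝ} {a c : ℝ → ℝ} (hs₀ : 0 < s₀)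
    (hc : Tendsto (fun s => c s / s ^ 2) (𝓝[>] 0) (𝓝 c₀))
    (h : ∀ s : ℚ, 0 < s → (s : ℝ) < s₀ → ∀ x, U y - s * H ≤ U x + s * g x + κ * (s : ℝ) ^ 2
      + (s : ℝ)⁻¹ * (a s * (dist x y ^ 2 / 2) + c s)) : 0 ≤ H + g y + c₀ := by
  -- rational sequence
  set e : ℕ → ℚ := fun k => ((k : ℚ) + 1)⁻¹ with he
  have he0 : ∀ k, (0 : ℚ) < e k := fun k => by simp only [he]; positivity
  have hel : Tendsto (fun k => ((e k : ℚ) : ℝ)) atTop (𝓝 0) := by
    have := tendsto_inv_nat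
    refine this.congr fun k => ?_
    simp only [he]; push_cast; rfl
  have hel' : Tendsto (fun k => ((e k : ℚ) : ℝ)) atTop (𝓝[>] 0) :=
    tendsto_nhdsWithin_iff.2 ⟨hel, Eventually.of_forall fun k => by
      have := he0 k; rw [mem_Ioi]; exact_mod_cast this⟩
  have h1 : ∀ᶠ k in atTop, 0 ≤ H + g y + κ * (e k : ℝ) + c (e k) / (e k : ℝ) ^ 2 := by
    filter_upwards [hel.eventually (gt_mem_nhds hs₀)] with k hk
    have h2 := h (e k) (he0 k) hk y
    have h3 : (0 : ℝ) < e k := by exact_mod_cast he0 k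
    rw [dist_self, zero_pow two_ne_zero, zero_div, mul_zero, zero_add] at h2
    have h4 : 0 ≤ (e k : ℝ) * (H + g y + κ * (e k : ℝ) + c (e k) / (e k : ℝ) ^ 2) := by
      have : (e k : ℝ) * (H + g y + κ * (e k : ℝ) + c (e k) / (e k : ℝ) ^ 2)
          = e k * H + e k * g y + κ * (e k : ℝ) ^ 2 + (e k : ℝ)⁻¹ * c (e k) := by
        field_simp
      rw [this]; linarith
    exact nonneg_of_mul_nonneg_right h4 h3
  have h5 : Tendsto (fun k => H + g y + κ * (e k : ℝ) + c (e k) / (e k : ℝ) ^ 2) atTop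
      (𝓝 (H + g y + κ * 0 + c₀)) :=
    ((tendsto_const_nhds.add (hel.const_mul κ))).add (hc.comp hel')
  have h6 := ge_of_tendsto h5 h1
  simpa using h6

theorem lim_pt1 {U g : M → ℝ} {y : M} {H κ s₀ c₀ a₀ : ℝ} {a c : ℝ → ℝ} (hs₀ : 0 < s₀)
    (ha : Tendsto a (𝓝[>] 0) (𝓝 a₀)) (hc : Tendsto (fun s => c s / s ^ 2) (𝓝[>] 0) (𝓝 c₀))
    (hg : ContinuousAt g y)
    (h : ∀ s : ℚ, 0 < s → (s : ℝ) < s₀ → ∀ x, U y - s * H ≤ U x + s * g x + κ * (s : ℝ) ^ 2
      + (s : ℝ)⁻¹ * (a s * (dist x y ^ 2 / 2) + c s)) {ℓ r : ℝ} (hr : 0 < r)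
    (hf : ∃ᶠ x in 𝓝[≠] y, ℓ * dist x y < U y - U x) :
    ℓ * r ≤ H + g y + a₀ * r ^ 2 / 2 + c₀ := by
  obtain ⟨x, hx, hx2⟩ := exists_seq_forall_of_frequently hf
  have hx1 : Tendsto x atTop (𝓝 y) := hx.mono_right nhdsWithin_le_nhds
  have hxne : ∀ᶠ j in atTop, x j ≠ y := by
    have := hx.eventually (eventually_mem_nhdsWithin (a := y) (s := {y}ᶜ))
    exact this
  set d : ℕ → ℝ := fun j => dist (x j) y with hd
  have hd0 : Tendsto d atTop (𝓝 0) := by
    have := (hx1.dist (tendsto_const_nhds (x := y)))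
    simpa using this
  have hrat : ∀ j : ℕ, ∃ q : ℚ, d j / r < q ∧ (q : ℝ) < d j / r * (1 + ((j : ℝ) + 1)⁻¹)
      ∨ d j = 0 := by
    intro j
    rcases (dist_nonneg (x := x j) (y := y)).eq_or_lt with h0 | h0
    · exact ⟨0, Or.inr h0.symm⟩
    · have h1 : 0 < d j / r := div_pos h0 hr
      have h2 : d j / r < d j / r * (1 + ((j : ℝ) + 1)⁻¹) := by
        have : (0 : ℝ) < ((j : ℝ) + 1)⁻¹ := by positivity
        nlinarith
      obtain ⟨q, hq1, hq2⟩ := exists_rat_btwn h2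
      exact ⟨q, Or.inl ⟨hq1, hq2⟩⟩
  choose q hq using hrat
  have hdpos : ∀ᶠ j in atTop, 0 < d j := hxne.mono fun j hj => dist_pos.2 hj
  have hq' : ∀ᶠ j in atTop, 0 < d j ∧ d j / r < q j ∧ (q j : ℝ) < d j / r * (1 + ((j : ℝ) + 1)⁻¹) :=
    hdpos.mono fun j hj => ⟨hj, by
      rcases hq j with h1 | h1
      · exact h1
      · exact absurd h1 hj.ne'⟩
  have hq0 : ∀ᶠ j in atTop, (0 : ℝ) < q j := hq'.mono fun j hj =>
    (div_pos hj.1 hr).trans hj.2.1
  have hql : Tendsto (fun j => (q j : ℝ)) atTop (𝓝 0) := by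
    have h1 : Tendsto (fun j => d j / r * (1 + ((j : ℝ) + 1)⁻¹)) atTop (𝓝 (0 / r * (1 + 0))) :=
      (hd0.div_const r).mul (tendsto_inv_nat.const_add 1)
    rw [zero_div, zero_mul] at h1
    exact squeeze_zero' (hq0.mono fun j hj => hj.le) (hq'.mono fun j hj => hj.2.2.le) h1
  have hql' : Tendsto (fun j => (q j : ℝ)) atTop (𝓝[>] 0) :=
    tendsto_nhdsWithin_iff.2 ⟨hql, hq0⟩
  have hdq : Tendsto (fun j => d j / q j) atTop (𝓝 r) := by
    have h1 : Tendsto (fun j : ℕ => r / (1 + ((j : ℝ) + 1)⁻¹)) atTop (𝓝 (r / (1 + 0))) :=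
      (tendsto_const_nhds.div (tendsto_inv_nat.const_add 1) (by norm_num))
    rw [add_zero, div_one] at h1
    refine tendsto_of_tendsto_of_tendsto_of_le_of_le' h1 tendsto_const_nhds ?_ ?_
    · filter_upwards [hq', hq0] with j hj hj0
      have h2 : (0 : ℝ) < 1 + ((j : ℝ) + 1)⁻¹ := by positivity
      rw [div_le_div_iff₀ h2 hj0]
      have h3 := hj.2.2
      have h4 : d j / r * (1 + ((j : ℝ) + 1)⁻¹) * r = d j * (1 + ((j : ℝ) + 1)⁻¹) := by
        field_simp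
      nlinarith
    · filter_upwards [hq', hq0] with j hj hj0
      rw [div_le_iff₀ hj0]
      have h3 := hj.2.1
      rw [div_lt_iff₀ hr] at h3
      linarith
  have hineq : ∀ᶠ j in atTop, ℓ * (d j / q j) ≤ H + g (x j) + κ * (q j : ℝ)
      + a (q j) * (d j / q j) ^ 2 / 2 + c (q j) / (q j : ℝ) ^ 2 := by
    filter_upwards [hq0, hql.eventually (gt_mem_nhds hs₀)] with j hj0 hjs
    have h1 := h (q j) (by exact_mod_cast hj0) hjs (x j)
    have h2 := hx2 j
    have h3 : ℓ * d j ≤ (q j : ℝ) * (H + g (x j) + κ * (q j : ℝ)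
        + a (q j) * (d j / q j) ^ 2 / 2 + c (q j) / (q j : ℝ) ^ 2) := by
      have : (q j : ℝ) * (H + g (x j) + κ * (q j : ℝ)
        + a (q j) * (d j / q j) ^ 2 / 2 + c (q j) / (q j : ℝ) ^ 2)
          = q j * H + q j * g (x j) + κ * (q j : ℝ) ^ 2
            + (q j : ℝ)⁻¹ * (a (q j) * (d j ^ 2 / 2) + c (q j)) := by
        field_simp
        ring
      rw [this]
      simp only [hd]
      linarith
    have h4 : ℓ * (d j / q j) = ℓ * d j / q j := by ring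
    rw [h4, div_le_iff₀ hj0, mul_comm]
    linarith
  have hl1 : Tendsto (fun j => ℓ * (d j / q j)) atTop (𝓝 (ℓ * r)) := hdq.const_mul ℓ
  have hl2 : Tendsto (fun j => H + g (x j) + κ * (q j : ℝ)
      + a (q j) * (d j / q j) ^ 2 / 2 + c (q j) / (q j : ℝ) ^ 2) atTop
      (𝓝 (H + g y + κ * 0 + a₀ * r ^ 2 / 2 + c₀)) :=
    ((((tendsto_const_nhds.add (hg.tendsto.comp hx1)).add (hql.const_mul κ))).add
      (((ha.comp hql').mul (hdq.pow 2)).div_const 2)).add (hc.comp hql')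
  have := le_of_tendsto_of_tendsto hl1 hl2 hineq
  simpa using this

/-- the local Lipschitz constant and the two one-sided slopes -/
theorem freq_of_lt_lip {U : M → ℝ} {y : M} {ℓ : ℝ} (hℓ : 0 ≤ ℓ)
    (h : ENNReal.ofReal ℓ < lipAt U y) :
    (∃ᶠ x in 𝓝[≠] y, ℓ * dist x y < U y - U x) ∨ (∃ᶠ x in 𝓝[≠] y, ℓ * dist x y < U x - U y) := by
  have h1 := frequently_lt_of_lt_limsup (by isBoundedDefault) h
  rw [← frequently_or_distrib]
  have h2 : ∀ᶠ x in 𝓝[≠] y, x ≠ y := eventually_mem_nhdsWithin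
  refine (h1.and_eventually h2).mono fun x hx => ?_
  have h3 : 0 < dist x y := dist_pos.2 hx.2
  have h4 := (ENNReal.ofReal_lt_ofReal_iff_of_nonneg hℓ).1 hx.1
  rw [lt_div_iff₀ h3] at h4
  rcases le_total (U x - U y) 0 with h5 | h5
  · left; rw [abs_of_nonpos h5] at h4; linarith
  · right; rw [abs_of_nonneg h5] at h4; linarith

theorem ev_of_lip_lt {U : M → ℝ} {y : M} {ℓ : ℝ} (hℓ : 0 < ℓ)
    (h : lipAt U y < ENNReal.ofReal ℓ) : ∀ᶠ x in 𝓝 y, |U x - U y| ≤ ℓ * dist x y := by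
  have h1 := eventually_lt_of_limsup_lt h (by isBoundedDefault)
  rw [eventually_nhdsWithin_iff] at h1
  filter_upwards [h1] with x hx
  by_cases hxy : x = y
  · subst hxy; simp
  · have h3 : 0 < dist x y := dist_pos.2 hxy
    have h4 := (ENNReal.ofReal_lt_ofReal_iff hℓ).1 (hx hxy)
    rw [div_lt_iff₀ h3] at h4
    exact h4.le

theorem lipAt_le {U : M → ℝ} {y : M} {L : ℝ} (hL : 0 ≤ L) (h : ∀ x, |U x - U y| ≤ L * dist x y) :
    lipAt U y ≤ ENNReal.ofReal L := by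
  unfold lipAt
  refine limsup_le_of_le (by isBoundedDefault) (Eventually.of_forall fun x => ?_)
  refine ENNReal.ofReal_le_ofReal ?_
  rcases (dist_nonneg (x := x) (y := y)).eq_or_lt with h0 | h0
  · rw [← h0]; simpa using hL
  · rw [div_le_iff₀ h0]; exact h x

end

end Vale.Agent.P233.H994.RK
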