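import Vale.Agent.P233.H994.RK6

/-! P233, RCDA, part K (helper994): the limit `s → 0` at almost every point. -/

set_option linter.all false

open MeasureTheory Filter Topology Set
open scoped ENNReal NNReal MeasureTheory

universe u

namespace Vale.Agent.P233.H994.RK

open Vale.Agent.P233.RA

/-! ### the two elementary limits -/

theorem Ci_cont (K ϑ : ℝ) : Continuous fun s : ℝ => Ci K (1 + ϑ * s) 1 := by
  unfold Ci
  fun_prop

theorem lim_a (K ϑ t : ℝ) : Tendsto (fun s : ℝ => Real.exp (Ci K (1 + ϑ * s) 1 * t)) (𝓝[>] 0)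
    (𝓝 (Real.exp (-(K * t)))) := by
  have h1 : Continuous fun s : ℝ => Real.exp (Ci K (1 + ϑ * s) 1 * t) := by
    have := Ci_cont K ϑ
    fun_prop
  have h2 := (h1.tendsto 0).mono_left (nhdsWithin_le_nhds (s := Ioi (0 : ℝ)))
  rw [mul_zero, add_zero, Ci_one, neg_mul] at h2
  exact h2

theorem lim_c (n : ℕ) (K ϑ t : ℝ) : Tendsto (fun s : ℝ => (n / 2 * (√(1 + ϑ * s) - 1) ^ 2 * t *
    Real.exp (max (Ci K (1 + ϑ * s) 1) 0 * t)) / s ^ 2) (𝓝[>] 0)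
    (𝓝 (n / 8 * t * Real.exp (max (-K) 0 * t) * ϑ ^ 2)) := by
  have h1 : Continuous fun s : ℝ => Real.exp (max (Ci K (1 + ϑ * s) 1) 0 * t) := by
    have := Ci_cont K ϑ
    fun_prop
  have h2 : Continuous fun s : ℝ => (√(1 + ϑ * s) + 1) := by fun_prop
  have h3 : Continuous fun s : ℝ => n / 2 * (ϑ / (√(1 + ϑ * s) + 1)) ^ 2 * t *
      Real.exp (max (Ci K (1 + ϑ * s) 1) 0 * t) := by
    have : ∀ s : ℝ, √(1 + ϑ * s) + 1 ≠ 0 := fun s => by positivity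
    fun_prop (disch := exact this _)
  have h4 := (h3.tendsto 0).mono_left (nhdsWithin_le_nhds (s := Ioi (0 : ℝ)))
  rw [mul_zero, add_zero, Ci_one, Real.sqrt_one] at h4
  have h5 : (n / 8 * t * Real.exp (max (-K) 0 * t) * ϑ ^ 2 : ℝ)
      = n / 2 * (ϑ / (1 + 1)) ^ 2 * t * Real.exp (max (-K) 0 * t) := by ring
  rw [h5]
  refine h4.congr' ?_
  have hc : Tendsto (fun s : ℝ => 1 + ϑ * s) (𝓝[>] 0) (𝓝 (1 + ϑ * 0)) :=
    ((by fun_prop : Continuous fun s : ℝ => 1 + ϑ * s).tendsto 0).mono_left nhdsWithin_le_nhds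
  rw [mul_zero, add_zero] at hc
  filter_upwards [eventually_mem_nhdsWithin, hc.eventually (lt_mem_nhds zero_lt_one)] with s hs hs2
  have hs0 : (0 : ℝ) < s := hs
  have e0 : √(1 + ϑ * s) ^ 2 = 1 + ϑ * s := Real.sq_sqrt hs2.le
  have e1 : √(1 + ϑ * s) + 1 ≠ 0 := by positivity
  have e2 : ϑ / (√(1 + ϑ * s) + 1) = (√(1 + ϑ * s) - 1) / s := by
    rw [div_eq_div_iff e1 hs0.ne']
    nlinarith
  rw [e2]
  field_simp

variable {M : Type u} [MetricSpace M] [MeasurableSpace M] {m : Measure M}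

/-- the reparametrised flow near time `t`: `Q_((1+ϑs)t) f = U + s ϑ w + O(s²)` uniformly -/
def Fa (m : Measure M) (f : M → ℝ) (t : ℝ) (U w : M → ℝ) (T : Set ℚ) : Prop :=
  ∀ ϑ ∈ T, ∃ κ s₀ : ℝ, 0 < s₀ ∧ ∀ s : ℚ, 0 < s → (s : ℝ) < s₀ → 0 < 1 + (ϑ : ℝ) * s ∧
    ∃ (U' : M → ℝ) (L' : ℝ), 0 ≤ L' ∧ (∀ x y, |U' x - U' y| ≤ L' * dist x y) ∧
      Q m ((1 + ϑ * s) * t) (cl m f) =ᵐ[m] U' ∧
      ∀ x, |U' x - (U x + s * (ϑ * w x))| ≤ κ * (s : ℝ) ^ 2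

variable [BorelSpace M] [SecondCountableTopology M] {n : ℕ} {K θ : ℝ}

theorem cl_neg {f : M → ℝ} (hf : AEStronglyMeasurable f m) : cl m (fun y => -f y) = -cl m f := by
  rw [eq_iff_ae]
  filter_upwards [cl_ae (f := fun y => -f y) hf.neg, cl_ae hf, neg_ae (cl m f)] with x h1 h2 h3
  rw [h1, h3, h2]

theorem Fa.neg (hN : NSp m n K θ) {f : M → ℝ} {t : ℝ} {U w : M → ℝ} {T : Set ℚ}
    (hf : AEStronglyMeasurable f m) (h2 : MemLp (cl m f) 2 m)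
    (h : Fa m f t U w T) : Fa m (fun y => -f y) t (fun y => -U y) (fun y => -w y) T := by
  intro ϑ hϑ
  obtain ⟨κ, s₀, hs₀, h1⟩ := h ϑ hϑ
  refine ⟨κ, s₀, hs₀, fun s hs hs' => ?_⟩
  obtain ⟨h3, U', L', hL', hU', he, hb⟩ := h1 s hs hs'
  refine ⟨h3, fun y => -U' y, L', hL', fun x y => ?_, ?_, fun x => ?_⟩
  · have : -U' x - -U' y = -(U' x - U' y) := by ring
    rw [this, abs_neg]; exact hU' x y
  · have e1 : Q m ((1 + ϑ * s) * t) (cl m fun y => -f y) = -Q m ((1 + ϑ * s) * t) (cl m f) := by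
      rw [cl_neg hf]
      exact hN.isDir.P_neg _ h2
    rw [e1]
    filter_upwards [neg_ae (Q m ((1 + ϑ * s) * t) (cl m f)), he] with x b1 b2
    rw [b1, b2]
  · have : -U' x - (-U x + s * (ϑ * -w x)) = -(U' x - (U x + s * (ϑ * w x))) := by ring
    rw [this, abs_neg]; exact hb x

/-- Step C, one sign. -/
theorem stepC (hN : NSp m n K θ) (h : K1S m n K) {f : M → ℝ} {B L : ℝ} (hf : H131.BL f B L)
    (h2 : MemLp (cl m f) 2 m) {t : ℝ} (ht : 0 < t) {U w : M → ℝ} (hU : Q m t (cl m f) =ᵐ[m] U)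
    (hw : Continuous w) {T : Set ℚ} (hT : Fa m f t U w T) {σ : ℝ} (hσ : 0 < σ) {N : M → ℝ}
    (hNN : DU m t (Hh f σ) N) :
    ∀ᵐ y ∂m, ∀ ϑ ∈ T,
      0 ≤ N y + ϑ * w y + n / 8 * t * Real.exp (max (-K) 0 * t) * (ϑ : ℝ) ^ 2 ∧
      ∀ ℓ r : ℝ, 0 < r → (∃ᶠ x in 𝓝[≠] y, ℓ * dist x y < U y - U x) →
        ℓ * r ≤ N y + ϑ * w y + Real.exp (-(K * t)) * r ^ 2 / 2
          + n / 8 * t * Real.exp (max (-K) 0 * t) * (ϑ : ℝ) ^ 2 := by
  haveI := hN.proper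
  have key : ∀ ϑ : ℚ, ∀ᵐ y ∂m, ϑ ∈ T →
      0 ≤ N y + ϑ * w y + n / 8 * t * Real.exp (max (-K) 0 * t) * (ϑ : ℝ) ^ 2 ∧
      ∀ ℓ r : ℝ, 0 < r → (∃ᶠ x in 𝓝[≠] y, ℓ * dist x y < U y - U x) →
        ℓ * r ≤ N y + ϑ * w y + Real.exp (-(K * t)) * r ^ 2 / 2
          + n / 8 * t * Real.exp (max (-K) 0 * t) * (ϑ : ℝ) ^ 2 := by
    intro ϑ
    by_cases hϑ : ϑ ∈ T
    swap
    · exact ae_of_all _ fun y hy => absurd hy hϑ
    obtain ⟨κ, s₀, hs₀, h1⟩ := hT ϑ hϑ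
    have h3 : ∀ s : ℚ, ∀ᵐ y ∂m, 0 < s → (s : ℝ) < min s₀ σ → ∀ x,
        U y - s * N y ≤ U x + s * (ϑ * w x) + κ * (s : ℝ) ^ 2
          + (s : ℝ)⁻¹ * (Real.exp (Ci K (1 + ϑ * s) 1 * t) * (dist x y ^ 2 / 2)
            + n / 2 * (√(1 + ϑ * s) - 1) ^ 2 * t * Real.exp (max (Ci K (1 + ϑ * s) 1) 0 * t)) := by
      intro s
      by_cases hs : 0 < s ∧ (s : ℝ) < min s₀ σ
      swap
      · exact ae_of_all _ fun y h4 h5 => absurd ⟨h4, h5⟩ hs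
      obtain ⟨hs1, hs2⟩ := hs
      have hs0 : (0 : ℝ) < s := by exact_mod_cast hs1
      have hss : (s : ℝ) ≤ σ := (hs2.trans_le (min_le_right _ _)).le
      obtain ⟨h4, U', L', hL', hU', he, hb⟩ := h1 s hs1 (hs2.trans_le (min_le_left _ _))
      have hdm : Measurable (dq f s) := (dq_cont hf hs0).measurable
      obtain ⟨N', hN', hN'b⟩ := exists_DU hN ht.le hdm (dq_nonneg hf hs0) (dq_le hf hs0)
      have hG : ∀ x, H131.qq f s x = f x - s * dq f s x := fun x => by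
        unfold dq; field_simp; ring
      have hb1 : ∀ x, |dq f s x| ≤ L ^ 2 / 2 := fun x => by
        rw [abs_of_nonneg (dq_nonneg hf hs0 x)]; exact dq_le hf hs0 x
      have hb2 : ∀ x, |Hh f σ x| ≤ L ^ 2 / 2 := fun x => by
        rw [abs_of_nonneg (Hh_nonneg hf x)]; exact Hh_le hf x
      have hmono := DU.mono hN ht.le hN' hNN hdm.aestronglyMeasurable
        (Hh_meas hf σ).aestronglyMeasurable hb1 hb2 (fun x => dq_le_Hh hf hs1 hss x)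
      have hB := stepB hN h hf h2 h4 ht hs0 hG hdm.aestronglyMeasurable ⟨_, hb1⟩ hN' hL' hU' he
      filter_upwards [hmono, hB, hU] with y b1 b2 b3 _ _ x
      have b4 := b2 x
      rw [b3] at b4
      have b5 := (abs_le.1 (hb x)).2
      have b6 : (s : ℝ) * N' y ≤ s * N y := mul_le_mul_of_nonneg_left b1 hs0.le
      linarith
    filter_upwards [ae_all_iff.2 h3] with y hy _
    have hy' : ∀ s : ℚ, 0 < s → (s : ℝ) < min s₀ σ → ∀ x,
        U y - s * N y ≤ U x + s * ((fun x => ϑ * w x) x) + κ * (s : ℝ) ^ 2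
          + (s : ℝ)⁻¹ * ((fun s : ℝ => Real.exp (Ci K (1 + ϑ * s) 1 * t)) s * (dist x y ^ 2 / 2)
            + (fun s : ℝ => n / 2 * (√(1 + ϑ * s) - 1) ^ 2 * t *
              Real.exp (max (Ci K (1 + ϑ * s) 1) 0 * t)) s) := hy
    have hg : ContinuousAt (fun x => (ϑ : ℝ) * w x) y := by fun_prop
    refine ⟨lim_pt0 (U := U) (g := fun x => (ϑ : ℝ) * w x) (y := y) (κ := κ)
      (a := fun s : ℝ => Real.exp (Ci K (1 + ϑ * s) 1 * t)) (lt_min hs₀ hσ)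
      (lim_c n K ϑ t) hy', fun ℓ r hr hfr => ?_⟩
    exact lim_pt1 (U := U) (g := fun x => (ϑ : ℝ) * w x) (y := y) (lt_min hs₀ hσ) (lim_a K ϑ t)
      (lim_c n K ϑ t) hg hy' hr hfr
  filter_upwards [ae_all_iff.2 key] with y hy ϑ hϑ
  exact hy ϑ hϑ

/-- Step D: the pointwise estimate -/
theorem stepD (hN : NSp m n K θ) (h : K1S m n K) {f : M → ℝ} {B L : ℝ} (hf : H131.BL f B L)
    (h2 : MemLp (cl m f) 2 m) {t : ℝ} (ht : 0 < t) {U w : M → ℝ} {B' L' : ℝ}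
    (hUL : H131.BL U B' L') (hU : Q m t (cl m f) =ᵐ[m] U)
    (hw : Continuous w) {T : Set ℚ} (hT : Fa m f t U w T) {S : M → ℝ}
    (hS : ∀ y X, (∀ ϑ ∈ T, X ≤ ϑ * w y + n / 8 * t * Real.exp (max (-K) 0 * t) * (ϑ : ℝ) ^ 2) →
      X + S y ≤ 0)
    (hS' : ∀ y X, (∀ ϑ ∈ T, X ≤ ϑ * (-w y) + n / 8 * t * Real.exp (max (-K) 0 * t) * (ϑ : ℝ) ^ 2) →
      X + S y ≤ 0) {σ : ℝ} (hσ : 0 < σ) {N : M → ℝ} (hNN : DU m t (Hh f σ) N) :
    ∀ᵐ y ∂m, Real.exp (K * t) * (lipAt U y).toReal ^ 2 / 2 + S y ≤ N y := by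
  haveI := hN.proper
  have hfm : AEStronglyMeasurable f m := hf.cont.aestronglyMeasurable
  have hU' : Q m t (cl m fun y => -f y) =ᵐ[m] fun y => -U y := by
    have e1 : Q m t (cl m fun y => -f y) = -Q m t (cl m f) := by
      rw [cl_neg hfm]
      exact hN.isDir.P_neg _ h2
    rw [e1]
    filter_upwards [neg_ae (Q m t (cl m f)), hU] with x b1 b2
    rw [b1, b2]
  have h2' : MemLp (cl m fun y => -f y) 2 m := by
    rw [cl_neg hfm]; exact mem_neg h2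
  have hNN' : DU m t (Hh (fun y => -f y) σ) N := by rw [Hh_neg]; exact hNN
  have c1 := stepC hN h hf h2 ht hU hw hT hσ hNN
  have hw' : Continuous fun y => -w y := hw.neg
  have c2 := stepC hN h (BL.neg hf) h2' ht hU' hw' (hT.neg hN hfm h2) hσ hNN'
  have hE : Real.exp (K * t) = (Real.exp (-(K * t)))⁻¹ := by rw [Real.exp_neg, inv_inv]
  set a₀ := Real.exp (-(K * t)) with ha₀
  have ha : 0 < a₀ := Real.exp_pos _
  rw [hE]
  filter_upwards [c1, c2] with y d1 d2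
  have hfin := lipAt_ne_top hUL y
  set ℓs := (lipAt U y).toReal with hℓs
  have hℓ0 : 0 ≤ ℓs := ENNReal.toReal_nonneg
  have base : -N y + S y ≤ 0 := hS y _ fun ϑ hϑ => by
    have := (d1 ϑ hϑ).1
    linarith
  rcases hℓ0.eq_or_lt with h0 | h0
  · rw [← h0]
    simp only [ne_eq, OfNat.ofNat_ne_zero, not_false_eq_true, zero_pow, mul_zero, zero_div, zero_add]
    linarith
  have main : ∀ ℓ : ℝ, 0 < ℓ → ℓ < ℓs → a₀⁻¹ * ℓ ^ 2 / 2 + S y ≤ N y := by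
    intro ℓ hℓ hℓ2
    have h3 : ENNReal.ofReal ℓ < lipAt U y := by
      rw [← ENNReal.ofReal_toReal hfin]
      exact (ENNReal.ofReal_lt_ofReal_iff h0).2 hℓ2
    have hr : 0 < ℓ / a₀ := div_pos hℓ ha
    have e1 : ℓ * (ℓ / a₀) = a₀⁻¹ * ℓ ^ 2 := by field_simp
    have e2 : a₀ * (ℓ / a₀) ^ 2 / 2 = a₀⁻¹ * ℓ ^ 2 / 2 := by field_simp
    rcases freq_of_lt_lip hℓ.le h3 with h4 | h4
    · have h5 := hS y (a₀⁻¹ * ℓ ^ 2 / 2 - N y) fun ϑ hϑ => by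
        have := (d1 ϑ hϑ).2 ℓ (ℓ / a₀) hr h4
        rw [e1, e2] at this
        linarith
      linarith
    · have h5 := hS' y (a₀⁻¹ * ℓ ^ 2 / 2 - N y) fun ϑ hϑ => by
        have := (d2 ϑ hϑ).2 ℓ (ℓ / a₀) hr (h4.mono fun x hx => by linarith)
        rw [e1, e2] at this
        linarith
      linarith
  have hcont : Continuous fun ℓ : ℝ => a₀⁻¹ * ℓ ^ 2 / 2 + S y := by fun_prop
  refine le_of_tendsto ((hcont.tendsto ℓs).mono_left (nhdsWithin_le_nhds (s := Iio ℓs))) ?_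
  have h6 : ∀ᶠ ℓ in 𝓝[<] ℓs, 0 < ℓ := (lt_mem_nhds h0).filter_mono nhdsWithin_le_nhds
  filter_upwards [h6, eventually_mem_nhdsWithin] with ℓ a1 a2
  exact main ℓ a1 a2

end Vale.Agent.P233.H994.RK
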