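import Vale.Agent.P233.H994.RK7

/-! P233, RCDA, part K (helper994): integration, block KA2. -/

set_option linter.all false

open MeasureTheory Filter Topology Set
open scoped ENNReal NNReal MeasureTheory

universe u

namespace Vale.Agent.P233.H994.RK

open Vale.Agent.P233.RA

variable {M : Type u} [MetricSpace M] [MeasurableSpace M] {m : Measure M}
  [BorelSpace M] [SecondCountableTopology M] {n : ℕ} {K θ : ℝ}

/-- almost everywhere inequalities between continuous functions hold everywhere -/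
theorem le_of_ae_le (hfull : m.IsOpenPosMeasure) {a b : M → ℝ} (ha : Continuous a)
    (hb : Continuous b) (h : ∀ᵐ x ∂m, a x ≤ b x) (x : M) : a x ≤ b x := by
  have hU : IsOpen {x | b x < a x} := isOpen_lt hb ha
  have h0 : m {x | b x < a x} = 0 := by
    have := ae_iff.1 h
    simpa only [not_le] using this
  have h1 := hU.eq_empty_of_measure_zero h0
  by_contra hcon
  push Not at hcon
  have : x ∈ {x | b x < a x} := hcon
  rw [h1] at this
  exact this

/-- the Lipschitz representative of `Q_t f` is bounded by the bound of `f` -/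
theorem rep_BL (hN : NSp m n K θ) {f : M → ℝ} {B L : ℝ} (hf : H131.BL f B L)
    (h2 : MemLp (cl m f) 2 m) {t : ℝ} (ht : 0 ≤ t) {U : M → ℝ} {L' : ℝ} (hL' : 0 ≤ L')
    (hU : ∀ x y, |U x - U y| ≤ L' * dist x y) (he : Q m t (cl m f) =ᵐ[m] U) :
    H131.BL U B L' := by
  have hUc : Continuous U := by
    have hL0 : ∀ x y, dist (U x) (U y) ≤ L' * dist x y := fun x y => by
      rw [Real.dist_eq]; exact hU x y
    exact (LipschitzWith.of_dist_le_mul (K := ⟨L', hL'⟩) hL0).continuous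
  refine ⟨hL', ?_, hU⟩
  refine le_of_ae_le hN.full hUc.abs continuous_const ?_
  have h1 := hN.isDir.P_bdd (t := t / 2) (by positivity) h2 (K := B) (by
    filter_upwards [cl_ae hf.cont.aestronglyMeasurable (m := m)] with x hx
    rw [hx]; exact hf.bd x)
  filter_upwards [h1, he] with x a1 a2
  rw [← a2]; exact a1

theorem cl_rep {g : M →ₘ[m] ℝ} {U : M → ℝ} (hU : Continuous U) (he : g =ᵐ[m] U) : cl m U = g := by
  rw [eq_iff_ae]
  filter_upwards [cl_ae hU.aestronglyMeasurable (m := m), he] with x h1 h2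
  rw [h1, h2]

/-- Step E -/
theorem stepE (hN : NSp m n K θ) (h : K1S m n K) {f : M → ℝ} {B L : ℝ} (hf : H131.BL f B L)
    (hW : cl m f ∈ (sob m).W) {t : ℝ} (ht : 0 < t) {U w : M → ℝ} {L' : ℝ}
    (hUL : H131.BL U B L') (hU : Q m t (cl m f) =ᵐ[m] U)
    (hw : Continuous w) {T : Set ℚ} (hT : Fa m f t U w T) {S : M → ℝ} (hSI : LI m S)
    (hS : ∀ y X, (∀ ϑ ∈ T, X ≤ ϑ * w y + n / 8 * t * Real.exp (max (-K) 0 * t) * (ϑ : ℝ) ^ 2) →
      X + S y ≤ 0)
    (hS' : ∀ y X, (∀ ϑ ∈ T, X ≤ ϑ * (-w y) + n / 8 * t * Real.exp (max (-K) 0 * t) * (ϑ : ℝ) ^ 2) →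
      X + S y ≤ 0) :
    ∀ᵐ y ∂m, Real.exp (K * t) * (sob m).Γ (Q m t (cl m f)) (Q m t (cl m f)) y + 2 * S y ≤
      Q m t ((sob m).Γ (cl m f) (cl m f)) y := by
  haveI := hN.proper
  rcases isEmpty_or_nonempty M with hM | hM
  · exact ae_of_all _ fun x => (hM.false x).elim
  obtain ⟨x₀⟩ := hM
  have hD := hN.isDir
  have h2 := hD.memLp _ hW
  have hL0 := hf.L0
  -- the carré du champ of `f`
  have hΓf := gam_lip hN hf hW
  have hbd : ∀ᵐ x ∂m, |(sob m).Γ (cl m f) (cl m f) x| ≤ L ^ 2 := by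
    filter_upwards [hΓf] with x hx
    rw [hx, abs_of_nonneg (sq_nonneg _)]
    have h1 := lipAt_le hL0 fun y => hf.lip y x
    have h3 : (lipAt f x).toReal ≤ L := by
      rw [← ENNReal.toReal_ofReal hL0]
      exact ENNReal.toReal_mono ENNReal.ofReal_ne_top h1
    exact pow_le_pow_left₀ ENNReal.toReal_nonneg h3 2
  have hΓ2 : MemLp ((sob m).Γ (cl m f) (cl m f)) 2 m :=
    hD.Γ_mem2 hW (mem_top_iff.2 ⟨_, hbd⟩) hW
  -- the carré du champ of `Q_t f`
  have hQW : Q m t (cl m f) ∈ (sob m).W := hD.P_memW (t / 2) hW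
  have hclU : cl m U = Q m t (cl m f) := cl_rep hUL.cont hU
  have hΓU := gam_lip hN hUL (by rw [hclU]; exact hQW)
  rw [hclU] at hΓU
  have hΓU1 : LI m ((sob m).Γ (Q m t (cl m f)) (Q m t (cl m f))) := fun x r =>
    (int_of_mem (hD.mem1 _ hQW)).integrableOn
  have hQΓ : LI m (Q m t ((sob m).Γ (cl m f) (cl m f))) := LI_of_mem2 hN (Q_mem2 hN t hΓ2)
  set v : M → ℝ := fun y => Real.exp (K * t) * (sob m).Γ (Q m t (cl m f)) (Q m t (cl m f)) y
    + 2 * S y - Q m t ((sob m).Γ (cl m f) (cl m f)) y with hv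
  have hvI : LI m v := fun x r =>
    (((hΓU1 x r).const_mul _).add ((hSI x r).const_mul 2)).sub (hQΓ x r)
  have key : ∀ k : ℕ, ∀ᵐ y ∂m, dist x₀ y ≤ k → v y ≤ 0 := by
    intro k
    refine ae_le_ball hN.fin hvI x₀ k 0 fun A hA h0 hs => ?_
    have hb : Bornology.IsBounded A := Metric.isBounded_closedBall.subset hs
    obtain ⟨q0, q1, q2, q3⟩ := Q_ind hN ht.le hA hb
    set c : ℝ := ∫ y in A, (Real.exp (K * t) *
      (sob m).Γ (Q m t (cl m f)) (Q m t (cl m f)) y / 2 + S y) ∂m with hc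
    have hle : ∀ j : ℕ, c ≤ ∫ x, Hh f (((j : ℝ) + 1)⁻¹) x * Q m t (ind m A) x ∂m := by
      intro j
      have hσ : (0 : ℝ) < ((j : ℝ) + 1)⁻¹ := by positivity
      obtain ⟨N, hNN, hNb⟩ := exists_DU hN ht.le (Hh_meas hf (((j : ℝ) + 1)⁻¹))
        (fun x => Hh_nonneg hf x) (fun x => Hh_le hf x)
      have h3 := stepD hN h hf h2 ht hUL hU hw hT hS hS' hσ hNN
      rw [← hNN.dual A hA hb, hc]
      refine integral_mono_ae ((((hΓU1.on hb).const_mul _).div_const 2).add (hSI.on hb))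
        ((hNN.LI hN.fin).on hb) (ae_restrict_of_ae ?_)
      filter_upwards [h3, hΓU] with y b1 b2
      show Real.exp (K * t) * (sob m).Γ (Q m t (cl m f)) (Q m t (cl m f)) y / 2 + S y ≤ N y
      rw [b2]; exact b1
    have hgi : Integrable (fun x => (sob m).Γ (cl m f) (cl m f) x / 2 * Q m t (ind m A) x) m := by
      refine (int_of_mem q1).bdd_mul (c := L ^ 2 / 2) ?_ ?_
      · have hm : AEStronglyMeasurable (fun x => (sob m).Γ (cl m f) (cl m f) x) m :=
          AEEqFun.aestronglyMeasurable _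
        have := hm.mul_const (2 : ℝ)⁻¹
        simpa only [div_eq_mul_inv] using this
      · filter_upwards [hbd] with x hx
        rw [norm_div, Real.norm_eq_abs]
        simp only [Real.norm_ofNat]
        linarith
    have h4 := Hh_lim hf (int_of_mem q1) (nonneg_iff_ae.1 q0) hgi
      (by filter_upwards [hΓf] with x hx; rw [hx]) hle
    have h5 : ∫ x, (sob m).Γ (cl m f) (cl m f) x / 2 * Q m t (ind m A) x ∂m
        = (∫ y in A, Q m t ((sob m).Γ (cl m f) (cl m f)) y ∂m) / 2 := by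
      rw [← I_mul_ind hA, Q_symm hN t hΓ2 (ind_mem hA (fin_of_bdd hN hb) 2)]
      unfold I
      rw [← integral_div]
      refine integral_congr_ae ?_
      filter_upwards [mul_ae ((sob m).Γ (cl m f) (cl m f)) (Q m t (ind m A))] with x hx
      rw [hx]; ring
    rw [h5] at h4
    have h6 : ∫ y in A, v y ∂m = 2 * c - ∫ y in A, Q m t ((sob m).Γ (cl m f) (cl m f)) y ∂m := by
      rw [hc, ← integral_const_mul, ← integral_sub]
      · refine integral_congr_ae (ae_of_all _ fun y => ?_)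
        simp only [hv]; ring
      · exact ((((hΓU1.on hb).const_mul _).div_const 2).add (hSI.on hb)).const_mul 2
      · exact hQΓ.on hb
    rw [h6, zero_mul]
    linarith
  filter_upwards [ae_all_iff.2 key] with y hy
  obtain ⟨k, hk⟩ := exists_nat_gt (dist x₀ y)
  have := hy k hk.le
  simp only [hv] at this
  linarith

/-- bounded Lipschitz representative -/
theorem exists_BL {f : M →ₘ[m] ℝ} (hB : f ∈ (sob m).B) :
    ∃ (u : M → ℝ) (B L : ℝ), H131.BL u B L ∧ cl m u = f := by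
  obtain ⟨u, ⟨L, hL⟩, ⟨B, hB⟩, he⟩ := hB
  refine ⟨u, B, L, ⟨L.2, hB, fun x y => ?_⟩, cl_rep hL.continuous he⟩
  have := hL.dist_le_mul x y
  rwa [Real.dist_eq] at this

end Vale.Agent.P233.H994.RK

namespace Vale.Agent.P233.RA

open Vale.Agent.P233.H994.RK

/-- KA2 -/
theorem blk_KA2 : Blk_KA2.{u} := by
  intro M _ _ _ _ _ m n K θ hN h f hW hB t ht
  obtain ⟨u, B, L, hu, rfl⟩ := exists_BL hB
  have h2 := hN.isDir.memLp _ hW
  obtain ⟨U, hU, he⟩ := lip_rep hN h hu h2 ht
  have hL := hu.L0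
  have hUL := rep_BL hN hu h2 ht.le (by positivity) hU he
  have hT : Fa m u t U (fun _ => 0) {0} := by
    intro ϑ hϑ
    rw [mem_singleton_iff] at hϑ
    subst hϑ
    refine ⟨0, 1, one_pos, fun s hs hs' => ⟨by simp, U, _, hUL.L0, hU, ?_, fun x => ?_⟩⟩
    · simp only [Rat.cast_zero, zero_mul, add_zero, one_mul]; exact he
    · simp
  have key := stepE hN h hu hW ht hUL he continuous_const hT (S := fun _ => 0)
    (LI_of_bdd hN.fin aestronglyMeasurable_const (c := 0) (fun x => by simp))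
    (fun y X hX => by have := hX 0 rfl; simpa using this)
    (fun y X hX => by have := hX 0 rfl; simpa using this)
  rw [le_iff_ae]
  filter_upwards [key, smul_ae ((sob m).Γ (Q m t (cl m u)) (Q m t (cl m u))) (Real.exp (K * t))]
    with y b1 b2
  rw [b2]
  linarith

end Vale.Agent.P233.RA
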