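import Vale.Agent.P233.H994.Wlim
import Vale.Agent.P233.H994.Joint

/-!
P233, block C6b (helper994): the space-time measure `dt ⊗ m` on `(s,1] × M`, slices.
-/

set_option linter.all false

open MeasureTheory Filter Topology Set
open scoped ENNReal NNReal InnerProductSpace

namespace Vale.Agent.P233.H994

variable {X : Type*} [MeasurableSpace X]

/-- the space-time measure on `(s,1] × X` -/
noncomputable abbrev ms (m : Measure X) (s : ℝ) : Measure (ℝ × X) :=
  ((volume : Measure ℝ).restrict (Ioc s 1)).prod m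

variable {m : Measure X} {s : ℝ}
variable {E : Type*} [NormedAddCommGroup E]

theorem ae_ms [SFinite m] {P : ℝ × X → Prop} (hP : MeasurableSet {z | P z})
    (h : ∀ t ∈ Ioc s 1, ∀ᵐ x ∂m, P (t, x)) : ∀ᵐ z ∂(ms m s), P z := by
  rw [Measure.ae_prod_iff_ae_ae hP]
  exact (ae_restrict_iff' measurableSet_Ioc).2 (Eventually.of_forall h)

theorem ae_ms' [SFinite m] {P : ℝ × X → Prop} (hP : MeasurableSet {z | P z})
    (h : ∀ᵐ t ∂((volume : Measure ℝ).restrict (Ioc s 1)), ∀ᵐ x ∂m, P (t, x)) :
    ∀ᵐ z ∂(ms m s), P z := (Measure.ae_prod_iff_ae_ae hP).2 h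

theorem ms_ae {P : ℝ × X → Prop} [SFinite m] (h : ∀ᵐ z ∂(ms m s), P z) :
    ∀ᵐ t ∂((volume : Measure ℝ).restrict (Ioc s 1)), ∀ᵐ x ∂m, P (t, x) :=
  Measure.ae_ae_of_ae_prod h

theorem ms_fst [SFinite m] : ∀ᵐ z ∂(ms m s), z.1 ∈ Ioc s 1 :=
  ae_ms (measurable_fst measurableSet_Ioc) fun t ht => Eventually.of_forall fun _ => ht

/-- almost everywhere statements on `X` -/
theorem ms_snd [SFinite m] {P : X → Prop} (h : ∀ᵐ x ∂m, P x) : ∀ᵐ z ∂(ms m s), P z.2 :=
  Measure.quasiMeasurePreserving_snd.ae h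

theorem asm_snd [SFinite m] {f : X → E} (hf : AEStronglyMeasurable f m) :
    AEStronglyMeasurable (fun z : ℝ × X => f z.2) (ms m s) :=
  hf.comp_quasiMeasurePreserving Measure.quasiMeasurePreserving_snd

theorem int_ms [NormedSpace ℝ E] [SFinite m] {f : ℝ × X → E} (hf : Integrable f (ms m s))
    (hs : s ≤ 1) : ∫ z, f z ∂(ms m s) = ∫ t in s..1, ∫ x, f (t, x) ∂m := by
  rw [integral_prod _ hf, intervalIntegral.integral_of_le hs]

/-- Tonelli with a majorant on the slices. -/
theorem int_ms_le [SFinite m] {f : ℝ × X → ℝ} (hf : Measurable f) (hs : s ≤ 1) {e : ℝ → ℝ}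
    (he : IntervalIntegrable e volume s 1)
    (h0 : ∀ t ∈ Ioc s 1, ∀ᵐ x ∂m, 0 ≤ f (t, x))
    (h : ∀ t ∈ Ioc s 1, Integrable (fun x => f (t, x)) m ∧ ∫ x, f (t, x) ∂m ≤ e t) :
    Integrable f (ms m s) ∧ ∫ z, f z ∂(ms m s) ≤ ∫ t in s..1, e t := by
  have hi : Integrable f (ms m s) := by
    rw [integrable_prod_iff hf.aestronglyMeasurable]
    refine ⟨(ae_restrict_iff' measurableSet_Ioc).2 (Eventually.of_forall fun t ht => (h t ht).1), ?_⟩
    have he' : Integrable e ((volume : Measure ℝ).restrict (Ioc s 1)) :=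
      (intervalIntegrable_iff_integrableOn_Ioc_of_le hs).1 he
    refine he'.mono' ?_ ?_
    · exact hf.aestronglyMeasurable.norm.integral_prod_right'
    · refine (ae_restrict_iff' measurableSet_Ioc).2 (Eventually.of_forall fun t ht => ?_)
      rw [Real.norm_of_nonneg (integral_nonneg fun _ => norm_nonneg _)]
      refine le_trans (le_of_eq ?_) (h t ht).2
      refine integral_congr_ae ?_
      filter_upwards [h0 t ht] with x hx
      rw [Real.norm_of_nonneg hx]
  refine ⟨hi, ?_⟩
  rw [int_ms hi hs]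
  have hg : IntervalIntegrable (fun t => ∫ x, f (t, x) ∂m) volume s 1 :=
    (intervalIntegrable_iff_integrableOn_Ioc_of_le hs).2 hi.integral_prod_left
  rw [intervalIntegral.integral_of_le hs, intervalIntegral.integral_of_le hs]
  refine setIntegral_mono_on ((intervalIntegrable_iff_integrableOn_Ioc_of_le hs).1 hg)
    ((intervalIntegrable_iff_integrableOn_Ioc_of_le hs).1 he) measurableSet_Ioc fun t ht =>
    (h t ht).2

/-- `L²` of space-time. -/
theorem memLp_ms [SFinite m] {G : ℝ × X → E} (hG : StronglyMeasurable G) (hs : s ≤ 1) {e : ℝ → ℝ}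
    (he : IntervalIntegrable e volume s 1)
    (h : ∀ t ∈ Ioc s 1, MemLp (fun x => G (t, x)) 2 m ∧ ∫ x, ‖G (t, x)‖ ^ 2 ∂m ≤ e t) :
    MemLp G 2 (ms m s) ∧ ∫ z, ‖G z‖ ^ 2 ∂(ms m s) ≤ ∫ t in s..1, e t := by
  have h1 := int_ms_le (m := m) (f := fun z => ‖G z‖ ^ 2) (hG.norm.measurable.pow_const 2) hs he
    (fun t ht => Eventually.of_forall fun x => by positivity) (fun t ht =>
      ⟨(memLp_two_iff_integrable_sq_norm (h t ht).1.1).1 (h t ht).1, (h t ht).2⟩)
  exact ⟨(memLp_two_iff_integrable_sq_norm hG.aestronglyMeasurable).2 h1.1, h1.2⟩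

/-- functions on `X`, as functions on space-time -/
theorem memLp_snd [SFinite m] {f : X → E} {p : ℝ≥0∞} (hf : MemLp f p m) :
    MemLp (fun z : ℝ × X => f z.2) p (ms m s) := by
  have h1 : Measure.map Prod.snd (ms m s) = ((volume : Measure ℝ).restrict (Ioc s 1) univ) • m :=
    Measure.map_snd_prod
  have h2 : MemLp f p (Measure.map Prod.snd (ms m s)) := by
    rw [h1]
    refine hf.smul_measure ?_
    simp
  exact (memLp_map_measure_iff h2.1 measurable_snd.aemeasurable).1 h2

/-- restriction of the space-time measure -/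
theorem ms_restrict [SFinite m] {s' : ℝ} (h : s ≤ s') :
    (ms m s).restrict (Ioi s' ×ˢ univ) = ms m s' := by
  have h1 : (ms m s).restrict (Ioi s' ×ˢ univ)
      = (((volume : Measure ℝ).restrict (Ioc s 1)).restrict (Ioi s')).prod (m.restrict univ) :=
    (Measure.prod_restrict _ _).symm
  rw [h1, Measure.restrict_univ, Measure.restrict_restrict measurableSet_Ioi]
  congr 2
  ext t
  simp only [mem_inter_iff, mem_Ioi, mem_Ioc]
  constructor
  · rintro ⟨a, b, c⟩; exact ⟨a, c⟩
  · rintro ⟨a, b⟩; exact ⟨a, h.trans_lt a, b⟩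

theorem ms_mono [SFinite m] {s' : ℝ} (h : s ≤ s') : ms m s' ≤ ms m s := by
  rw [← ms_restrict h]
  exact Measure.restrict_le_self

section wlim

variable [InnerProductSpace ℝ E] {ι : Type*} {U : Ultrafilter ι}
variable {Y : Type*} [MeasurableSpace Y] {ν : Measure Y} {ρ : ι → Y → ℝ} {ρ0 : Y → ℝ}
  {F : ι → Y → E} {F0 : Y → E}

/-- weak limits restrict to subsets -/
theorem WLim.restrict (h : WLim U ν ρ ρ0 F F0) {S : Set Y} (hS : MeasurableSet S) :
    WLim U (ν.restrict S) ρ ρ0 F F0 where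
  meas := h.meas.mono_measure Measure.restrict_le_self
  mem := h.mem.mono_measure Measure.restrict_le_self
  lim := fun Φ hΦ => by
    have h1 : MemLp (S.indicator Φ) 2 ν := (memLp_indicator_iff_restrict hS).2 hΦ
    have h2 := h.lim _ h1
    have h3 : ∀ G : Y → E, ∫ y, ⟪G y, S.indicator Φ y⟫_ℝ ∂ν = ∫ y in S, ⟪G y, Φ y⟫_ℝ ∂ν := by
      intro G
      rw [← integral_indicator hS]
      refine integral_congr_ae (ae_of_all _ fun y => ?_)
      by_cases hy : y ∈ S
      · simp only [indicator_of_mem hy]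
      · simp only [indicator_of_notMem hy, inner_zero_right]
    simp only [h3] at h2
    exact h2

theorem WStar.restrict {K : ℝ} (h : WStar U ν K ρ ρ0) {S : Set Y} (hS : MeasurableSet S) :
    WStar U (ν.restrict S) K ρ ρ0 where
  meas := fun n => (h.meas n).mono_measure Measure.restrict_le_self
  meas0 := h.meas0.mono_measure Measure.restrict_le_self
  bd := by filter_upwards [h.bd] with n hn using ae_restrict_of_ae hn
  bd0 := ae_restrict_of_ae h.bd0
  lim := fun g hg => by
    have h1 : Integrable (S.indicator g) ν := (integrable_indicator_iff hS).2 hg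
    have h2 := h.lim _ h1
    have h3 : ∀ G : Y → ℝ, ∫ y, G y * S.indicator g y ∂ν = ∫ y in S, G y * g y ∂ν := by
      intro G
      rw [← integral_indicator hS]
      refine integral_congr_ae (ae_of_all _ fun y => ?_)
      by_cases hy : y ∈ S
      · simp only [indicator_of_mem hy]
      · simp only [indicator_of_notMem hy, mul_zero]
    simp only [h3] at h2
    exact h2

end wlim

end Vale.Agent.P233.H994
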