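import Vale.Agent.P233.H994.Weak

/-!
P233, block C6b (helper994): identification of the slices of a function on space-time.
-/

set_option linter.all false

open MeasureTheory Filter Topology Set
open scoped ENNReal NNReal InnerProductSpace

universe u

namespace Vale.Agent.P233.H994

/-- a function with vanishing integrals over all intervals vanishes -/
theorem ae_zero_of_int {f : ℝ → ℝ} {a b : ℝ} (hab : a ≤ b) (hf : IntervalIntegrable f volume a b)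
    (h : ∀ t ∈ Icc a b, ∫ r in a..t, f r = 0) :
    ∀ᵐ t ∂((volume : Measure ℝ).restrict (Ioc a b)), f t = 0 := by
  rw [ae_restrict_iff' measurableSet_Ioc]
  have h1 : ∀ᵐ t : ℝ, t ≠ b := by simp [ae_iff, measure_singleton]
  filter_upwards [hf.ae_hasDerivAt_integral, h1] with t ht h1 ht2
  rw [uIcc_of_le hab] at ht
  have h3 := ht ⟨ht2.1.le, ht2.2⟩ a ⟨le_rfl, hab⟩
  have h4 : (fun x => ∫ r in a..x, f r) =ᶠ[𝓝 t] fun _ => 0 := by
    have h5 : Icc a b ∈ 𝓝 t := Icc_mem_nhds ht2.1 (lt_of_le_of_ne ht2.2 h1)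
    filter_upwards [h5] with x hx using h x hx
  exact h3.unique ((hasDerivAt_const t (0 : ℝ)).congr_of_eventuallyEq h4)

variable {M : Type u} [MeasurableSpace M] {m : Measure M} {s : ℝ}

/-- **Slices.** -/
theorem slice_eq [SFinite m] (hs : s ≤ 1) {e : ℕ → M →ₘ[m] ℝ} (he : ∀ i, MemLp (e i) 2 m)
    (hd : ∀ g : M →ₘ[m] ℝ, MemLp g 2 m → (∀ i, I (e i * g) = 0) → g = 0)
    {f : ℝ × M → ℝ} (hfm : StronglyMeasurable f) (hf : MemLp f 2 (ms m s)) {F : ℝ → M →ₘ[m] ℝ}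
    (hF : ∀ t ∈ Ioc s 1, MemLp (F t) 2 m)
    (hc : ∀ i, ContinuousOn (fun t => I (e i * F t)) (Icc s 1))
    (h : ∀ i a b, s ≤ a → a ≤ b → b ≤ 1 →
      ∫ z, (Ioc a b).indicator (fun _ => (1 : ℝ)) z.1 * (e i z.2 * f z) ∂(ms m s)
        = ∫ t in a..b, I (e i * F t)) :
    ∀ᵐ t ∂((volume : Measure ℝ).restrict (Ioc s 1)), ∀ᵐ x ∂m, f (t, x) = F t x := by
  have k1 : ∀ i, Integrable (fun z : ℝ × M => e i z.2 * f z) (ms m s) := fun i =>
    (memLp_snd (he i)).integrable_mul hf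
  have k4 : ∀ i, IntervalIntegrable (fun t => ∫ x, e i x * f (t, x) ∂m) volume s 1 := fun i =>
    (intervalIntegrable_iff_integrableOn_Ioc_of_le hs).2 (k1 i).integral_prod_left
  have k5 : ∀ i, IntervalIntegrable (fun t => I (e i * F t)) volume s 1 := fun i => by
    refine ContinuousOn.intervalIntegrable ?_
    rw [uIcc_of_le hs]
    exact hc i
  have h1 : ∀ i, ∀ᵐ t ∂((volume : Measure ℝ).restrict (Ioc s 1)),
      ∫ x, e i x * f (t, x) ∂m - I (e i * F t) = 0 := by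
    intro i
    refine ae_zero_of_int hs ((k4 i).sub (k5 i)) fun t ht => ?_
    have sub : Icc s t ⊆ Icc s 1 := Icc_subset_Icc le_rfl ht.2
    have s1 : uIcc s t ⊆ uIcc s 1 := by
      rw [uIcc_of_le ht.1, uIcc_of_le hs]; exact sub
    rw [intervalIntegral.integral_sub ((k4 i).mono_set s1) ((k5 i).mono_set s1), sub_eq_zero,
      ← h i s t le_rfl ht.1 ht.2]
    refine (int_tensor (m := m) (f := fun z => e i z.2 * f z) le_rfl ht.1 ht.2 ?_
      fun r hr => rfl).symm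
    have := (memLp_tensor (s := s) (a := s) (b := t) (he i)).integrable_mul hf
    simpa only [Pi.mul_def, mul_assoc] using this
  have h2 : ∀ᵐ t ∂((volume : Measure ℝ).restrict (Ioc s 1)), MemLp (fun x => f (t, x)) 2 m := by
    have i1 := (memLp_two_iff_integrable_sq_norm hf.1).1 hf
    filter_upwards [i1.prod_right_ae] with t ht
    exact (memLp_two_iff_integrable_sq_norm
      (hfm.comp_measurable measurable_prodMk_left).aestronglyMeasurable).2 ht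
  have h3 : ∀ᵐ t ∂((volume : Measure ℝ).restrict (Ioc s 1)), t ∈ Ioc s 1 :=
    ae_restrict_mem measurableSet_Ioc
  filter_upwards [ae_all_iff.2 h1, h2, h3] with t a1 a2 a3
  have hm : AEStronglyMeasurable (fun x => f (t, x)) m := a2.1
  set g : M →ₘ[m] ℝ := AEEqFun.mk (fun x => f (t, x)) hm with hg
  have g1 : ∀ᵐ x ∂m, g x = f (t, x) := AEEqFun.coeFn_mk _ _
  have g2 : MemLp g 2 m := a2.ae_eq (g1.mono fun x hx => hx.symm)
  have g3 : MemLp (g - F t : M →ₘ[m] ℝ) 2 m := mem_sub g2 (hF t a3)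
  have g4 : g - F t = 0 := by
    refine hd _ g3 fun i => ?_
    have e1 : I (e i * g) = ∫ x, e i x * f (t, x) ∂m := by
      unfold I
      refine integral_congr_ae ?_
      filter_upwards [mul_ae (e i) g, g1] with x b1 b2
      rw [b1, b2]
    have e2 : I (e i * (g - F t)) = I (e i * g) - I (e i * F t) := by
      rw [mul_sub, I_sub (mem_mul_22 (he i) g2) (mem_mul_22 (he i) (hF t a3))]
    rw [e2, e1]
    exact a1 i
  rw [sub_eq_zero] at g4
  filter_upwards [g1] with x hx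
  rw [← hx, g4]

/-- Weak limits in space-time with the right slices. -/
theorem exists_ms_lim' [SFinite m] {U : Ultrafilter ℕ} (hs : s ≤ 1) {e : ℕ → M →ₘ[m] ℝ}
    (he : ∀ i, MemLp (e i) 2 m)
    (hd : ∀ g : M →ₘ[m] ℝ, MemLp g 2 m → (∀ i, I (e i * g) = 0) → g = 0)
    {f : ℕ → ℝ × M → ℝ} (hf : ∀ n, StronglyMeasurable (f n))
    {F : ℕ → ℝ → M →ₘ[m] ℝ} {F0 : ℝ → M →ₘ[m] ℝ} {B : ℝ}
    (hfF : ∀ᶠ n in (U : Filter ℕ), ∀ t ∈ Ioc s 1, (∀ᵐ x ∂m, f n (t, x) = F n t x) ∧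
      MemLp (F n t) 2 m ∧ I (F n t ^ 2) ≤ B)
    (hF0 : ∀ t ∈ Ioc s 1, MemLp (F0 t) 2 m)
    (hc : ∀ i, ContinuousOn (fun t => I (e i * F0 t)) (Icc s 1))
    (hu : ∀ i, ∀ δ > 0, ∀ᶠ n in (U : Filter ℕ), ∀ t ∈ Icc s 1,
      |I (e i * F n t) - I (e i * F0 t)| ≤ δ) :
    (∀ᶠ n in (U : Filter ℕ), MemLp (f n) 2 (ms m s) ∧
      ∫ z, ‖f n z‖ ^ 2 ∂(ms m s) ≤ (1 - s) * B) ∧
    ∃ f0 : ℝ × M → ℝ, StronglyMeasurable f0 ∧ MemLp f0 2 (ms m s) ∧
      (∀ g : ℝ × M → ℝ, MemLp g 2 (ms m s) → Tendsto (fun n => ∫ z, g z * f n z ∂(ms m s)) U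
        (𝓝 (∫ z, g z * f0 z ∂(ms m s)))) ∧
      ∀ᵐ t ∂((volume : Measure ℝ).restrict (Ioc s 1)), ∀ᵐ x ∂m, f0 (t, x) = F0 t x := by
  obtain ⟨h1, f0, h2, h3, h4, h5⟩ := exists_ms_lim hs he hf hfF hc hu
  exact ⟨h1, f0, h2, h3, h4, slice_eq hs he hd h2 h3 hF0 hc h5⟩

end Vale.Agent.P233.H994
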