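import Vale.Agent.P233.H994.WStep
import Vale.Agent.P233.H671.C6bStat
import Vale.Agent.P233.H134.BlkB0c

/-!
P233, block C6b (helper994): the limit of the Hessians of `θ` on `(s,1] × M`.
-/

set_option linter.all false

open MeasureTheory Filter Topology Set
open scoped ENNReal NNReal InnerProductSpace

universe u

namespace Vale.Agent.P233.H994

open Vale.Agent.P233.PA (en OutA)
open Vale.Agent.P233.PC

/-- the norm of the Hessian of `θ`, jointly measurable -/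
noncomputable def jΛ {M : Type u} [MeasurableSpace M] {m : Measure M} {E : Type}
    [NormedAddCommGroup E] [InnerProductSpace ℝ E]
    (Gr : (M →ₘ[m] ℝ) → M → E) (V : (M →ₘ[m] ℝ) → (M →ₘ[m] ℝ) → M → E) (e : ℕ → M →ₘ[m] ℝ)
    (u : ℕ → ℝ → M →ₘ[m] ℝ) (φ : (M →ₘ[m] ℝ) → ℕ → ℝ → M →ₘ[m] ℝ) (n : ℕ) (z : ℝ × M) : ℝ :=
  (⨆ i, ENNReal.ofReal (‖jV V u φ 0 (e i) n z‖ / ‖Gr (e i) z.2‖)).toReal

/-- the limit tensor on `(s,1] × M` -/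
structure HDat {M : Type u} [MetricSpace M] [MeasurableSpace M] (m : Measure M) {E : Type}
    [NormedAddCommGroup E] [InnerProductSpace ℝ E]
    (Gr : (M →ₘ[m] ℝ) → M → E) (V : (M →ₘ[m] ℝ) → (M →ₘ[m] ℝ) → M → E) (e : ℕ → M →ₘ[m] ℝ)
    (u : ℕ → ℝ → M →ₘ[m] ℝ) (φ : (M →ₘ[m] ℝ) → ℕ → ℝ → M →ₘ[m] ℝ) (U : Ultrafilter ℕ)
    (ρ0 : ℝ × M → ℝ) (s : ℝ) (H : (M →ₘ[m] ℝ) → ℝ × M → E) (Λ : ℝ × M → ℝ) : Prop where
  wl : ∀ h ∈ (sob m).TestI, WLim U (ms m s) (fun n => jρ u φ 0 n) ρ0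
    (fun n => jV V u φ 0 h n) (H h)
  wΛ : WLim U (ms m s) (fun n => jρ u φ 0 n) ρ0 (fun n => jΛ Gr V e u φ n) Λ
  nn : ∀ z, 0 ≤ Λ z
  bd : ∀ h ∈ (sob m).TestI, ∀ᵐ z ∂(ms m s), 0 < ρ0 z → ‖H h z‖ ≤ Λ z * ‖Gr h z.2‖

section metric

variable {M : Type u} [MetricSpace M] [CompleteSpace M] [SecondCountableTopology M]
  [MeasurableSpace M] [BorelSpace M] {m : Measure M} {K N κ : ℝ}
  {P : ℝ → (M →ₘ[m] ℝ) → (M →ₘ[m] ℝ)} {p : M} {s₀ C₀ : ℝ}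
variable {E : Type} [NormedAddCommGroup E] [InnerProductSpace ℝ E] [CompleteSpace E]
variable {Gr : (M →ₘ[m] ℝ) → M → E} {V : (M →ₘ[m] ℝ) → (M →ₘ[m] ℝ) → M → E}
  {D : (M →ₘ[m] ℝ) → (M →ₘ[m] ℝ)} {HO : (M →ₘ[m] ℝ) → M → E →L[ℝ] E} {e : ℕ → M →ₘ[m] ℝ}
variable {u : ℕ → ℝ → M →ₘ[m] ℝ} {φ : (M →ₘ[m] ℝ) → ℕ → ℝ → M →ₘ[m] ℝ} {U : Ultrafilter ℕ}
variable {ψ ρ : ℝ → M →ₘ[m] ℝ} {R : ℝ → ℝ → (M →ₘ[m] ℝ) → (M →ₘ[m] ℝ)} {Y : ℝ → M → M}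

variable (c : Ctx m K N κ P p s₀ C₀ Gr V D HO e u φ U ψ ρ R Y)

include c

theorem Ctx.gradI {h : M →ₘ[m] ℝ} (hh : h ∈ (sob m).TestI) : StronglyMeasurable (Gr h) :=
  c.hE.stat.gmeas h (c.hC.tW hh.1)

theorem Ctx.gr_bd {h : M →ₘ[m] ℝ} (hh : h ∈ (sob m).TestI) :
    ∃ L : ℝ, 0 ≤ L ∧ ∀ᵐ x ∂m, ‖Gr h x‖ ≤ L := by
  obtain ⟨k, hk⟩ := mem_top_iff.1 (c.hC.test_Γ_top hh.1)
  refine ⟨√|k|, Real.sqrt_nonneg _, ?_⟩
  filter_upwards [hk, c.hE.stat.grad.norm_sq (c.hC.tW hh.1)] with x h1 h2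
  refine Real.le_sqrt_of_sq_le ?_
  rw [h2]
  exact (le_abs_self _).trans (h1.trans (le_abs_self _))

theorem Ctx.gr2 {h : M →ₘ[m] ℝ} (hh : h ∈ (sob m).TestI) : MemLp (Gr h) 2 m :=
  c.hE.stat.grad.mem h (c.hC.tW hh.1)

/-- slices of the joint representatives of the Hessians, for all test functions at once -/
theorem Ctx.jV_all [SigmaFinite m] {l : M →ₘ[m] ℝ} (hl : l ∈ (sob m).TestI) :
    ∀ᶠ n in (U : Filter ℕ), ∀ h ∈ (sob m).TestI, ∀ t ∈ Icc (0 : ℝ) 1,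
      ∀ᵐ x ∂m, jV V u φ l h n (t, x) = V (tn u φ l n t) h x := by
  filter_upwards [c.hU (c.hB.mem l hl), c.hU (c.hB.reg l hl)] with n h1 h2 h hh
  refine jr_spec (exists_joint (zero_le_one (α := ℝ)) (fun t ht =>
    c.hE.hu.mem _ (h1 t ht).2.1.1 _ hh.1) fun t ht => ?_)
  exact (H134.blk_B0c M m (sob m) K E Gr V c.hC c.bei c.hE.stat.grad c.hE.hu (en n) 0 1
    (φ l n) (u n) h2 h hh t ht).1

theorem Ctx.jΛ_meas (n : ℕ) : Measurable (jΛ Gr V e u φ n) := by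
  unfold jΛ
  refine Measurable.ennreal_toReal (Measurable.iSup fun i => ?_)
  have h1 : Measurable fun z : ℝ × M => ‖jV V u φ 0 (e i) n z‖ := (jr_meas _).norm.measurable
  have h2 : Measurable fun z : ℝ × M => ‖Gr (e i) z.2‖ :=
    (c.gradI (c.hE.stat.testI i)).norm.measurable.comp measurable_snd
  exact (h1.div h2).ennreal_ofReal

omit [CompleteSpace M] [SecondCountableTopology M] [BorelSpace M] [CompleteSpace E] c in
theorem jΛ_nonneg (n : ℕ) (z : ℝ × M) : 0 ≤ jΛ Gr V e u φ n z := ENNReal.toReal_nonneg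

/-- slices of `jΛ` -/
theorem Ctx.jΛ_spec [SigmaFinite m] : ∀ᶠ n in (U : Filter ℕ), ∀ t ∈ Icc (0 : ℝ) 1,
    (∀ᵐ x ∂m, jΛ Gr V e u φ n (t, x) ≤ D (tn u φ 0 n t) x) ∧
    ∀ h ∈ (sob m).TestI, ∀ᵐ x ∂m, ‖jV V u φ 0 h n (t, x)‖ ≤ jΛ Gr V e u φ n (t, x) * ‖Gr h x‖ := by
  filter_upwards [c.jV_all c.zero, c.hU (c.hB.mem 0 c.zero)] with n h1 h2 t ht
  have hθ := (h2 t ht).2.1.1
  have key : ∀ᵐ x ∂m, (∀ i, ‖jV V u φ 0 (e i) n (t, x)‖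
      ≤ jΛ Gr V e u φ n (t, x) * ‖Gr (e i) x‖) ∧ jΛ Gr V e u φ n (t, x) ≤ D (tn u φ 0 n t) x := by
    filter_upwards [ae_all_iff.2 fun i => h1 (e i) (c.hE.stat.testI i) t ht,
      ae_all_iff.2 fun i => c.hE.hd.norm _ hθ (e i) (c.hE.stat.testI i).1,
      nonneg_iff_ae.1 (c.hE.hd.nonneg _ hθ)] with x a1 a2 a3
    have b1 : ∀ i, ‖jV V u φ 0 (e i) n (t, x)‖ / ‖Gr (e i) x‖ ≤ D (tn u φ 0 n t) x := by
      intro i
      rw [a1 i]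
      exact div_le_of_le_mul₀ (norm_nonneg _) a3 (a2 i)
    have b2 : (⨆ i, ENNReal.ofReal (‖jV V u φ 0 (e i) n (t, x)‖ / ‖Gr (e i) x‖))
        ≤ ENNReal.ofReal (D (tn u φ 0 n t) x) := iSup_le fun i => ENNReal.ofReal_le_ofReal (b1 i)
    have b3 : (⨆ i, ENNReal.ofReal (‖jV V u φ 0 (e i) n (t, x)‖ / ‖Gr (e i) x‖)) ≠ ∞ :=
      ne_top_of_le_ne_top ENNReal.ofReal_ne_top b2
    refine ⟨fun i => ?_, ENNReal.toReal_le_of_le_ofReal a3 b2⟩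
    have b4 : ‖jV V u φ 0 (e i) n (t, x)‖ / ‖Gr (e i) x‖ ≤ jΛ Gr V e u φ n (t, x) := by
      unfold jΛ
      rw [← ENNReal.ofReal_le_iff_le_toReal b3]
      exact le_iSup (fun i => ENNReal.ofReal (‖jV V u φ 0 (e i) n (t, x)‖ / ‖Gr (e i) x‖)) i
    rcases eq_or_lt_of_le (norm_nonneg (Gr (e i) x)) with h0 | h0
    · rw [← h0, mul_zero, a1 i]
      have := a2 i
      rw [← h0, mul_zero] at this
      exact this
    · exact (div_le_iff₀ h0).1 b4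
  refine ⟨key.mono fun x hx => hx.2, fun h hh => ?_⟩
  have h3 := H671.V_bd c.hC c.bei c.hE.hu c.hE.stat hθ hh.1
    (L := fun x => jΛ Gr V e u φ n (t, x)) (fun i => by
      filter_upwards [key, h1 (e i) (c.hE.stat.testI i) t ht] with x a1 a2
      rw [← a2]; exact a1.1 i)
  filter_upwards [h3, h1 h hh t ht] with x a1 a2
  rw [a2]; exact a1

/-- the integrated Hessian bound -/
theorem Ctx.hess_int {l : M →ₘ[m] ℝ} (hl : l ∈ (sob m).TestI) {s : ℝ} (hs : s ∈ Ioo (0 : ℝ) 1) :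
    ∃ C : ℝ, ∀ᶠ n in (U : Filter ℕ), ∃ ee : ℝ → ℝ, IntervalIntegrable ee volume s 1 ∧
      ∫ t in s..1, ee t ≤ C ∧ ∀ t ∈ Icc s 1,
        MemLp (rn u φ l n t * D (tn u φ l n t) ^ 2 : M →ₘ[m] ℝ) 1 m ∧
        I (rn u φ l n t * D (tn u φ l n t) ^ 2) ≤ ee t := by
  obtain ⟨C, hC⟩ := c.hB.b3 l hl s hs
  refine ⟨C, ?_⟩
  filter_upwards [c.hU hC, c.lf hl, c.hU (c.hB.mem l hl)] with n h1 h2 h3
  obtain ⟨ee, a1, a2, a3⟩ := h1
  refine ⟨ee, ?_, a2, fun t ht => ?_⟩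
  · refine ContinuousOn.intervalIntegrable ?_
    rw [uIcc_of_le hs.2.le]; exact a1
  · have ht0 : t ∈ Icc (0 : ℝ) 1 := ⟨hs.1.le.trans ht.1, ht.2⟩
    refine ⟨mem_mul_top (h2 t ht0).Fl (mem_sq (c.hE.hd.mem _ (h3 t ht0).2.1.1)), ?_⟩
    have nn : ∀ f : M →ₘ[m] ℝ, 0 ≤ I (rn u φ l n t * f ^ 2) := fun f => by
      refine I_nonneg ?_
      rw [nonneg_iff_ae]
      filter_upwards [mul_ae (rn u φ l n t) (f ^ 2), sq_ae f,
        nonneg_iff_ae.1 (h2 t ht0).Fl0] with x b1 b2 b3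
      rw [b1, b2]; exact mul_nonneg b3 (sq_nonneg _)
    have b4 := a3 t ht
    have b5 := mul_nonneg (sq_nonneg (en n)) (nn (D (LL (en n) (φ l n) (u n) t)))
    have b6 := mul_nonneg (sq_nonneg (en n)) (nn ((sob m).lap (LL (en n) (φ l n) (u n) t)))
    linarith

/-- energy bound for fields that are dominated by the Hessian bound -/
theorem Ctx.ebd_of [SigmaFinite m] {l : M →ₘ[m] ℝ} (hl : l ∈ (sob m).TestI) {s : ℝ}
    (hs : s ∈ Ioo (0 : ℝ) 1) {F' : Type*} [NormedAddCommGroup F'] {G : ℕ → ℝ × M → F'}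
    (hG : ∀ n, StronglyMeasurable (G n)) {L : ℝ} (hL : 0 ≤ L)
    (h : ∀ᶠ n in (U : Filter ℕ), ∀ t ∈ Icc (0 : ℝ) 1,
      ∀ᵐ x ∂m, ‖G n (t, x)‖ ≤ L * D (tn u φ l n t) x) :
    ∃ C : ℝ, ∀ᶠ n in (U : Filter ℕ),
      Integrable (fun z => jρ u φ l n z * ‖G n z‖ ^ 2) (ms m s) ∧
        ∫ z, jρ u φ l n z * ‖G n z‖ ^ 2 ∂(ms m s) ≤ C := by
  obtain ⟨C, hC⟩ := c.hess_int hl hs
  refine ⟨L ^ 2 * C, ?_⟩
  filter_upwards [hC, c.hU (jρ_spec c.hC c.hB hl), h, c.lf hl] with n h1 h2 h3 h4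
  obtain ⟨ee, a1, a2, a3⟩ := h1
  have hm : Measurable fun z => jρ u φ l n z * ‖G n z‖ ^ 2 :=
    (jr_meas _).measurable.mul ((hG n).norm.measurable.pow_const 2)
  have key := int_ms_le (m := m) (s := s) hm hs.2.le (e := fun t => L ^ 2 * ee t)
    (a1.const_mul _) (fun t ht => by
      have ht0 : t ∈ Icc (0 : ℝ) 1 := ⟨hs.1.le.trans ht.1.le, ht.2⟩
      filter_upwards [h2 t ht0, nonneg_iff_ae.1 (h4 t ht0).Fl0] with x b1 b2
      rw [b1]; positivity) (fun t ht => by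
      have ht0 : t ∈ Icc (0 : ℝ) 1 := ⟨hs.1.le.trans ht.1.le, ht.2⟩
      have ht1 : t ∈ Icc s 1 := ⟨ht.1.le, ht.2⟩
      obtain ⟨c1, c2⟩ := a3 t ht1
      have e1 : ∀ᵐ x ∂m, 0 ≤ jρ u φ l n (t, x) * ‖G n (t, x)‖ ^ 2 ∧
          jρ u φ l n (t, x) * ‖G n (t, x)‖ ^ 2
          ≤ L ^ 2 * (rn u φ l n t * D (tn u φ l n t) ^ 2 : M →ₘ[m] ℝ) x := by
        filter_upwards [h2 t ht0, nonneg_iff_ae.1 (h4 t ht0).Fl0, h3 t ht0,
          mul_ae (rn u φ l n t) (D (tn u φ l n t) ^ 2), sq_ae (D (tn u φ l n t))]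
          with x b1 b2 b3 b4 b5
        rw [b4, b5, b1]
        refine ⟨by positivity, ?_⟩
        have b6 := pow_le_pow_left₀ (norm_nonneg _) b3 2
        calc rn u φ l n t x * ‖G n (t, x)‖ ^ 2
            ≤ rn u φ l n t x * (L * D (tn u φ l n t) x) ^ 2 := mul_le_mul_of_nonneg_left b6 b2
          _ = _ := by ring
      have i1 : Integrable (fun x => L ^ 2 * (rn u φ l n t * D (tn u φ l n t) ^ 2 : M →ₘ[m] ℝ) x) m :=
        (int_of_mem c1).const_mul _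
      have i2 : Integrable (fun x => jρ u φ l n (t, x) * ‖G n (t, x)‖ ^ 2) m := by
        refine i1.mono' ?_ ?_
        · exact (hm.comp measurable_prodMk_left).aestronglyMeasurable
        · filter_upwards [e1] with x hx
          rw [Real.norm_of_nonneg hx.1]; exact hx.2
      refine ⟨i2, ?_⟩
      calc ∫ x, jρ u φ l n (t, x) * ‖G n (t, x)‖ ^ 2 ∂m
          ≤ ∫ x, L ^ 2 * (rn u φ l n t * D (tn u φ l n t) ^ 2 : M →ₘ[m] ℝ) x ∂m :=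
            integral_mono_ae i2 i1 (e1.mono fun x hx => hx.2)
        _ = L ^ 2 * I (rn u φ l n t * D (tn u φ l n t) ^ 2) := integral_const_mul _ _
        _ ≤ _ := mul_le_mul_of_nonneg_left c2 (sq_nonneg L))
  refine ⟨key.1, key.2.trans ?_⟩
  rw [intervalIntegral.integral_const_mul]
  exact mul_le_mul_of_nonneg_left a2 (sq_nonneg L)

theorem Ctx.ebdV [SigmaFinite m] {l h : M →ₘ[m] ℝ} (hl : l ∈ (sob m).TestI)
    (hh : h ∈ (sob m).TestI) {s : ℝ} (hs : s ∈ Ioo (0 : ℝ) 1) :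
    ∃ C : ℝ, ∀ᶠ n in (U : Filter ℕ), EBd (ms m s) C (jρ u φ l n) (jV V u φ l h n) := by
  obtain ⟨L, hL0, hL⟩ := c.gr_bd hh
  obtain ⟨C, hC⟩ := c.ebd_of hl hs (G := fun n => jV V u φ l h n) (fun n => jr_meas _) hL0 (by
    filter_upwards [c.jV_all hl, c.hU (c.hB.mem l hl)] with n h1 h2 t ht
    filter_upwards [h1 h hh t ht, c.hE.hd.norm _ (h2 t ht).2.1.1 h hh.1, hL,
      nonneg_iff_ae.1 (c.hE.hd.nonneg _ (h2 t ht).2.1.1)] with x a1 a2 a3 a4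
    rw [a1]
    calc ‖V (tn u φ l n t) h x‖ ≤ D (tn u φ l n t) x * ‖Gr h x‖ := a2
      _ ≤ D (tn u φ l n t) x * L := mul_le_mul_of_nonneg_left a3 a4
      _ = _ := mul_comm _ _)
  exact ⟨C, hC.mono fun n hn => ⟨(jr_meas _).aestronglyMeasurable, hn.1, hn.2⟩⟩

theorem Ctx.ebdΛ [SigmaFinite m] {s : ℝ} (hs : s ∈ Ioo (0 : ℝ) 1) :
    ∃ C : ℝ, ∀ᶠ n in (U : Filter ℕ), EBd (ms m s) C (jρ u φ 0 n) (jΛ Gr V e u φ n) := by
  obtain ⟨C, hC⟩ := c.ebd_of c.zero hs (G := fun n => jΛ Gr V e u φ n)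
    (fun n => (c.jΛ_meas n).stronglyMeasurable) zero_le_one (by
    filter_upwards [c.jΛ_spec] with n h1 t ht
    filter_upwards [(h1 t ht).1] with x a1
    rw [Real.norm_of_nonneg (jΛ_nonneg _ _), one_mul]
    exact a1)
  exact ⟨C, hC.mono fun n hn => ⟨(c.jΛ_meas n).aestronglyMeasurable, hn.1, hn.2⟩⟩

/-- **the limit tensor on `(s,1] × M`** -/
theorem Ctx.exists_H [SigmaFinite m] {ρ0 : ℝ × M → ℝ} (hρ : Rho m u φ U ρ ρ0) {s : ℝ}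
    (hs : s ∈ Ioo (0 : ℝ) 1) : ∃ H Λ, HDat m Gr V e u φ U ρ0 s H Λ := by
  obtain ⟨k, hk0, hst⟩ := hρ.star s hs
  obtain ⟨C, hC⟩ := c.ebdΛ hs
  choose! L hL0 hL using fun (h : M →ₘ[m] ℝ) (hh : h ∈ (sob m).TestI) => c.gr_bd hh
  obtain ⟨-, H, Λ, h1, h2, h3, h4, h5, h6⟩ := exists_tensor (U := U) (ν := ms m s) (C := C) hk0 hst
    (J := {h : M →ₘ[m] ℝ // h ∈ (sob m).TestI}) (X := fun h z => Gr h.1 z.2)
    (L := fun h => L h.1)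
    (fun h => asm_snd (c.gradI h.2).aestronglyMeasurable) (fun h => ms_snd (hL h.1 h.2))
    (A := fun n h => jV V u φ 0 h.1 n) (fun n h => (jr_meas _).aestronglyMeasurable)
    (Λ := fun n => jΛ Gr V e u φ n) hC (Eventually.of_forall fun n =>
      Eventually.of_forall fun z => jΛ_nonneg _ _) (fun h => by
      filter_upwards [c.jΛ_spec] with n hn
      refine ae_ms (measurableSet_le (jr_meas _).norm.measurable ((c.jΛ_meas n).mul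
        ((c.gradI h.2).norm.measurable.comp measurable_snd))) fun t ht => ?_
      have ht0 : t ∈ Icc (0 : ℝ) 1 := ⟨hs.1.le.trans ht.1.le, ht.2⟩
      exact (hn t ht0).2 h.1 h.2)
  classical
  refine ⟨fun h => if hh : h ∈ (sob m).TestI then H ⟨h, hh⟩ else 0, Λ, ?_, h1, h3, ?_⟩
  · intro h hh
    rw [dif_pos hh]
    exact h4 ⟨h, hh⟩
  · intro h hh
    rw [dif_pos hh]
    filter_upwards [h5 ⟨h, hh⟩] with z hz _ using hz

end metric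

end Vale.Agent.P233.H994
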