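import Vale.Agent.P233.H994.Weights

/-!
P233, block C6b (helper994): strong convergence of the weights `ρ^l/ρ^0` in space-time.
-/

set_option linter.all false

open MeasureTheory Filter Topology Set
open scoped ENNReal NNReal InnerProductSpace

universe u

namespace Vale.Agent.P233.H994

open Vale.Agent.P233.PA (en OutA)
open Vale.Agent.P233.PC

/-- the density in space-time -/
structure Rho {M : Type u} [MetricSpace M] [MeasurableSpace M] (m : Measure M)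
    (u : ℕ → ℝ → M →ₘ[m] ℝ) (φ : (M →ₘ[m] ℝ) → ℕ → ℝ → M →ₘ[m] ℝ) (U : Ultrafilter ℕ)
    (ρ : ℝ → M →ₘ[m] ℝ) (ρ0 : ℝ × M → ℝ) : Prop where
  meas : StronglyMeasurable ρ0
  nonneg : ∀ z, 0 ≤ ρ0 z
  slice : ∀ᵐ t ∂((volume : Measure ℝ).restrict (Ioc 0 1)), ∀ᵐ x ∂m, ρ0 (t, x) = ρ t x
  star : ∀ s ∈ Ioo (0 : ℝ) 1, ∃ k : ℝ, 0 ≤ k ∧ WStar U (ms m s) k (fun n => jρ u φ 0 n) ρ0

/-- the quotient of the densities -/
noncomputable def jw {M : Type u} [MeasurableSpace M] {m : Measure M}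
    (u : ℕ → ℝ → M →ₘ[m] ℝ) (φ : (M →ₘ[m] ℝ) → ℕ → ℝ → M →ₘ[m] ℝ)
    (l : M →ₘ[m] ℝ) (n : ℕ) (z : ℝ × M) : ℝ := jρ u φ l n z / jρ u φ 0 n z

theorem jw_meas {M : Type u} [MeasurableSpace M] {m : Measure M}
    {u : ℕ → ℝ → M →ₘ[m] ℝ} {φ : (M →ₘ[m] ℝ) → ℕ → ℝ → M →ₘ[m] ℝ}
    (l : M →ₘ[m] ℝ) (n : ℕ) : StronglyMeasurable (jw u φ l n) :=
  ((jr_meas _).measurable.div (jr_meas _).measurable).stronglyMeasurable

/-- the limit of the quotients -/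
structure WDat {M : Type u} [MetricSpace M] [MeasurableSpace M] (m : Measure M)
    (u : ℕ → ℝ → M →ₘ[m] ℝ) (φ : (M →ₘ[m] ℝ) → ℕ → ℝ → M →ₘ[m] ℝ) (U : Ultrafilter ℕ)
    (Y : ℝ → M → M) (l : M →ₘ[m] ℝ) (Kb : ℝ) (w0 : ℝ × M → ℝ) : Prop where
  meas : StronglyMeasurable w0
  bd : ∀ s ∈ Ioo (0 : ℝ) 1, ∀ᵐ z ∂(ms m s), |w0 z| ≤ Kb
  bdn : ∀ s ∈ Ioo (0 : ℝ) 1, ∀ᶠ n in (U : Filter ℕ), ∀ᵐ z ∂(ms m s), |jw u φ l n z| ≤ Kb
  flow : ∀ s ∈ Ioo (0 : ℝ) 1, ∀ᵐ z ∂(ms m s), w0 (psi Y z) = Real.exp (l z.2)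
  strong : ∀ s ∈ Ioo (0 : ℝ) 1, ∀ g : ℝ × M → ℝ, Integrable g (ms m s) →
    Tendsto (fun n => ∫ z, g z * (jρ u φ 0 n z * (jw u φ l n z - w0 z) ^ 2) ∂(ms m s)) U (𝓝 0)

section metric

variable {M : Type u} [MetricSpace M] [CompleteSpace M] [SecondCountableTopology M]
  [MeasurableSpace M] [BorelSpace M] {m : Measure M} {K N κ : ℝ}
  {P : ℝ → (M →ₘ[m] ℝ) → (M →ₘ[m] ℝ)} {p : M} {s₀ C₀ : ℝ}
variable {E : Type} [NormedAddCommGroup E] [InnerProductSpace ℝ E] [CompleteSpace E]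
variable {Gr : (M →ₘ[m] ℝ) → M → E} {V : (M →ₘ[m] ℝ) → (M →ₘ[m] ℝ) → M → E}
  {D : (M →ₘ[m] ℝ) → (M →ₘ[m] ℝ)} {HO : (M →ₘ[m] ℝ) → M → E →L[ℝ] E} {e : ℕ → M →ₘ[m] ℝ}
variable {u : ℕ → ℝ → M →ₘ[m] ℝ} {φ : (M →ₘ[m] ℝ) → ℕ → ℝ → M →ₘ[m] ℝ} {U : Ultrafilter ℕ}
variable {ψ ρ : ℝ → M →ₘ[m] ℝ} {R : ℝ → ℝ → (M →ₘ[m] ℝ) → (M →ₘ[m] ℝ)} {Y : ℝ → M → M}

variable (c : Ctx m K N κ P p s₀ C₀ Gr V D HO e u φ U ψ ρ R Y)

include c

theorem Ctx.w_up {l : M →ₘ[m] ℝ} (hl : l ∈ (sob m).TestI) : ∀ᶠ n in (U : Filter ℕ),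
    ∀ t ∈ Icc (0 : ℝ) 1, I (rn u φ 0 n t * (wn φ l n t - 1) ^ 2) ≤ I ((ex l - 1) ^ 2) := by
  filter_upwards [c.lf hl, c.hU (c.hB.b8 l hl)] with n hn h2 t ht
  have h2 := h2.2 t ht
  have h3 : 0 ≤ en n * ∫ s in t..1, I (rn u φ 0 n s *
      (sob m).Γ (wn φ l n s - 1) (wn φ l n s - 1)) := by
    refine mul_nonneg (en_pos n).le (intervalIntegral.integral_nonneg ht.2 fun s hs => ?_)
    have hs' : s ∈ Icc (0 : ℝ) 1 := ⟨ht.1.trans hs.1, hs.2⟩
    refine I_nonneg ?_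
    have h4 : 0 ≤ (sob m).Γ (wn φ l n s - 1) (wn φ l n s - 1) := c.hC.nonneg _ (hn s hs').wA.1
    have h5 : 0 ≤ rn u φ 0 n s := ex_nonneg _
    rw [nonneg_iff_ae] at h4 h5 ⊢
    filter_upwards [h4, h5, mul_ae (rn u φ 0 n s)
      ((sob m).Γ (wn φ l n s - 1) (wn φ l n s - 1))] with x a1 a2 a3
    rw [a3]; exact mul_nonneg a2 a1
  linarith

theorem Ctx.wn_bd {l : M →ₘ[m] ℝ} (hl : l ∈ (sob m).TestI) : ∃ b : ℝ, 1 ≤ b ∧
    (∀ᵐ x ∂m, |(ex l - 1 : M →ₘ[m] ℝ) x| ≤ b) ∧ ∀ᶠ n in (U : Filter ℕ),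
    ∀ t ∈ Icc (0 : ℝ) 1, ∀ᵐ x ∂m, 0 ≤ wn φ l n t x ∧ wn φ l n t x ≤ b := by
  obtain ⟨a, ha⟩ := mem_top_iff.1 (c.top hl)
  have ha' : ∀ᵐ x ∂m, |l x| ≤ max a 0 := by
    filter_upwards [ha] with x hx using hx.trans (le_max_left _ _)
  refine ⟨Real.exp (max a 0), Real.one_le_exp (le_max_right _ _), ?_, ?_⟩
  · filter_upwards [ha', ex_ae l, sub_ae (ex l) 1, one_ae (M := M) (m := m)] with x h1 h2 h3 h4
    rw [h3, h2, h4]
    have h5 := abs_le.1 h1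
    have h6 : Real.exp (l x) ≤ Real.exp (max a 0) := Real.exp_le_exp.2 h5.2
    have h7 := Real.exp_pos (l x)
    have h8 := Real.one_le_exp (le_max_right a (0 : ℝ))
    rw [abs_le]
    constructor <;> linarith
  · filter_upwards [c.hU (c.hA.same l hl _ (le_max_right _ _) ha')] with n hn t ht
    filter_upwards [hn t ht, ex_ae ((en n)⁻¹ • (φ l n t - φ 0 n t)),
      smul_ae (φ l n t - φ 0 n t) (en n)⁻¹, sub_ae (φ l n t) (φ 0 n t)] with x h1 h2 h3 h4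
    have h5 : wn φ l n t x = Real.exp ((en n)⁻¹ * (φ l n t x - φ 0 n t x)) := by
      unfold wn rh
      rw [h2, h3, h4]
    rw [h5]
    refine ⟨(Real.exp_pos _).le, Real.exp_le_exp.2 ?_⟩
    have h6 := (abs_le.1 h1).2
    have h7 := en_pos n
    rw [inv_mul_le_iff₀ h7]
    linarith [mul_comm (en n) (max a 0)]

/-- slices of the quotient -/
theorem Ctx.jw_spec {l : M →ₘ[m] ℝ} (hl : l ∈ (sob m).TestI) : ∀ᶠ n in (U : Filter ℕ),
    ∀ t ∈ Icc (0 : ℝ) 1, ∀ᵐ x ∂m, jρ u φ l n (t, x) = rn u φ l n t x ∧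
      jρ u φ 0 n (t, x) = rn u φ 0 n t x ∧ 0 < rn u φ 0 n t x ∧ jw u φ l n (t, x) = wn φ l n t x ∧
      rn u φ l n t x = rn u φ 0 n t x * wn φ l n t x := by
  filter_upwards [c.hU (jρ_spec c.hC c.hB hl), c.hU (jρ_spec c.hC c.hB c.zero), c.lf hl]
    with n h1 h2 h3 t ht
  filter_upwards [h1 t ht, h2 t ht, rn_pos (u := u) (φ := φ) 0 n t,
    mul_ae (rn u φ 0 n t) (wn φ l n t)] with x a1 a2 a3 a4
  have a5 : rn u φ l n t x = rn u φ 0 n t x * wn φ l n t x := by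
    rw [(h3 t ht).mul, a4]
  refine ⟨a1, a2, a3, ?_, a5⟩
  unfold jw
  rw [a1, a2, a5, mul_div_cancel_left₀ _ a3.ne']

theorem Ctx.exists_w [SFinite m] {ρ0 : ℝ × M → ℝ} (hρ : Rho m u φ U ρ ρ0) {l : M →ₘ[m] ℝ}
    (hl : l ∈ (sob m).TestI) : ∃ Kb w0, WDat m u φ U Y l Kb w0 := by
  have h1 : (1 : ℝ) ∈ Ioc (0 : ℝ) 1 := ⟨one_pos, le_rfl⟩
  have hk := c.L2i hl
  obtain ⟨b, hb1, hbk, hbn⟩ := c.wn_bd hl
  -- the weak limit of `ρ^l - ρ^0`
  obtain ⟨r0, m1, m2, m3⟩ := exists_glued (U := U) (m := m) c.e2 c.sep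
    (f := fun n z => jρ u φ l n z - jρ u φ 0 n z)
    (fun n => (jρ_meas l n).sub (jρ_meas 0 n)) (F := fun n t => rn u φ l n t - rn u φ 0 n t)
    (F0 := fun t => R t 1 (ex l - 1)) (fun s hs => by
      obtain ⟨B, hB⟩ := rn_sq c.hA hl (c.top hl) hs
      obtain ⟨B', hB'⟩ := rn_sq c.hA c.zero (c.top c.zero) hs
      refine ⟨2 * B + 2 * B', ?_⟩
      filter_upwards [c.hU hB, c.hU hB', c.jw_spec hl, c.lf hl, c.hU (c.hB.mem l hl)]
        with n a1 a1' a2 a3 a4 t ht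
      have ht' : t ∈ Icc s 1 := ⟨ht.1.le, ht.2⟩
      have ht0 : t ∈ Icc (0 : ℝ) 1 := ⟨hs.1.le.trans ht.1.le, ht.2⟩
      have q1 : MemLp (rn u φ l n t - 1 : M →ₘ[m] ℝ) 2 m :=
        c.hC.memLp _ (c.hC.test_A ((a4 t ht0).2.2.1).1).1
      have q2 : MemLp (rn u φ 0 n t - 1 : M →ₘ[m] ℝ) 2 m := c.hC.memLp _ (a3 t ht0).F1.1
      have q3 : rn u φ l n t - rn u φ 0 n t = (rn u φ l n t - 1) - (rn u φ 0 n t - 1) := by abel
      refine ⟨?_, ?_, ?_⟩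
      · filter_upwards [a2 t ht0, sub_ae (rn u φ l n t) (rn u φ 0 n t)] with x b1 b2
        rw [b1.1, b1.2.1, b2]
      · rw [q3]; exact mem_sub q1 q2
      · rw [q3]
        have i1 : MemLp ((rn u φ l n t - 1) - (rn u φ 0 n t - 1) : M →ₘ[m] ℝ) 2 m := mem_sub q1 q2
        have h4 : I (((rn u φ l n t - 1) - (rn u φ 0 n t - 1)) ^ 2)
            ≤ I ((2 : ℝ) • (rn u φ l n t - 1) ^ 2 + (2 : ℝ) • (rn u φ 0 n t - 1) ^ 2) := by
          refine I_mono (mem_sq i1) (mem_add (mem_smul _ (mem_sq q1)) (mem_smul _ (mem_sq q2))) ?_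
          rw [le_iff_ae]
          filter_upwards [sq_ae ((rn u φ l n t - 1) - (rn u φ 0 n t - 1)),
            sq_ae (rn u φ l n t - 1), sq_ae (rn u φ 0 n t - 1),
            sub_ae (rn u φ l n t - 1) (rn u φ 0 n t - 1),
            add_ae ((2 : ℝ) • (rn u φ l n t - 1) ^ 2) ((2 : ℝ) • (rn u φ 0 n t - 1) ^ 2),
            smul_ae ((rn u φ l n t - 1) ^ 2) (2 : ℝ), smul_ae ((rn u φ 0 n t - 1) ^ 2) (2 : ℝ)]
            with x b1 b2 b3 b4 b5 b6 b7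
          rw [b1, b5, b6, b7, b2, b3, b4]
          nlinarith [sq_nonneg ((rn u φ l n t - 1 : M →ₘ[m] ℝ) x
            + (rn u φ 0 n t - 1 : M →ₘ[m] ℝ) x)]
        rw [I_add (mem_smul _ (mem_sq q1)) (mem_smul _ (mem_sq q2)), I_smul, I_smul] at h4
        linarith [a1 t ht', a1' t ht'])
    (fun t ht => (c.hLim.R_mem t ht 1 h1 _ hk).1)
    (fun i t ht => by
      have h3 := c.hO.R_lim t ht 1 h1 (ex l - 1) hk (e i) (c.e2 i)
      refine h3.congr' ?_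
      filter_upwards [c.lf hl] with n hn
      have hn := hn t ⟨ht.1.le, ht.2⟩
      rw [← hn.RE, hn.mul]
      congr 2
      ring)
    (fun i s hs δ hδ => by
      obtain ⟨η, hη, h⟩ := H719.rn_equi c.hyp c.hA hl hs.1 hs.2.le (c.e2 i) (half_pos hδ)
      obtain ⟨η', hη', h'⟩ := H719.rn_equi c.hyp c.hA c.zero hs.1 hs.2.le (c.e2 i) (half_pos hδ)
      refine ⟨min η η', lt_min hη hη', ?_⟩
      filter_upwards [c.hU h, c.hU h', c.lf hl, c.hU (c.hB.mem l hl)] with n a1 a2 a3 a4 x hx y hy hxy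
      have hx0 : x ∈ Icc (0 : ℝ) 1 := ⟨hs.1.le.trans hx.1, hx.2⟩
      have hy0 : y ∈ Icc (0 : ℝ) 1 := ⟨hs.1.le.trans hy.1, hy.2⟩
      have sp : ∀ t ∈ Icc (0 : ℝ) 1, I (e i * (rn u φ l n t - rn u φ 0 n t))
          = I (e i * (rn u φ l n t - 1)) - I (e i * (rn u φ 0 n t - 1)) := by
        intro t ht
        have q1 : MemLp (rn u φ l n t - 1 : M →ₘ[m] ℝ) 2 m :=
          c.hC.memLp _ (c.hC.test_A ((a4 t ht).2.2.1).1).1
        have q2 : MemLp (rn u φ 0 n t - 1 : M →ₘ[m] ℝ) 2 m := c.hC.memLp _ (a3 t ht).F1.1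
        rw [← I_sub (mem_mul_22 (c.e2 i) q1) (mem_mul_22 (c.e2 i) q2)]
        congr 1; ring
      rw [sp x hx0, sp y hy0]
      have b1 := abs_le.1 (a1 x hx y hy (hxy.trans_le (min_le_left _ _)))
      have b2 := abs_le.1 (a2 x hx y hy (hxy.trans_le (min_le_right _ _)))
      rw [abs_le]
      constructor <;> linarith [b1.1, b1.2, b2.1, b2.2])
  -- bound of the limit
  have hR : ∀ᵐ t ∂((volume : Measure ℝ).restrict (Ioc 0 1)), ∀ᵐ x ∂m,
      |r0 (t, x)| ≤ b * ρ0 (t, x) := by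
    filter_upwards [m2, hρ.slice, ae_restrict_mem measurableSet_Ioc] with t a1 a2 ht
    filter_upwards [a1, a2, c.hLim.R_le t ht 1 h1 _ hk b hbk] with x b1 b2 b3
    rw [b1, b2]; exact b3
  set w0 : ℝ × M → ℝ := fun z => 1 + r0 z / ρ0 z with hw0
  have hwm : StronglyMeasurable w0 :=
    ((m1.measurable.div hρ.meas.measurable).const_add 1).stronglyMeasurable
  have hw1 : ∀ s ∈ Ioo (0 : ℝ) 1, ∀ᵐ z ∂(ms m s), |w0 z - 1| ≤ b ∧ ρ0 z * (w0 z - 1) = r0 z := by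
    intro s hs
    have h5 : ∀ᵐ z ∂(ms m s), |r0 z| ≤ b * ρ0 z :=
      ae_ms' (measurableSet_le m1.norm.measurable (hρ.meas.measurable.const_mul b))
        (ae_Ioc_mono hs.1.le hR)
    filter_upwards [h5] with z hz
    simp only [hw0, add_sub_cancel_left]
    rcases eq_or_lt_of_le (hρ.nonneg z) with h0 | h0
    · rw [← h0] at hz ⊢
      rw [mul_zero] at hz
      have : r0 z = 0 := abs_eq_zero.1 (le_antisymm hz (abs_nonneg _))
      rw [this]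
      simp only [zero_div, abs_zero, mul_zero, and_true]
      linarith
    · refine ⟨?_, mul_div_cancel₀ _ h0.ne'⟩
      rw [abs_div, abs_of_pos h0, div_le_iff₀ h0]
      exact hz
  have hflow : ∀ s ∈ Ioo (0 : ℝ) 1, ∀ᵐ z ∂(ms m s), w0 (psi Y z) = Real.exp (l z.2) := by
    intro s hs
    refine ae_ms' (measurableSet_eq_fun (hwm.measurable.comp (psi_meas c.hF.meas))
      (Real.measurable_exp.comp (l.measurable.comp measurable_snd))) ?_
    filter_upwards [ae_Ioc_mono hs.1.le m2, ae_Ioc_mono hs.1.le hρ.slice,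
      ae_restrict_mem measurableSet_Ioc] with t a1 a2 ht
    have ht' : t ∈ Ioc (0 : ℝ) 1 := ⟨hs.1.trans ht.1, ht.2⟩
    filter_upwards [H183.map_ae c.hM ht' a1, H183.map_ae c.hM ht' a2, H183.map_pos c.hM ht',
      c.hM.comp t ht' 1 h1 _ hk, sub_ae (ex l) 1, one_ae (M := M) (m := m), ex_ae l]
      with x b1 b2 b3 b4 b5 b6 b7
    simp only [psi, hw0]
    rw [b1, b2, b4, c.hM.one, b5, b6, b7, mul_div_cancel_left₀ _ b3.ne']
    ring
  -- bounds of the quotients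
  have hbn' : ∀ s ∈ Ioo (0 : ℝ) 1, ∀ᶠ n in (U : Filter ℕ), ∀ᵐ z ∂(ms m s),
      0 ≤ jw u φ l n z ∧ jw u φ l n z ≤ b := by
    intro s hs
    filter_upwards [hbn, c.jw_spec hl] with n a1 a2
    refine ae_ms ((measurableSet_le measurable_const (jw_meas l n).measurable).inter
      (measurableSet_le (jw_meas l n).measurable measurable_const)) fun t ht => ?_
    have ht0 : t ∈ Icc (0 : ℝ) 1 := ⟨hs.1.le.trans ht.1.le, ht.2⟩
    filter_upwards [a1 t ht0, a2 t ht0] with x b1 b2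
    rw [b2.2.2.2.1]; exact b1
  refine ⟨b + 1, w0, hwm, fun s hs => ?_, fun s hs => ?_, hflow, fun s hs g hg => ?_⟩
  · filter_upwards [hw1 s hs] with z hz
    have := abs_le.1 hz.1
    rw [abs_le]; constructor <;> linarith [this.1, this.2]
  · filter_upwards [hbn' s hs] with n hn
    filter_upwards [hn] with z hz
    rw [abs_of_nonneg hz.1]; linarith [hz.2]
  -- strong convergence
  obtain ⟨k, hk0, hst⟩ := hρ.star s hs
  have hprod : ∀ᶠ n in (U : Filter ℕ), ∀ᵐ z ∂(ms m s),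
      jρ u φ 0 n z * (jw u φ l n z - 1) = jρ u φ l n z - jρ u φ 0 n z ∧ 0 ≤ jρ u φ 0 n z := by
    filter_upwards [c.jw_spec hl] with n a2
    refine ae_ms ?_ fun t ht => ?_
    · refine (measurableSet_eq_fun ((jρ_meas 0 n).measurable.mul
        ((jw_meas l n).measurable.sub_const 1)) ((jρ_meas l n).measurable.sub
        (jρ_meas 0 n).measurable)).inter (measurableSet_le measurable_const (jρ_meas 0 n).measurable)
    · have ht0 : t ∈ Icc (0 : ℝ) 1 := ⟨hs.1.le.trans ht.1.le, ht.2⟩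
      filter_upwards [a2 t ht0] with x b2
      obtain ⟨b1, b2, b3, b4, b5⟩ := b2
      rw [b1, b2, b4, b5]
      exact ⟨by ring, b3.le⟩
  have hmem0 : MemLp (fun z => ρ0 z • (w0 z - 1)) 2 (ms m s) := by
    refine (m3 s hs).1.ae_eq ?_
    filter_upwards [hw1 s hs] with z hz
    rw [smul_eq_mul, hz.2]
  have hW : WLim U (ms m s) (fun n => jρ u φ 0 n) ρ0 (fun n z => jw u φ l n z - 1)
      (fun z => w0 z - 1) := by
    refine ⟨(hwm.sub stronglyMeasurable_const).aestronglyMeasurable, hmem0, fun Φ hΦ => ?_⟩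
    have h5 := (m3 s hs).2.2 Φ hΦ
    have h6 : ∫ z, ⟪ρ0 z • (w0 z - 1), Φ z⟫_ℝ ∂(ms m s) = ∫ z, Φ z * r0 z ∂(ms m s) := by
      refine integral_congr_ae ?_
      filter_upwards [hw1 s hs] with z hz
      rw [smul_eq_mul, hz.2, inner_re, mul_comm]
    rw [h6]
    refine h5.congr' ?_
    filter_upwards [hprod] with n hn
    refine integral_congr_ae ?_
    filter_upwards [hn] with z hz
    rw [smul_eq_mul, hz.1, inner_re, mul_comm]
  -- the energies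
  have hEn : ∀ᶠ n in (U : Filter ℕ),
      EBd (ms m s) ((1 - s) * I ((ex l - 1) ^ 2)) (jρ u φ 0 n) (fun z => jw u φ l n z - 1) := by
    filter_upwards [c.w_up hl, c.jw_spec hl, c.lf hl] with n a1 a2 a3
    have hmeas : Measurable fun z => jρ u φ 0 n z * ‖jw u φ l n z - 1‖ ^ 2 :=
      (jρ_meas 0 n).measurable.mul (((jw_meas l n).measurable.sub_const 1).norm.pow_const 2)
    have key := int_ms_le (m := m) (s := s) hmeas hs.2.le
      (e := fun _ => I ((ex l - 1) ^ 2)) intervalIntegrable_const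
      (fun t ht => by
        have ht0 : t ∈ Icc (0 : ℝ) 1 := ⟨hs.1.le.trans ht.1.le, ht.2⟩
        filter_upwards [a2 t ht0] with x b2
        obtain ⟨b1, b2, b3, b4, b5⟩ := b2
        rw [b2]
        positivity) (fun t ht => by
        have ht0 : t ∈ Icc (0 : ℝ) 1 := ⟨hs.1.le.trans ht.1.le, ht.2⟩
        have e1 : (fun x => jρ u φ 0 n (t, x) * ‖jw u φ l n (t, x) - 1‖ ^ 2)
            =ᵐ[m] fun x => (rn u φ 0 n t * (wn φ l n t - 1) ^ 2 : M →ₘ[m] ℝ) x := by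
          filter_upwards [a2 t ht0, mul_ae (rn u φ 0 n t) ((wn φ l n t - 1) ^ 2),
            sq_ae (wn φ l n t - 1), sub_ae (wn φ l n t) 1, one_ae (M := M) (m := m)]
            with x b2 c1 c2 c3 c4
          obtain ⟨b1, b2, b3, b4, b5⟩ := b2
          rw [c1, c2, c3, c4, b2, b4, Real.norm_eq_abs, sq_abs]
        have e2 : MemLp (rn u φ 0 n t * (wn φ l n t - 1) ^ 2 : M →ₘ[m] ℝ) 1 m :=
          mem_mul_top (a3 t ht0).F (mem_sq (a3 t ht0).w.1)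
        exact ⟨(int_of_mem e2).congr e1.symm, (integral_congr_ae e1).trans_le (a1 t ht0)⟩)
    refine ⟨((jw_meas l n).sub stronglyMeasurable_const).aestronglyMeasurable, key.1,
      key.2.trans (le_of_eq ?_)⟩
    rw [intervalIntegral.integral_const, smul_eq_mul]
  have hlimE : ∫ z, ρ0 z * ‖w0 z - 1‖ ^ 2 ∂(ms m s) = (1 - s) * I ((ex l - 1) ^ 2) := by
    have h7 := psi_int c.hM c.hF.meas hs.1.le hρ.meas.measurable hρ.slice
      (F := fun z => ‖w0 z - 1‖ ^ 2)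
      ((hwm.sub stronglyMeasurable_const).norm.measurable.pow_const 2).aestronglyMeasurable
      (Eventually.of_forall hρ.nonneg)
    simp only [smul_eq_mul] at h7
    rw [← h7]
    have h8 : ∀ᵐ z ∂(ms m s), ‖w0 (psi Y z) - 1‖ ^ 2 = ((ex l - 1) ^ 2 : M →ₘ[m] ℝ) z.2 := by
      have h9 : ∀ᵐ x ∂m, ((ex l - 1) ^ 2 : M →ₘ[m] ℝ) x = (Real.exp (l x) - 1) ^ 2 := by
        filter_upwards [sq_ae (ex l - 1), sub_ae (ex l) 1, ex_ae l, one_ae (M := M) (m := m)]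
          with x b1 b2 b3 b4
        rw [b1, b2, b3, b4]
      filter_upwards [hflow s hs, ms_snd h9] with z a1 a2
      rw [a1, a2, Real.norm_eq_abs, sq_abs]
    rw [integral_congr_ae h8]
    have h10 : Integrable (fun z : ℝ × M => ((ex l - 1) ^ 2 : M →ₘ[m] ℝ) z.2) (ms m s) :=
      memLp_one_iff_integrable.1 (memLp_snd (mem_sq hk.1))
    rw [int_ms h10 hs.2.le]
    simp only [intervalIntegral.integral_const, smul_eq_mul]
    rfl
  have hK1 : ∀ᶠ n in (U : Filter ℕ), ∀ᵐ z ∂(ms m s), |jw u φ l n z - 1| ≤ b + 1 := by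
    filter_upwards [hbn' s hs] with n hn
    filter_upwards [hn] with z hz
    rw [abs_le]; constructor <;> linarith [hz.1, hz.2]
  have hK2 : ∀ᵐ z ∂(ms m s), |w0 z - 1| ≤ b + 1 := by
    filter_upwards [hw1 s hs] with z hz using hz.1.trans (by linarith)
  have := hW.diff_tendsto hst hEn (fun δ hδ => by
    filter_upwards [hEn] with n hn
    rw [hlimE]
    linarith [hn.le]) (fun n => ((jw_meas l n).sub stronglyMeasurable_const).aestronglyMeasurable)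
    hK1 hK2 hg
  refine this.congr fun n => integral_congr_ae (ae_of_all _ fun z => ?_)
  simp only
  ring

end metric

end Vale.Agent.P233.H994
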