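import Vale.Agent.P233.H994.Slice
import Vale.Agent.P233.Gig.Defs

/-!
P233, block C6b (helper994): weak limits in space-time of curves of functions that converge
uniformly in time in the weak sense.
-/

set_option linter.all false

open MeasureTheory Filter Topology Set
open scoped ENNReal NNReal InnerProductSpace

universe u

namespace Vale.Agent.P233.H994

variable {M : Type u} [MeasurableSpace M] {m : Measure M} {s : ℝ}

/-- indicator of a time interval, times a function of `x` -/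
theorem memLp_tensor [SFinite m] {a b : ℝ} {k : M → ℝ} {p : ℝ≥0∞} (hk : MemLp k p m) :
    MemLp (fun z : ℝ × M => (Ioc a b).indicator (fun _ => (1 : ℝ)) z.1 * k z.2) p (ms m s) := by
  have h1 : MemLp (fun z : ℝ × M => k z.2) p (ms m s) := memLp_snd hk
  have h2 : AEStronglyMeasurable
      (fun z : ℝ × M => (Ioc a b).indicator (fun _ => (1 : ℝ)) z.1) (ms m s) :=
    ((measurable_const.indicator measurableSet_Ioc).comp measurable_fst).aestronglyMeasurable
  exact memLp_bdd_smul h1 h2 (c1 := 1) (ae_of_all _ fun z => by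
    by_cases hz : z.1 ∈ Ioc a b <;> simp [hz])

/-- integrals against a time indicator -/
theorem int_tensor [SFinite m] {f : ℝ × M → ℝ} {g : ℝ → ℝ} {a b : ℝ} (ha : s ≤ a) (hab : a ≤ b)
    (hb : b ≤ 1)
    (hi : Integrable (fun z : ℝ × M => (Ioc a b).indicator (fun _ => (1 : ℝ)) z.1 * f z) (ms m s))
    (h : ∀ t ∈ Ioc s 1, ∫ x, f (t, x) ∂m = g t) :
    ∫ z, (Ioc a b).indicator (fun _ => (1 : ℝ)) z.1 * f z ∂(ms m s) = ∫ t in a..b, g t := by
  rw [int_ms hi (ha.trans (hab.trans hb)), intervalIntegral.integral_of_le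
    (ha.trans (hab.trans hb)), intervalIntegral.integral_of_le hab]
  simp only [integral_const_mul]
  have h1 : ∀ t ∈ Ioc s 1, (Ioc a b).indicator (fun _ => (1 : ℝ)) t * ∫ x, f (t, x) ∂m
      = (Ioc a b).indicator g t := by
    intro t ht
    rw [h t ht]
    by_cases hz : t ∈ Ioc a b <;> simp [hz]
  rw [setIntegral_congr_fun measurableSet_Ioc h1, integral_indicator measurableSet_Ioc,
    Measure.restrict_restrict measurableSet_Ioc]
  congr 2
  exact inter_eq_left.2 fun t ht => ⟨ha.trans_lt ht.1, ht.2.trans hb⟩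

/-- uniform convergence gives convergence of the integrals -/
theorem tendsto_int_of_unif {ι : Type*} {U : Filter ι} {F : ι → ℝ → ℝ} {G : ℝ → ℝ} {a b : ℝ}
    (hab : a ≤ b) (hF : ∀ᶠ n in U, IntervalIntegrable (F n) volume a b)
    (hG : IntervalIntegrable G volume a b)
    (h : ∀ δ > 0, ∀ᶠ n in U, ∀ t ∈ Icc a b, |F n t - G t| ≤ δ) :
    Tendsto (fun n => ∫ t in a..b, F n t) U (𝓝 (∫ t in a..b, G t)) := by
  rw [Metric.tendsto_nhds]
  intro ε hε
  filter_upwards [hF, h (ε / (b - a + 1)) (div_pos hε (by linarith))] with n h1 h2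
  rw [Real.dist_eq, ← intervalIntegral.integral_sub h1 hG]
  have h3 := intervalIntegral.norm_integral_le_of_norm_le_const (a := a) (b := b)
    (f := fun t => F n t - G t) (C := ε / (b - a + 1)) fun t ht => by
      rw [uIoc_of_le hab] at ht
      exact h2 t ⟨ht.1.le, ht.2⟩
  rw [Real.norm_eq_abs, abs_of_nonneg (sub_nonneg.2 hab)] at h3
  refine h3.trans_lt ?_
  rw [div_mul_eq_mul_div, div_lt_iff₀ (by linarith)]
  nlinarith

/-- **Weak limits in space-time.** -/
theorem exists_ms_lim [SFinite m] {U : Ultrafilter ℕ} (hs : s ≤ 1) {e : ℕ → M →ₘ[m] ℝ}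
    (he : ∀ i, MemLp (e i) 2 m) {f : ℕ → ℝ × M → ℝ} (hf : ∀ n, StronglyMeasurable (f n))
    {F : ℕ → ℝ → M →ₘ[m] ℝ} {F0 : ℝ → M →ₘ[m] ℝ} {B : ℝ}
    (hfF : ∀ᶠ n in (U : Filter ℕ), ∀ t ∈ Ioc s 1, (∀ᵐ x ∂m, f n (t, x) = F n t x) ∧
      MemLp (F n t) 2 m ∧ I (F n t ^ 2) ≤ B)
    (hc : ∀ i, ContinuousOn (fun t => I (e i * F0 t)) (Icc s 1))
    (hu : ∀ i, ∀ δ > 0, ∀ᶠ n in (U : Filter ℕ), ∀ t ∈ Icc s 1,
      |I (e i * F n t) - I (e i * F0 t)| ≤ δ) :
    (∀ᶠ n in (U : Filter ℕ), MemLp (f n) 2 (ms m s) ∧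
      ∫ z, ‖f n z‖ ^ 2 ∂(ms m s) ≤ (1 - s) * B) ∧
    ∃ f0 : ℝ × M → ℝ, StronglyMeasurable f0 ∧ MemLp f0 2 (ms m s) ∧
      (∀ g : ℝ × M → ℝ, MemLp g 2 (ms m s) → Tendsto (fun n => ∫ z, g z * f n z ∂(ms m s)) U
        (𝓝 (∫ z, g z * f0 z ∂(ms m s)))) ∧
      ∀ i a b, s ≤ a → a ≤ b → b ≤ 1 →
        ∫ z, (Ioc a b).indicator (fun _ => (1 : ℝ)) z.1 * (e i z.2 * f0 z) ∂(ms m s)
          = ∫ t in a..b, I (e i * F0 t) := by
  classical
  have hmem : ∀ᶠ n in (U : Filter ℕ), MemLp (f n) 2 (ms m s) ∧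
      ∫ z, ‖f n z‖ ^ 2 ∂(ms m s) ≤ (1 - s) * B := by
    filter_upwards [hfF] with n hn
    have h1 := memLp_ms (m := m) (hf n) hs (e := fun _ => B) intervalIntegrable_const
      (fun t ht => by
        obtain ⟨a1, a2, a3⟩ := hn t ht
        refine ⟨a2.ae_eq (a1.mono fun x hx => hx.symm), ?_⟩
        refine le_trans (le_of_eq ?_) a3
        unfold I
        refine integral_congr_ae ?_
        filter_upwards [a1, sq_ae (F n t)] with x b1 b2
        rw [b1, b2, Real.norm_eq_abs, sq_abs])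
    refine ⟨h1.1, h1.2.trans (le_of_eq ?_)⟩
    rw [intervalIntegral.integral_const, smul_eq_mul]
  refine ⟨hmem, ?_⟩
  -- the weak limit
  let x : ℕ → Lp ℝ 2 (ms m s) := fun n =>
    if hn : MemLp (f n) 2 (ms m s) then hn.toLp else 0
  have hx : ∀ᶠ n in (U : Filter ℕ), ‖x n‖ ≤ √((1 - s) * B) := by
    filter_upwards [hmem] with n hn
    have : x n = hn.1.toLp := dif_pos hn.1
    rw [this]
    refine Real.le_sqrt_of_sq_le ?_
    rw [norm_toLp_sq hn.1]
    exact hn.2
  obtain ⟨w, -, hw⟩ := exists_weak U hx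
  have hwm : MemLp (w : ℝ × M → ℝ) 2 (ms m s) := Lp.memLp w
  have hlim : ∀ g : ℝ × M → ℝ, MemLp g 2 (ms m s) →
      Tendsto (fun n => ∫ z, g z * f n z ∂(ms m s)) U (𝓝 (∫ z, g z * w z ∂(ms m s))) := by
    intro g hg
    have h1 := hw hg.toLp
    have h2 : ⟪w, hg.toLp⟫_ℝ = ∫ z, g z * w z ∂(ms m s) := by
      rw [show ⟪w, hg.toLp⟫_ℝ = ⟪hwm.toLp, hg.toLp⟫_ℝ by rw [Lp.toLp_coeFn], inner_toLp hwm hg]
      simp only [inner_re, mul_comm]
    rw [h2] at h1
    refine h1.congr' ?_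
    filter_upwards [hmem] with n hn
    have : x n = hn.1.toLp := dif_pos hn.1
    rw [this, inner_toLp hn.1 hg]
    simp only [inner_re, mul_comm]
  refine ⟨w, Lp.stronglyMeasurable w, hwm, hlim, fun i a b ha hab hb => ?_⟩
  have hten : MemLp (fun z : ℝ × M => (Ioc a b).indicator (fun _ => (1 : ℝ)) z.1 * e i z.2) 2
      (ms m s) := memLp_tensor (he i)
  have h1 := hlim _ hten
  simp only [mul_assoc] at h1
  refine tendsto_nhds_unique h1 ?_
  have hGi : IntervalIntegrable (fun t => I (e i * F0 t)) volume a b := by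
    refine ContinuousOn.intervalIntegrable ?_
    rw [uIcc_of_le hab]
    exact (hc i).mono (Icc_subset_Icc ha hb)
  have h3 : ∀ᶠ n in (U : Filter ℕ), (∫ z, (Ioc a b).indicator (fun _ => (1 : ℝ)) z.1 *
      (e i z.2 * f n z) ∂(ms m s) = ∫ t in a..b, I (e i * F n t)) ∧
      IntervalIntegrable (fun t => I (e i * F n t)) volume a b := by
    filter_upwards [hfF, hmem] with n h1 h2
    have hei : MemLp (fun z : ℝ × M => e i z.2) 2 (ms m s) := memLp_snd (he i)
    have k1 : Integrable (fun z : ℝ × M => e i z.2 * f n z) (ms m s) :=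
      hei.integrable_mul h2.1
    have k2 : Integrable (fun z : ℝ × M => (Ioc a b).indicator (fun _ => (1 : ℝ)) z.1 *
        (e i z.2 * f n z)) (ms m s) := by
      have := hten.integrable_mul h2.1
      simpa only [Pi.mul_def, mul_assoc] using this
    have k3 : ∀ t ∈ Ioc s 1, ∫ x, e i x * f n (t, x) ∂m = I (e i * F n t) := by
      intro t ht
      unfold I
      refine integral_congr_ae ?_
      filter_upwards [(h1 t ht).1, mul_ae (e i) (F n t)] with x b1 b2
      rw [b1, b2]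
    refine ⟨int_tensor ha hab hb k2 k3, ?_⟩
    have k4 : IntervalIntegrable (fun t => ∫ x, e i x * f n (t, x) ∂m) volume s 1 :=
      (intervalIntegrable_iff_integrableOn_Ioc_of_le hs).2 k1.integral_prod_left
    have k5 : IntervalIntegrable (fun t => ∫ x, e i x * f n (t, x) ∂m) volume a b := by
      refine k4.mono_set ?_
      rw [uIcc_of_le hab, uIcc_of_le hs]
      exact Icc_subset_Icc ha hb
    refine k5.congr_ae ?_
    rw [uIoc_of_le hab]
    refine (ae_restrict_iff' measurableSet_Ioc).2 (Eventually.of_forall fun t ht => ?_)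
    exact k3 t ⟨ha.trans_lt ht.1, ht.2.trans hb⟩
  refine (tendsto_int_of_unif hab (h3.mono fun n hn => hn.2) hGi fun δ hδ => ?_).congr'
    (h3.mono fun n hn => hn.1.symm)
  filter_upwards [hu i δ hδ] with n hn t ht
  exact hn t ⟨ha.trans ht.1, ht.2.trans hb⟩

end Vale.Agent.P233.H994
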