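import Vale.Agent.P233.H994.Level
import Vale.Agent.P233.H994.Push
import Vale.Agent.P233.H183.BlkC6a
import Vale.Agent.P233.H719.TU2

/-!
P233, block C6b (helper994): the densities in space-time.
-/

set_option linter.all false

open MeasureTheory Filter Topology Set
open scoped ENNReal NNReal InnerProductSpace

universe u

namespace Vale.Agent.P233.H994

open Vale.Agent.P233.PA (en OutA)
open Vale.Agent.P233.PC

section abstract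

variable {M : Type u} [MeasurableSpace M] {m : Measure M}

/-- Weak limits in space-time, glued in time. -/
theorem exists_glued [SFinite m] {U : Ultrafilter ℕ} {e : ℕ → M →ₘ[m] ℝ}
    (he : ∀ i, MemLp (e i) 2 m)
    (hd : ∀ g : M →ₘ[m] ℝ, MemLp g 2 m → (∀ i, I (e i * g) = 0) → g = 0)
    {f : ℕ → ℝ × M → ℝ} (hf : ∀ n, StronglyMeasurable (f n))
    {F : ℕ → ℝ → M →ₘ[m] ℝ} {F0 : ℝ → M →ₘ[m] ℝ}
    (hfF : ∀ s ∈ Ioo (0 : ℝ) 1, ∃ B : ℝ, ∀ᶠ n in (U : Filter ℕ), ∀ t ∈ Ioc s 1,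
      (∀ᵐ x ∂m, f n (t, x) = F n t x) ∧ MemLp (F n t) 2 m ∧ I (F n t ^ 2) ≤ B)
    (hF0 : ∀ t ∈ Ioc (0 : ℝ) 1, MemLp (F0 t) 2 m)
    (hlim : ∀ i, ∀ t ∈ Ioc (0 : ℝ) 1,
      Tendsto (fun n => I (e i * F n t)) U (𝓝 (I (e i * F0 t))))
    (heq : ∀ i, ∀ s ∈ Ioo (0 : ℝ) 1, ∀ δ > 0, ∃ η > 0, ∀ᶠ n in (U : Filter ℕ), ∀ x ∈ Icc s 1,
      ∀ y ∈ Icc s 1, |x - y| < η → |I (e i * F n x) - I (e i * F n y)| ≤ δ) :
    ∃ f0 : ℝ × M → ℝ, StronglyMeasurable f0 ∧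
      (∀ᵐ t ∂((volume : Measure ℝ).restrict (Ioc 0 1)), ∀ᵐ x ∂m, f0 (t, x) = F0 t x) ∧
      ∀ s ∈ Ioo (0 : ℝ) 1, MemLp f0 2 (ms m s) ∧
        (∃ B : ℝ, ∀ᶠ n in (U : Filter ℕ), MemLp (f n) 2 (ms m s) ∧
          ∫ z, ‖f n z‖ ^ 2 ∂(ms m s) ≤ B) ∧
        ∀ g : ℝ × M → ℝ, MemLp g 2 (ms m s) → Tendsto (fun n => ∫ z, g z * f n z ∂(ms m s)) U
          (𝓝 (∫ z, g z * f0 z ∂(ms m s))) := by
  have hunif : ∀ i, ∀ s ∈ Ioo (0 : ℝ) 1, ContinuousOn (fun t => I (e i * F0 t)) (Icc s 1) ∧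
      ∀ δ > 0, ∀ᶠ n in (U : Filter ℕ), ∀ t ∈ Icc s 1, |I (e i * F n t) - I (e i * F0 t)| ≤ δ := by
    intro i s hs
    refine H719.unif_of_equi (fun t ht => hlim i t ⟨hs.1.trans_le ht.1, ht.2⟩) fun t ht δ hδ => ?_
    obtain ⟨η, hη, h⟩ := heq i s hs δ hδ
    refine ⟨η, hη, h.mono fun n hn r hr hrt => hn r hr t ht hrt⟩
  have hs : ∀ s ∈ Ioo (0 : ℝ) 1, ∃ B : ℝ, (∀ᶠ n in (U : Filter ℕ), MemLp (f n) 2 (ms m s) ∧
      ∫ z, ‖f n z‖ ^ 2 ∂(ms m s) ≤ B) ∧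
      ∃ f0 : ℝ × M → ℝ, StronglyMeasurable f0 ∧ MemLp f0 2 (ms m s) ∧
      (∀ g : ℝ × M → ℝ, MemLp g 2 (ms m s) → Tendsto (fun n => ∫ z, g z * f n z ∂(ms m s)) U
        (𝓝 (∫ z, g z * f0 z ∂(ms m s)))) ∧
      ∀ᵐ t ∂((volume : Measure ℝ).restrict (Ioc s 1)), ∀ᵐ x ∂m, f0 (t, x) = F0 t x := by
    intro s hs
    obtain ⟨B, hB⟩ := hfF s hs
    exact ⟨(1 - s) * B, exists_ms_lim' hs.2.le he hd hf hB
      (fun t ht => hF0 t ⟨hs.1.trans ht.1, ht.2⟩) (fun i => (hunif i s hs).1)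
      fun i => (hunif i s hs).2⟩
  choose! B hB f0 h1 h2 h3 h4 using hs
  refine ⟨fun z => f0 (sk (kk z.1)) z, glue_meas fun k => h1 _ (sk_mem k),
    glue_ae (Q := fun k t => ∀ᵐ x ∂m, f0 (sk k) (t, x) = F0 t x) fun k => h4 _ (sk_mem k),
    fun s hs => ?_⟩
  have hglue := glue_ae (Q := fun k t => ∀ᵐ x ∂m, f0 (sk k) (t, x) = F0 t x)
    fun k => h4 _ (sk_mem k)
  have hm : StronglyMeasurable fun z : ℝ × M => f0 (sk (kk z.1)) z :=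
    glue_meas fun k => h1 _ (sk_mem k)
  have e0 : ∀ᵐ z ∂(ms m s), f0 s z = f0 (sk (kk z.1)) z := by
    refine ae_ms' (measurableSet_eq_fun (h1 s hs).measurable hm.measurable) ?_
    filter_upwards [h4 s hs, ae_Ioc_mono hs.1.le hglue] with t a1 a2
    filter_upwards [a1, a2] with x b1 b2
    rw [b1, b2]
  refine ⟨(h2 s hs).ae_eq e0, ⟨B s, hB s hs⟩, fun g hg => ?_⟩
  have h5 := h3 s hs g hg
  rwa [integral_congr_ae (g := fun z => g z * f0 (sk (kk z.1)) z)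
    (by filter_upwards [e0] with z hz; rw [hz])] at h5

end abstract

/-- the hypotheses of block C6b -/
structure Ctx {M : Type u} [MetricSpace M] [MeasurableSpace M] (m : Measure M) (K N κ : ℝ)
    (P : ℝ → (M →ₘ[m] ℝ) → (M →ₘ[m] ℝ)) (p : M) (s₀ C₀ : ℝ)
    {E : Type} [NormedAddCommGroup E] [InnerProductSpace ℝ E]
    (Gr : (M →ₘ[m] ℝ) → M → E) (V : (M →ₘ[m] ℝ) → (M →ₘ[m] ℝ) → M → E)
    (D : (M →ₘ[m] ℝ) → (M →ₘ[m] ℝ))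
    (HO : (M →ₘ[m] ℝ) → M → E →L[ℝ] E) (e : ℕ → M →ₘ[m] ℝ)
    (u : ℕ → ℝ → M →ₘ[m] ℝ) (φ : (M →ₘ[m] ℝ) → ℕ → ℝ → M →ₘ[m] ℝ) (U : Ultrafilter ℕ)
    (ψ ρ : ℝ → M →ₘ[m] ℝ) (R : ℝ → ℝ → (M →ₘ[m] ℝ) → (M →ₘ[m] ℝ)) (Y : ℝ → M → M) : Prop where
  hyp : CHyp M m K N P p s₀ C₀
  hE : EHyp m K N Gr V D HO e
  hA : OutA m K N P p s₀ C₀ u φ
  hB : LevB m Gr V D κ u φ
  hU : (U : Filter ℕ) ≤ atTop
  hO : LimOf P U u φ ρ R
  hLim : Lim m K N p s₀ C₀ ψ ρ R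
  hM : Maps ρ R Y
  hF : RFlow m K N p s₀ C₀ Y
  hS : Strong p s₀ C₀ U u φ Y

section metric

variable {M : Type u} [MetricSpace M] [CompleteSpace M] [SecondCountableTopology M]
  [MeasurableSpace M] [BorelSpace M] {m : Measure M} {K N κ : ℝ}
  {P : ℝ → (M →ₘ[m] ℝ) → (M →ₘ[m] ℝ)} {p : M} {s₀ C₀ : ℝ}
variable {E : Type} [NormedAddCommGroup E] [InnerProductSpace ℝ E] [CompleteSpace E]
variable {Gr : (M →ₘ[m] ℝ) → M → E} {V : (M →ₘ[m] ℝ) → (M →ₘ[m] ℝ) → M → E}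
  {D : (M →ₘ[m] ℝ) → (M →ₘ[m] ℝ)} {HO : (M →ₘ[m] ℝ) → M → E →L[ℝ] E} {e : ℕ → M →ₘ[m] ℝ}
variable {u : ℕ → ℝ → M →ₘ[m] ℝ} {φ : (M →ₘ[m] ℝ) → ℕ → ℝ → M →ₘ[m] ℝ} {U : Ultrafilter ℕ}
variable {ψ ρ : ℝ → M →ₘ[m] ℝ} {R : ℝ → ℝ → (M →ₘ[m] ℝ) → (M →ₘ[m] ℝ)} {Y : ℝ → M → M}

theorem std_sigma (h : Std m K N) : SigmaFinite m := sigmaFinite_of_ball h.hfin

variable (c : Ctx m K N κ P p s₀ C₀ Gr V D HO e u φ U ψ ρ R Y)

include c

theorem Ctx.hC : IsGamma (sob m) := std_gamma c.hyp.std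

theorem Ctx.bei : (sob m).BEi K := std_bei c.hyp.std

theorem Ctx.zero : (0 : M →ₘ[m] ℝ) ∈ (sob m).TestI := c.hC.testI_zero c.bei

theorem Ctx.e2 (i : ℕ) : MemLp (e i) 2 m :=
  c.hC.memLp _ (c.hC.tW (c.hE.stat.testI i).1)

theorem Ctx.sep (g : M →ₘ[m] ℝ) (hg : MemLp g 2 m) (h : ∀ i, I (e i * g) = 0) : g = 0 :=
  sep_of_dense c.hC.toIsDir (fun i => c.hC.tW (c.hE.stat.testI i).1) c.hE.stat.denseW g hg h

theorem Ctx.top {l : M →ₘ[m] ℝ} (hl : l ∈ (sob m).TestI) : MemLp l ∞ m :=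
  (c.hC.test_A hl.1).2

theorem Ctx.lf {l : M →ₘ[m] ℝ} (hl : l ∈ (sob m).TestI) :
    ∀ᶠ n in (U : Filter ℕ), ∀ t ∈ Icc (0 : ℝ) 1, H183.Lf m P u φ l n t :=
  c.hU (H183.lf c.hC c.hyp.heat c.zero c.hA hl)

theorem Ctx.L2i {l : M →ₘ[m] ℝ} (hl : l ∈ (sob m).TestI) : L2i m (ex l - 1) :=
  H183.ex_L2i c.hC.toIsDir (c.hC.test_A hl.1)

/-- the density in space-time -/
theorem Ctx.exists_rho [SFinite m] : ∃ ρ0 : ℝ × M → ℝ, StronglyMeasurable ρ0 ∧ (∀ z, 0 ≤ ρ0 z) ∧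
    (∀ᵐ t ∂((volume : Measure ℝ).restrict (Ioc 0 1)), ∀ᵐ x ∂m, ρ0 (t, x) = ρ t x) ∧
    ∀ s ∈ Ioo (0 : ℝ) 1, ∃ k : ℝ, 0 ≤ k ∧ WStar U (ms m s) k (fun n => jρ u φ 0 n) ρ0 := by
  have hspec := c.hU (jρ_spec c.hC c.hB c.zero)
  obtain ⟨f0, h1, h2, h3⟩ := exists_glued (U := U) (m := m) c.e2 c.sep
    (f := fun n z => jρ u φ 0 n z - 1)
    (fun n => (jρ_meas 0 n).sub stronglyMeasurable_const) (F := fun n t => rn u φ 0 n t - 1)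
    (F0 := fun t => ρ t - 1) (fun s hs => by
      obtain ⟨B, hB⟩ := rn_sq c.hA c.zero (c.top c.zero) hs
      refine ⟨B, ?_⟩
      filter_upwards [c.hU hB, hspec, c.lf c.zero] with n a1 a2 a3 t ht
      have ht' : t ∈ Icc s 1 := ⟨ht.1.le, ht.2⟩
      have ht0 : t ∈ Icc (0 : ℝ) 1 := ⟨hs.1.le.trans ht.1.le, ht.2⟩
      refine ⟨?_, c.hC.memLp _ (a3 t ht0).F1.1, a1 t ht'⟩
      filter_upwards [a2 t ht0, sub_ae (rn u φ 0 n t) 1, one_ae (M := M) (m := m)] with x b1 b2 b3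
      rw [b1, b2, b3])
    (fun t ht => by
      obtain ⟨B, hB⟩ := c.hLim.ρ_L2 t ht
      exact (hB t ⟨le_rfl, ht.2⟩).1)
    (fun i t ht => c.hO.ρ_lim t ht (e i) (c.e2 i))
    (fun i s hs δ hδ => by
      obtain ⟨η, hη, h⟩ := H719.rn_equi c.hyp c.hA c.zero hs.1 hs.2.le (c.e2 i) hδ
      exact ⟨η, hη, c.hU h⟩)
  have hsl : ∀ᵐ t ∂((volume : Measure ℝ).restrict (Ioc 0 1)), ∀ᵐ x ∂m,
      max (f0 (t, x) + 1) 0 = ρ t x := by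
    filter_upwards [h2, ae_restrict_mem measurableSet_Ioc] with t a1 a2
    filter_upwards [a1, nonneg_iff_ae.1 (c.hLim.ρ_nonneg t a2), sub_ae (ρ t) 1,
      one_ae (M := M) (m := m)] with x b1 b2 b3 b4
    rw [b1, b3, b4, sub_add_cancel]
    exact max_eq_left b2
  have hm : StronglyMeasurable fun z : ℝ × M => max (f0 z + 1) 0 :=
    (h1.add stronglyMeasurable_const).sup stronglyMeasurable_const
  refine ⟨fun z => max (f0 z + 1) 0, hm, fun z => le_max_right _ _, hsl, fun s hs => ?_⟩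
  obtain ⟨k, hk0, hk⟩ := rn_bd c.hyp.std.hN c.hA c.hyp.hC0 c.zero (c.top c.zero) hs
  set k' := max k (cK K C₀ * s ^ (-N)) with hk'
  have e0 : ∀ᵐ z ∂(ms m s), f0 z = max (f0 z + 1) 0 - 1 := by
    refine ae_ms' (measurableSet_eq_fun h1.measurable (hm.measurable.sub_const 1)) ?_
    filter_upwards [ae_Ioc_mono hs.1.le hsl, ae_Ioc_mono hs.1.le h2] with t a1 a2
    filter_upwards [a1, a2, sub_ae (ρ t) 1, one_ae (M := M) (m := m)] with x b1 b2 b3 b4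
    rw [b1, b2, b3, b4]
  refine ⟨k', hk0.trans (le_max_left _ _), wstar_of_weak (fun n =>
    (jρ_meas 0 n).aestronglyMeasurable) hm.aestronglyMeasurable ?_ ?_ ?_ ?_ ?_⟩
  · filter_upwards [c.hU hk, hspec] with n a1 a2
    refine ae_ms ?_ fun t ht => ?_
    · exact (measurableSet_le measurable_const (jρ_meas 0 n).measurable).inter
        (measurableSet_le (jρ_meas 0 n).measurable measurable_const)
    · have ht' : t ∈ Icc s 1 := ⟨ht.1.le, ht.2⟩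
      have ht0 : t ∈ Icc (0 : ℝ) 1 := ⟨hs.1.le.trans ht.1.le, ht.2⟩
      filter_upwards [a1 t ht', a2 t ht0, rn_pos (u := u) (φ := φ) 0 n t] with x b1 b2 b3
      rw [b2]
      exact ⟨b3.le, b1.trans (le_max_left _ _)⟩
  · refine ae_ms' ?_ ?_
    · exact (measurableSet_le measurable_const hm.measurable).inter
        (measurableSet_le hm.measurable measurable_const)
    · filter_upwards [ae_Ioc_mono hs.1.le hsl, ae_restrict_mem measurableSet_Ioc] with t a1 a2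
      have ht : t ∈ Ioc (0 : ℝ) 1 := ⟨hs.1.trans a2.1, a2.2⟩
      filter_upwards [a1, c.hLim.ρ_le t ht] with x b1 b2
      refine ⟨le_max_right _ _, ?_⟩
      rw [b1]
      refine b2.trans (le_trans ?_ (le_max_right _ _))
      refine mul_le_mul_of_nonneg_left ?_ (Real.exp_pos _).le
      exact Real.rpow_le_rpow_of_nonpos hs.1 a2.1.le (neg_nonpos.2 c.hyp.std.hN.le)
  · obtain ⟨B, hB⟩ := (h3 s hs).2.1
    exact hB.mono fun n hn => hn.1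
  · exact (h3 s hs).1.ae_eq e0
  · intro g hg
    have := (h3 s hs).2.2 g hg
    rwa [integral_congr_ae (g := fun z => g z * (max (f0 z + 1) 0 - 1))
      (by filter_upwards [e0] with z hz; rw [← hz])] at this

end metric

end Vale.Agent.P233.H994
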