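import Vale.Agent.P233.MathlibUsed2

/-!
P233, row C5w: weighted weak limits of vector fields, the limit tensor, change of weight.
Measure theory only.
-/

open MeasureTheory Filter Topology
open scoped ENNReal NNReal InnerProductSpace

namespace Vale.Agent.P233.H994

/-! ### ultrafilter limits -/

section ultra

variable {ι : Type*} (U : Ultrafilter ι)

/-- A bounded real family has a limit along an ultrafilter. -/
theorem exists_lim {a : ι → ℝ} {C : ℝ} (h : ∀ᶠ n in (U : Filter ι), |a n| ≤ C) :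
    ∃ l, |l| ≤ C ∧ Tendsto a U (𝓝 l) := by
  have hc : IsCompact (Set.Icc (-C) C) := isCompact_Icc
  obtain ⟨l, hl, hU⟩ := hc.ultrafilter_le_nhds (U.map a) (by
    rw [le_principal_iff]
    change ∀ᶠ n in (U : Filter ι), a n ∈ Set.Icc (-C) C
    filter_upwards [h] with n hn
    exact abs_le.1 hn)
  exact ⟨l, abs_le.2 hl, hU⟩

variable {H : Type*} [NormedAddCommGroup H] [InnerProductSpace ℝ H] [CompleteSpace H]

/-- Weak limits of bounded families in a Hilbert space. -/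
theorem exists_weak {x : ι → H} {C : ℝ} (hx : ∀ᶠ n in (U : Filter ι), ‖x n‖ ≤ C) :
    ∃ w : H, ‖w‖ ≤ C ∧ ∀ y, Tendsto (fun n => ⟪x n, y⟫_ℝ) U (𝓝 ⟪w, y⟫_ℝ) := by
  have hC : 0 ≤ C := by
    obtain ⟨n, hn⟩ := hx.exists
    exact (norm_nonneg _).trans hn
  have h1 : ∀ y : H, ∃ l : ℝ, |l| ≤ C * ‖y‖ ∧ Tendsto (fun n => ⟪x n, y⟫_ℝ) U (𝓝 l) := by
    intro y
    refine exists_lim U ?_
    filter_upwards [hx] with n hn
    exact (abs_real_inner_le_norm _ _).trans (mul_le_mul_of_nonneg_right hn (norm_nonneg _))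
  choose l hl hlim using h1
  let L : H →ₗ[ℝ] ℝ :=
    { toFun := l
      map_add' := fun y z => by
        refine tendsto_nhds_unique (hlim (y + z)) ?_
        simpa only [inner_add_right] using (hlim y).add (hlim z)
      map_smul' := fun c y => by
        refine tendsto_nhds_unique (hlim (c • y)) ?_
        simpa only [inner_smul_right, RingHom.id_apply, smul_eq_mul] using (hlim y).const_mul c }
  let L' : H →L[ℝ] ℝ := L.mkContinuous C (fun y => by rw [Real.norm_eq_abs]; exact hl y)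
  refine ⟨(InnerProductSpace.toDual ℝ H).symm L', ?_, fun y => ?_⟩
  · rw [LinearIsometryEquiv.norm_map]
    exact L.mkContinuous_norm_le hC _
  · rw [InnerProductSpace.toDual_symm_apply]
    exact hlim y

end ultra


/-! ### weighted weak limits -/

section weighted

variable {Y : Type*} [MeasurableSpace Y] {ν : Measure Y} {ι : Type*} {U : Ultrafilter ι}
variable {E : Type*} [NormedAddCommGroup E] [InnerProductSpace ℝ E]

/-- `ρ n → ρ0` weakly-* in `L^∞`, with `0 ≤ ρ n ≤ K`. -/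
structure WStar (U : Ultrafilter ι) (ν : Measure Y) (K : ℝ) (ρ : ι → Y → ℝ) (ρ0 : Y → ℝ) :
    Prop where
  meas : ∀ n, AEStronglyMeasurable (ρ n) ν
  meas0 : AEStronglyMeasurable ρ0 ν
  bd : ∀ᶠ n in (U : Filter ι), ∀ᵐ y ∂ν, 0 ≤ ρ n y ∧ ρ n y ≤ K
  bd0 : ∀ᵐ y ∂ν, 0 ≤ ρ0 y ∧ ρ0 y ≤ K
  lim : ∀ g : Y → ℝ, Integrable g ν →
    Tendsto (fun n => ∫ y, ρ n y * g y ∂ν) U (𝓝 (∫ y, ρ0 y * g y ∂ν))

/-- `∫ ρ |F|² ≤ C` -/
structure EBd (ν : Measure Y) (C : ℝ) (ρ : Y → ℝ) (F : Y → E) : Prop where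
  meas : AEStronglyMeasurable F ν
  int : Integrable (fun y => ρ y * ‖F y‖ ^ 2) ν
  le : ∫ y, ρ y * ‖F y‖ ^ 2 ∂ν ≤ C

theorem int_inner_of_memLp {f g : Y → E} (hf : MemLp f 2 ν) (hg : MemLp g 2 ν) :
    Integrable (fun y => ⟪f y, g y⟫_ℝ) ν := by
  refine (L2.integrable_inner (𝕜 := ℝ) hf.toLp hg.toLp).congr ?_
  filter_upwards [hf.coeFn_toLp, hg.coeFn_toLp] with x a1 a2
  rw [a1, a2]

theorem memLp_bdd_smul {p : ℝ≥0∞} {f : Y → E} (hf : MemLp f p ν) {c : Y → ℝ} {c1 : ℝ}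
    (hc : AEStronglyMeasurable c ν) (hc1 : ∀ᵐ y ∂ν, ‖c y‖ ≤ c1) :
    MemLp (fun y => c y • f y) p ν :=
  hf.smul (memLp_top_of_bound hc c1 hc1)

theorem inner_toLp {f g : Y → E} (hf : MemLp f 2 ν) (hg : MemLp g 2 ν) :
    ⟪hf.toLp, hg.toLp⟫_ℝ = ∫ y, ⟪f y, g y⟫_ℝ ∂ν := by
  rw [L2.inner_def]
  refine integral_congr_ae ?_
  filter_upwards [hf.coeFn_toLp, hg.coeFn_toLp] with x a1 a2
  rw [a1, a2]

theorem norm_toLp_sq {f : Y → E} (hf : MemLp f 2 ν) :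
    ‖hf.toLp‖ ^ 2 = ∫ y, ‖f y‖ ^ 2 ∂ν := by
  rw [← real_inner_self_eq_norm_sq, inner_toLp hf hf]
  simp only [real_inner_self_eq_norm_sq]

/-- `ρ F ∈ L²` -/
theorem EBd.memLp {C K : ℝ} {ρ : Y → ℝ} {F : Y → E} (h : EBd ν C ρ F)
    (hρ : AEStronglyMeasurable ρ ν) (hK : ∀ᵐ y ∂ν, 0 ≤ ρ y ∧ ρ y ≤ K) :
    MemLp (fun y => ρ y • F y) 2 ν := by
  have hm : AEStronglyMeasurable (fun y => ρ y • F y) ν := hρ.smul h.meas
  rw [memLp_two_iff_integrable_sq_norm hm]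
  refine (h.int.const_mul K).mono' (hm.norm.pow 2) ?_
  filter_upwards [hK] with y hy
  rw [Real.norm_of_nonneg (by positivity), norm_smul, mul_pow, Real.norm_of_nonneg hy.1, sq]
  calc ρ y * ρ y * ‖F y‖ ^ 2 = ρ y * (ρ y * ‖F y‖ ^ 2) := by ring
    _ ≤ K * (ρ y * ‖F y‖ ^ 2) :=
        mul_le_mul_of_nonneg_right hy.2 (mul_nonneg hy.1 (by positivity))

theorem EBd.sq_le {C K : ℝ} {ρ : Y → ℝ} {F : Y → E} (h : EBd ν C ρ F)
    (hρ : AEStronglyMeasurable ρ ν) (hK : ∀ᵐ y ∂ν, 0 ≤ ρ y ∧ ρ y ≤ K) (hK0 : 0 ≤ K) :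
    ∫ y, ‖ρ y • F y‖ ^ 2 ∂ν ≤ K * C := by
  have hm := h.memLp hρ hK
  have h1 : ∫ y, ‖ρ y • F y‖ ^ 2 ∂ν ≤ ∫ y, K * (ρ y * ‖F y‖ ^ 2) ∂ν := by
    refine integral_mono_ae ((memLp_two_iff_integrable_sq_norm hm.1).1 hm) (h.int.const_mul K) ?_
    filter_upwards [hK] with y hy
    simp only [norm_smul, mul_pow, Real.norm_of_nonneg hy.1]
    calc ρ y ^ 2 * ‖F y‖ ^ 2 = ρ y * (ρ y * ‖F y‖ ^ 2) := by ring
      _ ≤ K * (ρ y * ‖F y‖ ^ 2) :=
          mul_le_mul_of_nonneg_right hy.2 (mul_nonneg hy.1 (by positivity))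
  rw [integral_const_mul] at h1
  exact h1.trans (mul_le_mul_of_nonneg_left h.le hK0)

/-- the weights `(max (1/(k+1)) ρ)⁻¹` -/
noncomputable def ck (ρ : ℝ) (k : ℕ) : ℝ := (max (1 / ((k : ℝ) + 1)) ρ)⁻¹

theorem ck_pos (ρ : ℝ) (k : ℕ) : 0 < ck ρ k :=
  inv_pos.2 (lt_of_lt_of_le (by positivity) (le_max_left _ _))

theorem ck_le (ρ : ℝ) (k : ℕ) : ck ρ k ≤ (k : ℝ) + 1 := by
  unfold ck
  rw [inv_le_comm₀ (lt_of_lt_of_le (by positivity) (le_max_left _ _)) (by positivity)]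
  rw [← one_div]
  exact le_max_left _ _

theorem ck_key (ρ : ℝ) (k : ℕ) : ck ρ k ≤ 2 * ck ρ k - ρ * ck ρ k ^ 2 := by
  have h1 : ρ * ck ρ k ≤ 1 := by
    unfold ck
    rw [← div_eq_mul_inv, div_le_one (lt_of_lt_of_le (by positivity) (le_max_left _ _))]
    exact le_max_right _ _
  have h2 := ck_pos ρ k
  nlinarith

theorem ck_tendsto {ρ : ℝ} (hρ : 0 < ρ) : Tendsto (fun k => ck ρ k) atTop (𝓝 ρ⁻¹) := by
  have h1 : Tendsto (fun k : ℕ => max (1 / ((k : ℝ) + 1)) ρ) atTop (𝓝 ρ) := by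
    have := (tendsto_one_div_add_atTop_nhds_zero_nat (𝕜 := ℝ)).max (tendsto_const_nhds (x := ρ))
    rwa [max_eq_right hρ.le] at this
  exact h1.inv₀ hρ.ne'

theorem ck_zero (k : ℕ) : ck 0 k = (k : ℝ) + 1 := by
  unfold ck
  rw [max_eq_left (by positivity)]
  simp

theorem measurable_ck (k : ℕ) : Measurable fun ρ => ck ρ k := by
  unfold ck
  exact (measurable_const.max measurable_id).inv


variable {K C : ℝ} {ρ : ι → Y → ℝ} {ρ0 : Y → ℝ} {F : ι → Y → E}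

omit [InnerProductSpace ℝ E] in
/-- the limit of `∫ ρ b |Φ|²` -/
theorem WStar.lim_sq (h : WStar U ν K ρ ρ0) {Φ : Y → E} (hΦ : MemLp Φ 2 ν) {b : Y → ℝ} {B : ℝ}
    (hb : AEStronglyMeasurable b ν) (hB : ∀ᵐ y ∂ν, ‖b y‖ ≤ B) :
    Integrable (fun y => b y * ‖Φ y‖ ^ 2) ν ∧
    Tendsto (fun n => ∫ y, ρ n y * (b y * ‖Φ y‖ ^ 2) ∂ν) U
      (𝓝 (∫ y, ρ0 y * (b y * ‖Φ y‖ ^ 2) ∂ν)) := by
  have h1 : Integrable (fun y => b y * ‖Φ y‖ ^ 2) ν :=
    ((memLp_two_iff_integrable_sq_norm hΦ.1).1 hΦ).bdd_mul hb hB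
  exact ⟨h1, h.lim _ h1⟩

/-- Weighted weak limit: `ρ n F n ⇀ ρ0 F0` weakly in `L²` along the ultrafilter. -/
structure WLim (U : Ultrafilter ι) (ν : Measure Y) (ρ : ι → Y → ℝ) (ρ0 : Y → ℝ) (F : ι → Y → E)
    (F0 : Y → E) : Prop where
  meas : AEStronglyMeasurable F0 ν
  mem : MemLp (fun y => ρ0 y • F0 y) 2 ν
  lim : ∀ Φ : Y → E, MemLp Φ 2 ν → Tendsto (fun n => ∫ y, ⟪ρ n y • F n y, Φ y⟫_ℝ ∂ν) U
    (𝓝 (∫ y, ⟪ρ0 y • F0 y, Φ y⟫_ℝ ∂ν))

/-- The key inequality in the limit. -/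
theorem lsc_aux (h : WStar U ν K ρ ρ0) (hF : ∀ᶠ n in (U : Filter ι), EBd ν C (ρ n) (F n))
    {G : Y → E} (hG : MemLp G 2 ν)
    (hlim : ∀ Φ : Y → E, MemLp Φ 2 ν → Tendsto (fun n => ∫ y, ⟪ρ n y • F n y, Φ y⟫_ℝ ∂ν) U
      (𝓝 (∫ y, ⟪G y, Φ y⟫_ℝ ∂ν)))
    {b : Y → ℝ} {B : ℝ} (hb : AEStronglyMeasurable b ν) (hB : ∀ᵐ y ∂ν, 0 ≤ b y ∧ b y ≤ B)
    {L : ℝ} (hL : ∀ᶠ n in (U : Filter ι), ∫ y, b y * (ρ n y * ‖F n y‖ ^ 2) ∂ν ≤ L)
    {c : Y → ℝ} {c1 : ℝ} (hc : AEStronglyMeasurable c ν) (hc1 : ∀ᵐ y ∂ν, ‖c y‖ ≤ c1) :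
    Integrable (fun y => b y * ((2 * c y - ρ0 y * c y ^ 2) * ‖G y‖ ^ 2)) ν ∧
    ∫ y, b y * ((2 * c y - ρ0 y * c y ^ 2) * ‖G y‖ ^ 2) ∂ν ≤ L := by
  have hbB : ∀ᵐ y ∂ν, ‖b y‖ ≤ B := by
    filter_upwards [hB] with y hy
    rw [Real.norm_of_nonneg hy.1]; exact hy.2
  have hG2 := (memLp_two_iff_integrable_sq_norm hG.1).1 hG
  -- the test field `c G`
  have hcG : MemLp (fun y => c y • G y) 2 ν :=
    memLp_bdd_smul hG hc hc1
  have hbcG : MemLp (fun y => b y • (c y • G y)) 2 ν := memLp_bdd_smul hcG hb hbB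
  have e1 := hlim _ hbcG
  have e2 := h.lim_sq hcG hb hbB
  have e3 : Tendsto (fun n => 2 * ∫ y, ⟪ρ n y • F n y, b y • (c y • G y)⟫_ℝ ∂ν
      - ∫ y, ρ n y * (b y * ‖c y • G y‖ ^ 2) ∂ν) U
      (𝓝 (2 * ∫ y, ⟪G y, b y • (c y • G y)⟫_ℝ ∂ν - ∫ y, ρ0 y * (b y * ‖c y • G y‖ ^ 2) ∂ν)) :=
    (e1.const_mul 2).sub e2.2
  have i1 : Integrable (fun y => ⟪G y, b y • (c y • G y)⟫_ℝ) ν := int_inner_of_memLp hG hbcG
  have i2 : Integrable (fun y => ρ0 y * (b y * ‖c y • G y‖ ^ 2)) ν := by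
    refine e2.1.bdd_mul h.meas0 (c := K) ?_
    filter_upwards [h.bd0] with y hy
    rw [Real.norm_of_nonneg hy.1]; exact hy.2
  have e4 : (fun y => b y * ((2 * c y - ρ0 y * c y ^ 2) * ‖G y‖ ^ 2))
      = fun y => 2 * ⟪G y, b y • (c y • G y)⟫_ℝ - ρ0 y * (b y * ‖c y • G y‖ ^ 2) := by
    funext y
    rw [inner_smul_right, inner_smul_right, real_inner_self_eq_norm_sq, norm_smul, mul_pow,
      Real.norm_eq_abs, sq_abs]
    ring
  rw [e4]
  refine ⟨(i1.const_mul 2).sub i2, ?_⟩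
  rw [integral_sub (i1.const_mul 2) i2, integral_const_mul]
  refine le_of_tendsto e3 ?_
  filter_upwards [hL, hF, h.bd] with n hn hFn hbd
  refine le_trans ?_ hn
  have j1 : Integrable (fun y => ⟪ρ n y • F n y, b y • (c y • G y)⟫_ℝ) ν :=
    int_inner_of_memLp (hFn.memLp (h.meas n) hbd) hbcG
  have j2 : Integrable (fun y => ρ n y * (b y * ‖c y • G y‖ ^ 2)) ν := by
    refine e2.1.bdd_mul (h.meas n) (c := K) ?_
    filter_upwards [hbd] with y hy
    rw [Real.norm_of_nonneg hy.1]; exact hy.2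
  rw [← integral_const_mul, ← integral_sub (j1.const_mul 2) j2]
  refine integral_mono_ae ((j1.const_mul 2).sub j2) (hFn.int.bdd_mul hb hbB) ?_
  filter_upwards [hbd, hB] with y hy hby
  simp only [inner_smul_left, inner_smul_right, RCLike.conj_to_real]
  have k1 : 2 * ⟪F n y, c y • G y⟫_ℝ - ‖c y • G y‖ ^ 2 ≤ ‖F n y‖ ^ 2 := by
    have := norm_sub_sq_real (F n y) (c y • G y)
    nlinarith [sq_nonneg ‖F n y - c y • G y‖]
  rw [inner_smul_right] at k1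
  have k2 : 0 ≤ b y * ρ n y := mul_nonneg hby.1 hy.1
  nlinarith [mul_le_mul_of_nonneg_left k1 k2]


omit [InnerProductSpace ℝ E] [NormedAddCommGroup E] in
/-- Fatou's lemma for real functions. -/
theorem fatou_real {g : ℕ → Y → ℝ} {g0 : Y → ℝ} {L : ℝ} (hg : ∀ k, Integrable (g k) ν)
    (h0 : ∀ k, ∀ᵐ y ∂ν, 0 ≤ g k y) (hL : ∀ k, ∫ y, g k y ∂ν ≤ L)
    (hlim : ∀ᵐ y ∂ν, Tendsto (fun k => g k y) atTop (𝓝 (g0 y))) :
    Integrable g0 ν ∧ ∫ y, g0 y ∂ν ≤ L := by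
  have hm : AEStronglyMeasurable g0 ν :=
    aestronglyMeasurable_of_tendsto_ae atTop (fun k => (hg k).1) hlim
  have hg0 : ∀ᵐ y ∂ν, 0 ≤ g0 y := by
    filter_upwards [hlim, ae_all_iff.2 h0] with y h1 h2
    exact ge_of_tendsto' h1 h2
  have hL0 : 0 ≤ L := (integral_nonneg_of_ae (h0 0)).trans (hL 0)
  have key : ∫⁻ y, ENNReal.ofReal (g0 y) ∂ν ≤ ENNReal.ofReal L := by
    calc ∫⁻ y, ENNReal.ofReal (g0 y) ∂ν
        = ∫⁻ y, liminf (fun k => ENNReal.ofReal (g k y)) atTop ∂ν := by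
          refine lintegral_congr_ae ?_
          filter_upwards [hlim] with y hy
          exact ((ENNReal.tendsto_ofReal hy).liminf_eq).symm
      _ ≤ liminf (fun k => ∫⁻ y, ENNReal.ofReal (g k y) ∂ν) atTop :=
          lintegral_liminf_le' fun k => (hg k).1.aemeasurable.ennreal_ofReal
      _ ≤ ENNReal.ofReal L := by
          refine liminf_le_of_le (by isBoundedDefault) ?_
          intro b hb
          obtain ⟨k, hk⟩ := hb.exists
          refine hk.trans ?_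
          rw [← ofReal_integral_eq_lintegral_ofReal (hg k) (h0 k)]
          exact ENNReal.ofReal_le_ofReal (hL k)
  have hi : Integrable g0 ν := by
    refine ⟨hm, ?_⟩
    rw [hasFiniteIntegral_iff_ofReal hg0]
    exact lt_of_le_of_lt key ENNReal.ofReal_lt_top
  refine ⟨hi, ?_⟩
  rw [← ofReal_integral_eq_lintegral_ofReal hi hg0] at key
  exact (ENNReal.ofReal_le_ofReal_iff hL0).1 key

/-- Existence of weighted weak limits. -/
theorem exists_wlim [CompleteSpace E] (hK : 0 ≤ K) (h : WStar U ν K ρ ρ0)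
    (hF : ∀ᶠ n in (U : Filter ι), EBd ν C (ρ n) (F n)) :
    ∃ F0 : Y → E, WLim U ν ρ ρ0 F F0 ∧ ∀ y, ρ0 y = 0 → F0 y = 0 := by
  classical
  -- the weak limit in the Hilbert space
  let x : ι → Lp E 2 ν := fun n =>
    if hn : MemLp (fun y => ρ n y • F n y) 2 ν then hn.toLp else 0
  have hx : ∀ᶠ n in (U : Filter ι), ‖x n‖ ≤ √(K * C) := by
    filter_upwards [hF, h.bd] with n hn hbd
    have hm := hn.memLp (h.meas n) hbd
    have : x n = hm.toLp := dif_pos hm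
    rw [this]
    refine Real.le_sqrt_of_sq_le ?_
    rw [norm_toLp_sq hm]
    exact hn.sq_le (h.meas n) hbd hK
  obtain ⟨w, -, hw⟩ := exists_weak U hx
  have hG : MemLp (w : Y → E) 2 ν := Lp.memLp w
  have hlim : ∀ Φ : Y → E, MemLp Φ 2 ν → Tendsto (fun n => ∫ y, ⟪ρ n y • F n y, Φ y⟫_ℝ ∂ν) U
      (𝓝 (∫ y, ⟪w y, Φ y⟫_ℝ ∂ν)) := by
    intro Φ hΦ
    have h1 := hw hΦ.toLp
    have h2 : ⟪w, hΦ.toLp⟫_ℝ = ∫ y, ⟪w y, Φ y⟫_ℝ ∂ν := by
      rw [← inner_toLp hG hΦ, Lp.toLp_coeFn]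
    rw [h2] at h1
    refine h1.congr' ?_
    filter_upwards [hF, h.bd] with n hn hbd
    have hm := hn.memLp (h.meas n) hbd
    have : x n = hm.toLp := dif_pos hm
    rw [this, inner_toLp hm hΦ]
  -- it vanishes where `ρ0 = 0`
  have hz : ∀ᵐ y ∂ν, ρ0 y = 0 → w y = 0 := by
    let r := h.meas0.mk ρ0
    have hr : Measurable r := h.meas0.stronglyMeasurable_mk.measurable
    have hrr : ∀ᵐ y ∂ν, ρ0 y = r y := h.meas0.ae_eq_mk
    let q : Y → ℝ := fun y => if r y = 0 then 1 else 0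
    have hq : Measurable q := Measurable.ite (hr (measurableSet_singleton 0)) measurable_const
      measurable_const
    have hq1 : ∀ y, ‖q y‖ ≤ 1 := by
      intro y; simp only [q]; split_ifs <;> simp
    have hG2 := (memLp_two_iff_integrable_sq_norm hG.1).1 hG
    have hqi : Integrable (fun y => q y * ‖w y‖ ^ 2) ν :=
      hG2.bdd_mul hq.aestronglyMeasurable (ae_of_all _ hq1)
    have hk : ∀ k : ℕ, 2 * (k : ℝ) * ∫ y, q y * ‖w y‖ ^ 2 ∂ν ≤ C := by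
      intro k
      have := (lsc_aux (b := fun _ => 1) (B := 1) (L := C) h hF hG hlim
        aestronglyMeasurable_const (ae_of_all _ fun _ => ⟨zero_le_one, le_rfl⟩)
        (by filter_upwards [hF] with n hn; simpa using hn.le)
        (c := fun y => k * q y) (c1 := k) (hq.const_mul _).aestronglyMeasurable
        (ae_of_all _ fun y => by
          rw [norm_mul, Real.norm_natCast]
          exact mul_le_of_le_one_right (Nat.cast_nonneg k) (hq1 y))).2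
      refine le_trans (le_of_eq ?_) this
      rw [← integral_const_mul]
      refine integral_congr_ae ?_
      filter_upwards [hrr] with y hy
      simp only [q, ← hy]
      split_ifs with h0
      · rw [h0]; ring
      · ring
    have hI0 : 0 ≤ ∫ y, q y * ‖w y‖ ^ 2 ∂ν := integral_nonneg fun y => by
      simp only [q]; split_ifs <;> simp
    have hI : ∫ y, q y * ‖w y‖ ^ 2 ∂ν = 0 := by
      by_contra hne
      have hpos : 0 < ∫ y, q y * ‖w y‖ ^ 2 ∂ν := lt_of_le_of_ne hI0 (Ne.symm hne)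
      obtain ⟨k, hk'⟩ := exists_nat_gt (C / (2 * ∫ y, q y * ‖w y‖ ^ 2 ∂ν))
      rw [div_lt_iff₀ (by positivity)] at hk'
      have := hk k
      linarith
    have hI' := (integral_eq_zero_iff_of_nonneg (μ := ν) (f := fun y => q y * ‖w y‖ ^ 2)
      (fun y => by simp only [q, Pi.zero_apply]; split_ifs <;> simp) hqi).1 hI
    filter_upwards [hI', hrr] with y h1 h2 h3
    have hr0 : r y = 0 := by rw [← h2, h3]
    simp only [q, hr0, if_true, one_mul, Pi.zero_apply] at h1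
    exact norm_eq_zero.1 (pow_eq_zero_iff (two_ne_zero)|>.1 h1)
  have hρw : (fun y => ρ0 y • ((ρ0 y)⁻¹ • w y)) =ᵐ[ν] fun y => w y := by
    filter_upwards [hz] with y hy
    by_cases h0 : ρ0 y = 0
    · rw [h0, hy h0]; simp
    · rw [smul_smul, mul_inv_cancel₀ h0, one_smul]
  refine ⟨fun y => (ρ0 y)⁻¹ • w y, ⟨?_, hG.ae_eq hρw.symm, fun Φ hΦ => ?_⟩,
    fun y hy => by simp [hy]⟩
  · exact h.meas0.aemeasurable.inv.aestronglyMeasurable.smul hG.1
  · have e : ∫ y, ⟪ρ0 y • ((ρ0 y)⁻¹ • w y), Φ y⟫_ℝ ∂ν = ∫ y, ⟪w y, Φ y⟫_ℝ ∂ν := by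
      refine integral_congr_ae ?_
      filter_upwards [hρw] with y hy
      rw [hy]
    rw [e]
    exact hlim Φ hΦ

/-- Lower semicontinuity of `∫ b ρ |F|²`. -/
theorem WLim.lsc {F0 : Y → E} (hw : WLim U ν ρ ρ0 F F0) (h : WStar U ν K ρ ρ0)
    (hF : ∀ᶠ n in (U : Filter ι), EBd ν C (ρ n) (F n)) {b : Y → ℝ} {B : ℝ}
    (hb : AEStronglyMeasurable b ν) (hB : ∀ᵐ y ∂ν, 0 ≤ b y ∧ b y ≤ B)
    {L : ℝ} (hL : ∀ᶠ n in (U : Filter ι), ∫ y, b y * (ρ n y * ‖F n y‖ ^ 2) ∂ν ≤ L) :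
    Integrable (fun y => b y * (ρ0 y * ‖F0 y‖ ^ 2)) ν ∧
      ∫ y, b y * (ρ0 y * ‖F0 y‖ ^ 2) ∂ν ≤ L := by
  have hc : ∀ k, AEStronglyMeasurable (fun y => ck (ρ0 y) k) ν := fun k =>
    ((measurable_ck k).comp_aemeasurable h.meas0.aemeasurable).aestronglyMeasurable
  have hc1 : ∀ k, ∀ᵐ y ∂ν, ‖ck (ρ0 y) k‖ ≤ (k : ℝ) + 1 := fun k => ae_of_all _ fun y => by
    rw [Real.norm_of_nonneg (ck_pos _ _).le]; exact ck_le _ _
  have hk := fun k => lsc_aux h hF hw.mem hw.lim hb hB hL (hc k) (hc1 k)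
  refine fatou_real (fun k => (hk k).1) (fun k => ?_) (fun k => (hk k).2) ?_
  · filter_upwards [hB] with y hy
    exact mul_nonneg hy.1 (mul_nonneg ((ck_pos _ _).le.trans (ck_key _ _)) (by positivity))
  · filter_upwards [h.bd0] with y h1
    rcases eq_or_lt_of_le h1.1 with h0 | h0
    · have hρ : ρ0 y = 0 := h0.symm
      simp [hρ]
    · have e1 : Tendsto (fun k => b y * ((2 * ck (ρ0 y) k - ρ0 y * ck (ρ0 y) k ^ 2)
          * ‖ρ0 y • F0 y‖ ^ 2)) atTop (𝓝 (b y * ((2 * (ρ0 y)⁻¹ - ρ0 y * (ρ0 y)⁻¹ ^ 2)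
          * ‖ρ0 y • F0 y‖ ^ 2))) :=
        ((((ck_tendsto h0).const_mul 2).sub (((ck_tendsto h0).pow 2).const_mul _)).mul_const
          _).const_mul _
      have e2 : b y * ((2 * (ρ0 y)⁻¹ - ρ0 y * (ρ0 y)⁻¹ ^ 2) * ‖ρ0 y • F0 y‖ ^ 2)
          = b y * (ρ0 y * ‖F0 y‖ ^ 2) := by
        rw [norm_smul, Real.norm_of_nonneg h1.1]
        field_simp
        ring
      rwa [e2] at e1


theorem WLim.ebd {F0 : Y → E} (hw : WLim U ν ρ ρ0 F F0) (h : WStar U ν K ρ ρ0)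
    (hF : ∀ᶠ n in (U : Filter ι), EBd ν C (ρ n) (F n)) : EBd ν C ρ0 F0 := by
  have := hw.lsc h hF (b := fun _ => 1) (B := 1) (L := C) aestronglyMeasurable_const
    (ae_of_all _ fun _ => ⟨zero_le_one, le_rfl⟩)
    (by filter_upwards [hF] with n hn; simpa using hn.le)
  simp only [one_mul] at this
  exact ⟨hw.meas, this.1, this.2⟩

/-- Uniqueness where `ρ0 ≠ 0`. -/
theorem WLim.unique {F0 F1 : Y → E} (h0 : WLim U ν ρ ρ0 F F0) (h1 : WLim U ν ρ ρ0 F F1) :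
    ∀ᵐ y ∂ν, ρ0 y ≠ 0 → F0 y = F1 y := by
  have hm : MemLp (fun y => ρ0 y • F0 y - ρ0 y • F1 y) 2 ν := h0.mem.sub h1.mem
  have e := tendsto_nhds_unique (h0.lim _ hm) (h1.lim _ hm)
  have e2 : ∫ y, ‖ρ0 y • F0 y - ρ0 y • F1 y‖ ^ 2 ∂ν = 0 := by
    have : ∀ y, ‖ρ0 y • F0 y - ρ0 y • F1 y‖ ^ 2
        = ⟪ρ0 y • F0 y, ρ0 y • F0 y - ρ0 y • F1 y⟫_ℝ
          - ⟪ρ0 y • F1 y, ρ0 y • F0 y - ρ0 y • F1 y⟫_ℝ := by
      intro y
      rw [← inner_sub_left, real_inner_self_eq_norm_sq]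
    simp only [this]
    rw [integral_sub (int_inner_of_memLp h0.mem hm) (int_inner_of_memLp h1.mem hm), e, sub_self]
  have e3 := (integral_eq_zero_iff_of_nonneg (fun y => by positivity)
    ((memLp_two_iff_integrable_sq_norm hm.1).1 hm)).1 e2
  filter_upwards [e3] with y hy hρ
  have h3 : ρ0 y • F0 y - ρ0 y • F1 y = 0 :=
    norm_eq_zero.1 ((pow_eq_zero_iff two_ne_zero).1 hy)
  rw [← smul_sub, smul_eq_zero] at h3
  exact sub_eq_zero.1 (h3.resolve_left hρ)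

theorem WLim.congr {F' : ι → Y → E} {F0 : Y → E} (h : WLim U ν ρ ρ0 F F0)
    (he : ∀ᶠ n in (U : Filter ι), ∀ᵐ y ∂ν, ρ n y • F' n y = ρ n y • F n y) :
    WLim U ν ρ ρ0 F' F0 where
  meas := h.meas
  mem := h.mem
  lim := fun Φ hΦ => by
    refine (h.lim Φ hΦ).congr' ?_
    filter_upwards [he] with n hn
    refine integral_congr_ae ?_
    filter_upwards [hn] with y hy
    rw [hy]

theorem WLim.congr0 {F0 F1 : Y → E} (h : WLim U ν ρ ρ0 F F0) (hm : AEStronglyMeasurable F1 ν)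
    (he : ∀ᵐ y ∂ν, ρ0 y • F0 y = ρ0 y • F1 y) : WLim U ν ρ ρ0 F F1 where
  meas := hm
  mem := h.mem.ae_eq he
  lim := fun Φ hΦ => by
    have := h.lim Φ hΦ
    rwa [integral_congr_ae (g := fun y => ⟪ρ0 y • F1 y, Φ y⟫_ℝ)
      (by filter_upwards [he] with y hy; rw [hy])] at this

/-- Multiplication by a bounded function. -/
theorem WLim.bsmul {F0 : Y → E} (h : WLim U ν ρ ρ0 F F0) {c : Y → ℝ} {c1 : ℝ}
    (hc : AEStronglyMeasurable c ν) (hc1 : ∀ᵐ y ∂ν, ‖c y‖ ≤ c1) :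
    WLim U ν ρ ρ0 (fun n y => c y • F n y) (fun y => c y • F0 y) where
  meas := hc.smul h.meas
  mem := by
    have := memLp_bdd_smul h.mem hc hc1
    simpa only [smul_comm (c _)] using this
  lim := fun Φ hΦ => by
    have := h.lim _ (memLp_bdd_smul hΦ hc hc1)
    have e : ∀ (r : ℝ) (v w : E) (c : ℝ), ⟪r • (c • v), w⟫_ℝ = ⟪r • v, c • w⟫_ℝ := by
      intro r v w c
      rw [smul_comm, real_inner_smul_left, real_inner_smul_right]
    simpa only [e] using this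

theorem WLim.add {F' : ι → Y → E} {F0 F1 : Y → E} (h : WLim U ν ρ ρ0 F F0)
    (h' : WLim U ν ρ ρ0 F' F1) (hm : ∀ᶠ n in (U : Filter ι), MemLp (fun y => ρ n y • F n y) 2 ν)
    (hm' : ∀ᶠ n in (U : Filter ι), MemLp (fun y => ρ n y • F' n y) 2 ν) :
    WLim U ν ρ ρ0 (fun n y => F n y + F' n y) (fun y => F0 y + F1 y) where
  meas := h.meas.add h'.meas
  mem := (h.mem.add h'.mem).ae_eq (ae_of_all _ fun y => by simp [smul_add])
  lim := fun Φ hΦ => by
    have e := (h.lim Φ hΦ).add (h'.lim Φ hΦ)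
    rw [← integral_add (int_inner_of_memLp h.mem hΦ) (int_inner_of_memLp h'.mem hΦ)] at e
    simp only [smul_add, inner_add_left]
    refine e.congr' ?_
    filter_upwards [hm, hm'] with n hn hn'
    rw [integral_add (int_inner_of_memLp hn hΦ) (int_inner_of_memLp hn' hΦ)]

theorem inner_re (a b : ℝ) : ⟪a, b⟫_ℝ = a * b := by simp [mul_comm]

/-- Weighted Cauchy–Schwarz inequality. -/
theorem wcs {r : Y → ℝ} {f g : Y → E} {C1 C2 B : ℝ} (hr : ∀ᵐ y ∂ν, 0 ≤ r y)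
    (hrm : AEStronglyMeasurable r ν)
    (hf : EBd ν C1 r f) (hg : EBd ν C2 r g) {b : Y → ℝ} (hb : AEStronglyMeasurable b ν)
    (hB : ∀ᵐ y ∂ν, ‖b y‖ ≤ B) (hB0 : 0 ≤ B) :
    Integrable (fun y => b y * (r y * ⟪f y, g y⟫_ℝ)) ν ∧
      |∫ y, b y * (r y * ⟪f y, g y⟫_ℝ) ∂ν| ≤ B * (√C1 * √C2) := by
  have hs : AEStronglyMeasurable (fun y => √(r y)) ν :=
    (Real.continuous_sqrt.comp_aestronglyMeasurable hrm)
  have e1 : ∀ {h : Y → E} {C' : ℝ}, EBd ν C' r h → MemLp (fun y => √(r y) • h y) 2 ν ∧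
      ∫ y, ‖√(r y) • h y‖ ^ 2 ∂ν ≤ C' := by
    intro h C' hh
    have hm : AEStronglyMeasurable (fun y => √(r y) • h y) ν := hs.smul hh.meas
    have he : (fun y => ‖√(r y) • h y‖ ^ 2) =ᵐ[ν] fun y => r y * ‖h y‖ ^ 2 := by
      filter_upwards [hr] with y hy
      rw [norm_smul, mul_pow, Real.norm_eq_abs, sq_abs, Real.sq_sqrt hy]
    refine ⟨(memLp_two_iff_integrable_sq_norm hm).2 (hh.int.congr he.symm), ?_⟩
    rw [integral_congr_ae he]
    exact hh.le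
  obtain ⟨m1, k1⟩ := e1 hf
  obtain ⟨m2, k2⟩ := e1 hg
  have he : (fun y => b y * (r y * ⟪f y, g y⟫_ℝ))
      =ᵐ[ν] fun y => ⟪√(r y) • f y, b y • (√(r y) • g y)⟫_ℝ := by
    filter_upwards [hr] with y hy
    rw [real_inner_smul_left, real_inner_smul_right, real_inner_smul_right]
    have := Real.mul_self_sqrt hy
    linear_combination (-(b y * ⟪f y, g y⟫_ℝ)) * this
  have m3 := memLp_bdd_smul m2 hb hB
  refine ⟨(int_inner_of_memLp m1 m3).congr he.symm, ?_⟩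
  rw [integral_congr_ae he, ← inner_toLp m1 m3]
  refine (abs_real_inner_le_norm _ _).trans ?_
  have n1 : ‖m1.toLp‖ ≤ √C1 := Real.le_sqrt_of_sq_le ((norm_toLp_sq m1).le.trans k1)
  have n3 : ‖m3.toLp‖ ≤ B * √C2 := by
    have i2 := (memLp_two_iff_integrable_sq_norm m2.1).1 m2
    have : ‖m3.toLp‖ ^ 2 ≤ B ^ 2 * C2 := by
      rw [norm_toLp_sq m3]
      calc ∫ y, ‖b y • √(r y) • g y‖ ^ 2 ∂ν ≤ ∫ y, B ^ 2 * ‖√(r y) • g y‖ ^ 2 ∂ν := by
            refine integral_mono_ae ((memLp_two_iff_integrable_sq_norm m3.1).1 m3)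
              (i2.const_mul _) ?_
            filter_upwards [hB] with y hy
            simp only [norm_smul (b y), mul_pow]
            exact mul_le_mul_of_nonneg_right (pow_le_pow_left₀ (norm_nonneg _) hy 2) (by positivity)
        _ = B ^ 2 * ∫ y, ‖√(r y) • g y‖ ^ 2 ∂ν := integral_const_mul _ _
        _ ≤ B ^ 2 * C2 := mul_le_mul_of_nonneg_left k2 (by positivity)
    have h4 := Real.le_sqrt_of_sq_le this
    rwa [Real.sqrt_mul (by positivity), Real.sqrt_sq hB0] at h4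
  calc ‖m1.toLp‖ * ‖m3.toLp‖ ≤ √C1 * (B * √C2) :=
        mul_le_mul n1 n3 (norm_nonneg _) (Real.sqrt_nonneg _)
    _ = B * (√C1 * √C2) := by ring


/-- Pairing with a strongly convergent family. -/
theorem WLim.pair {F0 : Y → E} (hw : WLim U ν ρ ρ0 F F0) (h : WStar U ν K ρ ρ0)
    (hF : ∀ᶠ n in (U : Filter ι), EBd ν C (ρ n) (F n))
    {G : ι → Y → E} {G0 : Y → E} (hG0 : MemLp G0 2 ν)
    (hst : ∀ δ > 0, ∀ᶠ n in (U : Filter ι), EBd ν δ (ρ n) (fun y => G n y - G0 y))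
    {b : Y → ℝ} {B : ℝ} (hb : AEStronglyMeasurable b ν) (hB : ∀ᵐ y ∂ν, ‖b y‖ ≤ B) :
    Tendsto (fun n => ∫ y, b y * (ρ n y * ⟪F n y, G n y⟫_ℝ) ∂ν) U
      (𝓝 (∫ y, b y * (ρ0 y * ⟪F0 y, G0 y⟫_ℝ) ∂ν)) := by
  have hB' : ∀ᵐ y ∂ν, ‖b y‖ ≤ max B 0 := by
    filter_upwards [hB] with y hy
    exact hy.trans (le_max_left _ _)
  have hbG := memLp_bdd_smul hG0 hb hB
  have e : ∀ (r c : ℝ) (v w : E), c * (r * ⟪v, w⟫_ℝ) = ⟪r • v, c • w⟫_ℝ := by
    intro r c v w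
    rw [real_inner_smul_left, real_inner_smul_right]; ring
  have h1 : Tendsto (fun n => ∫ y, b y * (ρ n y * ⟪F n y, G0 y⟫_ℝ) ∂ν) U
      (𝓝 (∫ y, b y * (ρ0 y * ⟪F0 y, G0 y⟫_ℝ) ∂ν)) := by
    simpa only [e] using hw.lim _ hbG
  have h2 : Tendsto (fun n => ∫ y, b y * (ρ n y * ⟪F n y, G n y - G0 y⟫_ℝ) ∂ν) U (𝓝 0) := by
    rw [Metric.tendsto_nhds]
    intro ε hε
    obtain ⟨δ, hδ, hδε⟩ : ∃ δ > 0, max B 0 * (√C * √δ) < ε := by
      have ht : Tendsto (fun δ : ℝ => max B 0 * (√C * √δ)) (𝓝 0) (𝓝 (max B 0 * (√C * √0))) :=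
        ((Real.continuous_sqrt.tendsto 0).const_mul _).const_mul _
      rw [Real.sqrt_zero, mul_zero, mul_zero] at ht
      have ht' := (ht.mono_left (nhdsWithin_le_nhds (s := Set.Ioi 0))).eventually (gt_mem_nhds hε)
      obtain ⟨δ, hδ1, hδ2⟩ := (ht'.and self_mem_nhdsWithin).exists
      exact ⟨δ, hδ2, hδ1⟩
    filter_upwards [hst δ hδ, hF, h.bd] with n h3 h4 h5
    rw [dist_zero_right, Real.norm_eq_abs]
    exact lt_of_le_of_lt (wcs (by filter_upwards [h5] with y hy using hy.1) (h.meas n) h4 h3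
      hb hB' (le_max_right _ _)).2 hδε
  have h3 := h1.add h2
  rw [add_zero] at h3
  refine h3.congr' ?_
  filter_upwards [hst 1 one_pos, hF, h.bd] with n h6 h4 h5
  rw [← integral_add]
  · refine integral_congr_ae (ae_of_all _ fun y => ?_)
    simp only [inner_sub_right]; ring
  · have := int_inner_of_memLp (h4.memLp (h.meas n) h5) hbG
    simpa only [e] using this
  · exact (wcs (by filter_upwards [h5] with y hy using hy.1) (h.meas n) h4 h6
      hb hB' (le_max_right _ _)).1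

omit [InnerProductSpace ℝ E] [NormedAddCommGroup E] in
/-- Multiplication by a fixed integrable function. -/
theorem mult_tendsto (h : WStar U ν K ρ ρ0) {z : ι → Y → ℝ} {D : ℝ}
    (hz : ∀ n, AEStronglyMeasurable (z n) ν)
    (hzD : ∀ᶠ n in (U : Filter ι), ∀ᵐ y ∂ν, 0 ≤ z n y ∧ z n y ≤ D)
    (hB : ∀ B, MeasurableSet B → ν B < ∞ →
      Tendsto (fun n => ∫ y in B, ρ n y * z n y ∂ν) U (𝓝 0))
    {f : Y → ℝ} (hf : Integrable f ν) :
    Tendsto (fun n => ∫ y, f y * (ρ n y * z n y) ∂ν) U (𝓝 0) := by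
  have hK : ∀ᶠ n in (U : Filter ι), ∀ᵐ y ∂ν, 0 ≤ ρ n y * z n y ∧ ρ n y * z n y ≤ |K| * |D| := by
    filter_upwards [h.bd, hzD] with n h1 h2
    filter_upwards [h1, h2] with y h3 h4
    exact ⟨mul_nonneg h3.1 h4.1, mul_le_mul (h3.2.trans (le_abs_self _))
      (h4.2.trans (le_abs_self _)) h4.1 (abs_nonneg _)⟩
  rw [Metric.tendsto_nhds]
  intro ε hε
  obtain ⟨δ, hδ, hδε⟩ : ∃ δ > 0, |K| * |D| * δ < ε / 2 := by
    refine ⟨ε / 2 / (|K| * |D| + 1), by positivity, ?_⟩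
    rw [mul_div_assoc', div_lt_iff₀ (by positivity)]
    nlinarith
  obtain ⟨g, hg, hgm⟩ := (memLp_one_iff_integrable.2 hf).exists_simpleFunc_eLpNorm_sub_lt
    ENNReal.one_ne_top (ε := ENNReal.ofReal δ) (by simpa using hδ)
  obtain ⟨G, hG⟩ : ∃ G : ℝ, ∀ y, ‖g y‖ ≤ G := by
    obtain ⟨G, hG⟩ := (g.finite_range.image (fun x => ‖x‖)).bddAbove
    exact ⟨G, fun y => hG ⟨g y, ⟨y, rfl⟩, rfl⟩⟩
  have hG0 : 0 ≤ |G| := abs_nonneg _
  let S : Set Y := Function.support g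
  have hS : MeasurableSet S := g.measurableSet_support
  have hSf : ν S < ∞ := SimpleFunc.measure_support_lt_top_of_memLp g hgm one_ne_zero
    ENNReal.one_ne_top
  have hgi : Integrable g ν := memLp_one_iff_integrable.1 hgm
  have hfg : ∫ y, ‖f y - g y‖ ∂ν ≤ δ := by
    have h0 := integral_norm_eq_lintegral_enorm (hf.1.sub hgi.1)
    simp only [Pi.sub_apply] at h0
    rw [h0]
    have h1 : ∫⁻ y, ‖f y - g y‖ₑ ∂ν = eLpNorm (f - ⇑g) 1 ν := by
      rw [eLpNorm_one_eq_lintegral_enorm]; rfl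
    have h2 : ∫⁻ y, ‖f y - g y‖ₑ ∂ν ≤ ENNReal.ofReal δ := by
      rw [h1]; exact hg.le
    exact ENNReal.toReal_le_of_le_ofReal hδ.le h2
  have hBS := hB S hS hSf
  have hBS' : ∀ᶠ n in (U : Filter ι), |G| * ∫ y in S, ρ n y * z n y ∂ν < ε / 2 := by
    have := hBS.const_mul |G|
    rw [mul_zero] at this
    exact this.eventually (gt_mem_nhds (by positivity))
  filter_upwards [hBS', hK] with n h1 h2
  rw [dist_zero_right]
  have hmz : AEStronglyMeasurable (fun y => ρ n y * z n y) ν := (h.meas n).mul (hz n)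
  have hbz : ∀ᵐ y ∂ν, ‖ρ n y * z n y‖ ≤ |K| * |D| := by
    filter_upwards [h2] with y hy
    rw [Real.norm_of_nonneg hy.1]; exact hy.2
  have i1 : Integrable (fun y => (f y - g y) * (ρ n y * z n y)) ν :=
    (hf.sub hgi).mul_bdd hmz hbz
  have i2 : Integrable (fun y => g y * (ρ n y * z n y)) ν := hgi.mul_bdd hmz hbz
  have e1 : ∫ y, f y * (ρ n y * z n y) ∂ν = ∫ y, (f y - g y) * (ρ n y * z n y) ∂ν
      + ∫ y, g y * (ρ n y * z n y) ∂ν := by
    rw [← integral_add i1 i2]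
    refine integral_congr_ae (ae_of_all _ fun y => ?_)
    simp only; ring
  have e2 : ‖∫ y, (f y - g y) * (ρ n y * z n y) ∂ν‖ ≤ |K| * |D| * δ := by
    refine (norm_integral_le_integral_norm _).trans ?_
    calc ∫ y, ‖(f y - g y) * (ρ n y * z n y)‖ ∂ν
        ≤ ∫ y, |K| * |D| * ‖f y - g y‖ ∂ν := by
          refine integral_mono_ae i1.norm ((hf.sub hgi).norm.const_mul _) ?_
          filter_upwards [hbz] with y hy
          rw [norm_mul, mul_comm]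
          exact mul_le_mul_of_nonneg_right hy (norm_nonneg _)
      _ = |K| * |D| * ∫ y, ‖f y - g y‖ ∂ν := integral_const_mul _ _
      _ ≤ |K| * |D| * δ := mul_le_mul_of_nonneg_left hfg (by positivity)
  have e3 : ‖∫ y, g y * (ρ n y * z n y) ∂ν‖ ≤ |G| * ∫ y in S, ρ n y * z n y ∂ν := by
    have h3 : ∫ y, g y * (ρ n y * z n y) ∂ν = ∫ y in S, g y * (ρ n y * z n y) ∂ν := by
      rw [setIntegral_eq_integral_of_forall_compl_eq_zero]
      intro y hy
      have : g y = 0 := by simpa [S] using hy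
      rw [this, zero_mul]
    rw [h3, ← integral_const_mul]
    refine (norm_integral_le_integral_norm _).trans ?_
    refine integral_mono_ae i2.norm.integrableOn ?_ ?_
    · refine Integrable.const_mul ?_ _
      refine Integrable.mono' (g := fun _ => |K| * |D|)
        (integrableOn_const hSf.ne) hmz.restrict ?_
      exact ae_restrict_of_ae hbz
    · refine ae_restrict_of_ae ?_
      filter_upwards [h2] with y hy
      rw [norm_mul, Real.norm_of_nonneg hy.1]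
      exact mul_le_mul_of_nonneg_right ((hG y).trans (le_abs_self _)) hy.1
  rw [e1]
  calc ‖∫ y, (f y - g y) * (ρ n y * z n y) ∂ν + ∫ y, g y * (ρ n y * z n y) ∂ν‖
      ≤ |K| * |D| * δ + |G| * ∫ y in S, ρ n y * z n y ∂ν := (norm_add_le _ _).trans (add_le_add e2 e3)
    _ < ε := by linarith


/-- Convergence of the weighted norms implies convergence of all weighted local energies. -/
theorem WLim.sq_tendsto {F0 : Y → E} (hw : WLim U ν ρ ρ0 F F0) (h : WStar U ν K ρ ρ0)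
    (hF : ∀ᶠ n in (U : Filter ι), EBd ν C (ρ n) (F n))
    (hsup : ∀ δ > 0, ∀ᶠ n in (U : Filter ι),
      ∫ y, ρ n y * ‖F n y‖ ^ 2 ∂ν ≤ ∫ y, ρ0 y * ‖F0 y‖ ^ 2 ∂ν + δ)
    {b : Y → ℝ} {B : ℝ} (hb : AEStronglyMeasurable b ν) (hB : ∀ᵐ y ∂ν, ‖b y‖ ≤ B) :
    Tendsto (fun n => ∫ y, b y * (ρ n y * ‖F n y‖ ^ 2) ∂ν) U
      (𝓝 (∫ y, b y * (ρ0 y * ‖F0 y‖ ^ 2) ∂ν)) := by
  have h0 := hw.ebd h hF
  -- the case `0 ≤ b ≤ 1`
  have key : ∀ b : Y → ℝ, AEStronglyMeasurable b ν → (∀ᵐ y ∂ν, 0 ≤ b y ∧ b y ≤ 1) →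
      Tendsto (fun n => ∫ y, b y * (ρ n y * ‖F n y‖ ^ 2) ∂ν) U
        (𝓝 (∫ y, b y * (ρ0 y * ‖F0 y‖ ^ 2) ∂ν)) := by
    intro b hb hB
    have hb' : AEStronglyMeasurable (fun y => 1 - b y) ν := aestronglyMeasurable_const.sub hb
    have hB' : ∀ᵐ y ∂ν, 0 ≤ 1 - b y ∧ 1 - b y ≤ 1 := by
      filter_upwards [hB] with y hy
      exact ⟨by linarith [hy.2], by linarith [hy.1]⟩
    have nb : ∀ᵐ y ∂ν, ‖b y‖ ≤ 1 := by
      filter_upwards [hB] with y hy
      rw [Real.norm_of_nonneg hy.1]; exact hy.2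
    have nb' : ∀ᵐ y ∂ν, ‖1 - b y‖ ≤ 1 := by
      filter_upwards [hB'] with y hy
      rw [Real.norm_of_nonneg hy.1]; exact hy.2
    have low : ∀ b : Y → ℝ, AEStronglyMeasurable b ν → (∀ᵐ y ∂ν, 0 ≤ b y ∧ b y ≤ 1) → ∀ δ > 0,
        ∀ᶠ n in (U : Filter ι), ∫ y, b y * (ρ0 y * ‖F0 y‖ ^ 2) ∂ν - δ
          < ∫ y, b y * (ρ n y * ‖F n y‖ ^ 2) ∂ν := by
      intro b hb hB δ hδ
      by_contra hcon
      rw [← Ultrafilter.eventually_not] at hcon
      have := (hw.lsc h hF hb hB (L := ∫ y, b y * (ρ0 y * ‖F0 y‖ ^ 2) ∂ν - δ)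
        (by filter_upwards [hcon] with n hn using not_lt.1 hn)).2
      linarith
    have hsum0 : ∫ y, b y * (ρ0 y * ‖F0 y‖ ^ 2) ∂ν + ∫ y, (1 - b y) * (ρ0 y * ‖F0 y‖ ^ 2) ∂ν
        = ∫ y, ρ0 y * ‖F0 y‖ ^ 2 ∂ν := by
      rw [← integral_add (h0.int.bdd_mul hb nb) (h0.int.bdd_mul hb' nb')]
      refine integral_congr_ae (ae_of_all _ fun y => ?_)
      simp only; ring
    rw [Metric.tendsto_nhds]
    intro ε hε
    filter_upwards [hsup (ε / 3) (by positivity), low _ hb hB (ε / 3) (by positivity),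
      low _ hb' hB' (ε / 3) (by positivity), hF] with n h1 h2 h3 h4
    have hsum : ∫ y, b y * (ρ n y * ‖F n y‖ ^ 2) ∂ν + ∫ y, (1 - b y) * (ρ n y * ‖F n y‖ ^ 2) ∂ν
        = ∫ y, ρ n y * ‖F n y‖ ^ 2 ∂ν := by
      rw [← integral_add (h4.int.bdd_mul hb nb) (h4.int.bdd_mul hb' nb')]
      refine integral_congr_ae (ae_of_all _ fun y => ?_)
      simp only; ring
    rw [Real.dist_eq, abs_lt]
    constructor <;> linarith
  have hBp : ∀ᵐ y ∂ν, ‖b y‖ ≤ |B| + 1 := by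
    filter_upwards [hB] with y hy
    exact hy.trans (by linarith [le_abs_self B])
  have hpos : 0 < |B| + 1 := by positivity
  have hbm : AEStronglyMeasurable (fun y => (b y + (|B| + 1)) / (2 * (|B| + 1))) ν := by
    simp only [div_eq_mul_inv]
    exact (hb.add aestronglyMeasurable_const).mul aestronglyMeasurable_const
  have k1 := key (fun y => (b y + (|B| + 1)) / (2 * (|B| + 1))) hbm (by
      filter_upwards [hBp] with y hy
      have := abs_le.1 hy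
      constructor
      · exact div_nonneg (by linarith [this.1]) (by positivity)
      · rw [div_le_one (by positivity)]; linarith [this.2])
  have k2 := key (fun _ => 1) aestronglyMeasurable_const (ae_of_all _ fun _ => ⟨zero_le_one, le_rfl⟩)
  have k3 := (k1.const_mul (2 * (|B| + 1))).sub (k2.const_mul (|B| + 1))
  have e : ∀ (r : Y → ℝ) (f : Y → E), EBd ν C r f →
      2 * (|B| + 1) * ∫ y, (b y + (|B| + 1)) / (2 * (|B| + 1)) * (r y * ‖f y‖ ^ 2) ∂ν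
        - (|B| + 1) * ∫ y, 1 * (r y * ‖f y‖ ^ 2) ∂ν = ∫ y, b y * (r y * ‖f y‖ ^ 2) ∂ν := by
    intro r f hf
    have i1 : Integrable (fun y => (b y + (|B| + 1)) / (2 * (|B| + 1)) * (r y * ‖f y‖ ^ 2)) ν := by
      refine hf.int.bdd_mul hbm (c := 1) ?_
      filter_upwards [hBp] with y hy
      have := abs_le.1 hy
      rw [Real.norm_of_nonneg (div_nonneg (by linarith [this.1]) (by positivity)),
        div_le_one (by positivity)]
      linarith [this.2]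
    have i2 : Integrable (fun y => 1 * (r y * ‖f y‖ ^ 2)) ν := by simpa using hf.int
    rw [← integral_const_mul, ← integral_const_mul,
      ← integral_sub (i1.const_mul _) (i2.const_mul _)]
    refine integral_congr_ae (ae_of_all _ fun y => ?_)
    simp only
    field_simp
    ring
  rw [e ρ0 F0 h0] at k3
  refine k3.congr' ?_
  filter_upwards [hF] with n hn
  exact e _ _ hn

/-- Strong convergence of bounded weights. -/
theorem WLim.diff_tendsto {w : ι → Y → ℝ} {w0 : Y → ℝ} {K' : ℝ} (hw : WLim U ν ρ ρ0 w w0)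
    (h : WStar U ν K ρ ρ0) (hF : ∀ᶠ n in (U : Filter ι), EBd ν C (ρ n) (w n))
    (hsup : ∀ δ > 0, ∀ᶠ n in (U : Filter ι),
      ∫ y, ρ n y * ‖w n y‖ ^ 2 ∂ν ≤ ∫ y, ρ0 y * ‖w0 y‖ ^ 2 ∂ν + δ)
    (hwm : ∀ n, AEStronglyMeasurable (w n) ν)
    (hK' : ∀ᶠ n in (U : Filter ι), ∀ᵐ y ∂ν, |w n y| ≤ K') (hK0 : ∀ᵐ y ∂ν, |w0 y| ≤ K')
    {g : Y → ℝ} (hg : Integrable g ν) :
    Tendsto (fun n => ∫ y, g y * (ρ n y * (w n y - w0 y) ^ 2) ∂ν) U (𝓝 0) := by
  refine mult_tendsto h (z := fun n y => (w n y - w0 y) ^ 2) (D := (2 * K') ^ 2)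
    (fun n => ((hwm n).sub hw.meas).pow 2) ?_ ?_ hg
  · filter_upwards [hK'] with n hn
    filter_upwards [hn, hK0] with y h1 h2
    refine ⟨by positivity, ?_⟩
    have h3 := abs_le.1 h1
    have h4 := abs_le.1 h2
    exact sq_le_sq' (by linarith [h3.1, h4.2]) (by linarith [h3.2, h4.1])
  · intro B hB hBf
    have hi1 : AEStronglyMeasurable (B.indicator fun _ => (1 : ℝ)) ν :=
      (aestronglyMeasurable_const (b := (1:ℝ))).indicator hB
    have hi2 : ∀ y, ‖B.indicator (fun _ => (1 : ℝ)) y‖ ≤ 1 := by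
      intro y
      by_cases hy : y ∈ B <;> simp [hy]
    have e1 := hw.sq_tendsto h hF hsup hi1 (ae_of_all _ hi2)
    -- the cross term
    have hm1 : MemLp (fun y => B.indicator (fun _ => (1 : ℝ)) y * w0 y) 2 ν := by
      have a1 : MemLp (B.indicator fun _ => K') 2 ν := memLp_indicator_const 2 hB K' (Or.inr hBf.ne)
      refine a1.mono (hi1.mul hw.meas) ?_
      filter_upwards [hK0] with y hy
      by_cases hyB : y ∈ B
      · simp only [hyB, Set.indicator_of_mem, one_mul, Real.norm_eq_abs]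
        exact hy.trans (le_abs_self _)
      · simp [hyB]
    have e2 := hw.lim _ hm1
    have hi3 : Integrable (fun y => B.indicator (fun _ => (1 : ℝ)) y * w0 y ^ 2) ν := by
      have a1 : Integrable (B.indicator fun _ => K' ^ 2) ν :=
        (integrable_indicator_iff hB).2 (integrableOn_const hBf.ne)
      refine a1.mono' (hi1.mul (hw.meas.pow 2)) ?_
      filter_upwards [hK0] with y hy
      by_cases hyB : y ∈ B
      · simp only [hyB, Set.indicator_of_mem, one_mul, Real.norm_eq_abs]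
        rw [abs_of_nonneg (by positivity), ← sq_abs]
        exact pow_le_pow_left₀ (abs_nonneg _) hy 2
      · simp [hyB]
    have e3 := h.lim _ hi3
    have e4 := (e1.sub (e2.const_mul 2)).add e3
    have hlim0 : ∫ y, B.indicator (fun _ => (1 : ℝ)) y * (ρ0 y * ‖w0 y‖ ^ 2) ∂ν
        - 2 * ∫ y, ⟪ρ0 y • w0 y, B.indicator (fun _ => (1 : ℝ)) y * w0 y⟫_ℝ ∂ν
        + ∫ y, ρ0 y * (B.indicator (fun _ => (1 : ℝ)) y * w0 y ^ 2) ∂ν = 0 := by
      have a1 : ∀ y, ⟪ρ0 y • w0 y, B.indicator (fun _ => (1 : ℝ)) y * w0 y⟫_ℝ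
          = B.indicator (fun _ => (1 : ℝ)) y * (ρ0 y * ‖w0 y‖ ^ 2) := by
        intro y
        simp only [smul_eq_mul, inner_re, Real.norm_eq_abs, sq_abs]
        ring
      have a2 : ∀ y, ρ0 y * (B.indicator (fun _ => (1 : ℝ)) y * w0 y ^ 2)
          = B.indicator (fun _ => (1 : ℝ)) y * (ρ0 y * ‖w0 y‖ ^ 2) := by
        intro y
        simp only [Real.norm_eq_abs, sq_abs]
        ring
      simp only [a1, a2]
      ring
    rw [hlim0] at e4
    refine e4.congr' ?_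
    filter_upwards [hF, h.bd] with n h1 h2
    have j1 : Integrable (fun y => B.indicator (fun _ => (1 : ℝ)) y * (ρ n y * ‖w n y‖ ^ 2)) ν :=
      h1.int.bdd_mul hi1 (ae_of_all _ hi2)
    have j2 : Integrable (fun y => ⟪ρ n y • w n y, B.indicator (fun _ => (1 : ℝ)) y * w0 y⟫_ℝ) ν :=
      int_inner_of_memLp (h1.memLp (h.meas n) h2) hm1
    have j3 : Integrable (fun y => ρ n y * (B.indicator (fun _ => (1 : ℝ)) y * w0 y ^ 2)) ν := by
      refine hi3.bdd_mul (h.meas n) (c := K) ?_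
      filter_upwards [h2] with y hy
      rw [Real.norm_of_nonneg hy.1]; exact hy.2
    have j12 : Integrable (fun y => B.indicator (fun _ => (1 : ℝ)) y * (ρ n y * ‖w n y‖ ^ 2)
        - 2 * ⟪ρ n y • w n y, B.indicator (fun _ => (1 : ℝ)) y * w0 y⟫_ℝ) ν :=
      j1.sub (j2.const_mul 2)
    rw [← integral_const_mul, ← integral_sub j1 (j2.const_mul 2), ← integral_add
      j12 j3, ← integral_indicator hB]
    refine integral_congr_ae (ae_of_all _ fun y => ?_)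
    by_cases hyB : y ∈ B
    · simp only [hyB, Set.indicator_of_mem, one_mul, smul_eq_mul, inner_re,
        Real.norm_eq_abs, sq_abs]
      ring
    · simp [hyB]


/-- Products with strongly convergent bounded weights. -/
theorem WLim.mul_weight {F0 : Y → E} (hF : WLim U ν ρ ρ0 F F0) (h : WStar U ν K ρ ρ0)
    (hFC : ∀ᶠ n in (U : Filter ι), EBd ν C (ρ n) (F n))
    {w : ι → Y → ℝ} {w0 : Y → ℝ} {K' : ℝ} (hwm : ∀ n, AEStronglyMeasurable (w n) ν)
    (hw0m : AEStronglyMeasurable w0 ν)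
    (hK' : ∀ᶠ n in (U : Filter ι), ∀ᵐ y ∂ν, |w n y| ≤ K') (hK0 : ∀ᵐ y ∂ν, |w0 y| ≤ K')
    (hd : ∀ g : Y → ℝ, Integrable g ν →
      Tendsto (fun n => ∫ y, g y * (ρ n y * (w n y - w0 y) ^ 2) ∂ν) U (𝓝 0)) :
    WLim U ν ρ ρ0 (fun n y => w n y • F n y) (fun y => w0 y • F0 y) where
  meas := hw0m.smul hF.meas
  mem := by
    have := memLp_bdd_smul hF.mem hw0m (c1 := K') (by simpa only [Real.norm_eq_abs] using hK0)
    simpa only [smul_comm (w0 _)] using this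
  lim := fun Φ hΦ => by
    have nK0 : ∀ᵐ y ∂ν, ‖w0 y‖ ≤ K' := by simpa only [Real.norm_eq_abs] using hK0
    have hΦ2 := (memLp_two_iff_integrable_sq_norm hΦ.1).1 hΦ
    have e1 := hF.lim _ (memLp_bdd_smul hΦ hw0m nK0)
    have e : ∀ (r : ℝ) (v w : E) (c : ℝ), ⟪r • (c • v), w⟫_ℝ = ⟪r • v, c • w⟫_ℝ := by
      intro r v w c
      rw [smul_comm, real_inner_smul_left, real_inner_smul_right]
    simp only [e]
    -- the difference
    have hfield : ∀ n, (∀ᵐ y ∂ν, |w n y| ≤ K') → (∀ᵐ y ∂ν, 0 ≤ ρ n y ∧ ρ n y ≤ K) →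
        EBd ν (∫ y, ‖Φ y‖ ^ 2 * (ρ n y * (w n y - w0 y) ^ 2) ∂ν) (ρ n)
          (fun y => (w n y - w0 y) • Φ y) := by
      intro n h1 h2
      have he : (fun y => ρ n y * ‖(w n y - w0 y) • Φ y‖ ^ 2)
          = fun y => ‖Φ y‖ ^ 2 * (ρ n y * (w n y - w0 y) ^ 2) := by
        funext y
        rw [norm_smul, mul_pow, Real.norm_eq_abs, sq_abs]; ring
      refine ⟨((hwm n).sub hw0m).smul hΦ.1, ?_, ?_⟩
      · rw [he]
        refine hΦ2.mul_bdd (c := |K| * (2 * K') ^ 2)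
          ((h.meas n).mul (((hwm n).sub hw0m).pow 2)) ?_
        filter_upwards [h1, h2, hK0] with y a1 a2 a3
        have b1 := abs_le.1 a1
        have b2 := abs_le.1 a3
        have b3 : (w n y - w0 y) ^ 2 ≤ (2 * K') ^ 2 :=
          sq_le_sq' (by linarith [b1.1, b2.2]) (by linarith [b1.2, b2.1])
        rw [Real.norm_of_nonneg (mul_nonneg a2.1 (by positivity))]
        exact mul_le_mul (a2.2.trans (le_abs_self _)) b3 (by positivity) (abs_nonneg _)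
      · rw [he]
    have e2 : Tendsto (fun n => ∫ y, (1:ℝ) * (ρ n y * ⟪F n y, (w n y - w0 y) • Φ y⟫_ℝ) ∂ν) U
        (𝓝 0) := by
      have hs : Tendsto (fun n => 1 * (√C * √(∫ y, ‖Φ y‖ ^ 2 * (ρ n y * (w n y - w0 y) ^ 2) ∂ν))) U
          (𝓝 0) := by
        have := ((Real.continuous_sqrt.tendsto 0).comp (hd _ hΦ2)).const_mul √C
        rw [Real.sqrt_zero, mul_zero] at this
        simpa only [one_mul, Function.comp_def] using this
      refine squeeze_zero_norm' ?_ hs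
      filter_upwards [hFC, h.bd, hK'] with n h1 h2 h3
      rw [Real.norm_eq_abs]
      exact (wcs (b := fun _ => (1:ℝ)) (by filter_upwards [h2] with y hy using hy.1) (h.meas n) h1
        (hfield n h3 h2) aestronglyMeasurable_const (ae_of_all _ fun _ => by simp) zero_le_one).2
    have e3 := e1.add e2
    rw [add_zero] at e3
    refine e3.congr' ?_
    filter_upwards [hFC, h.bd, hK'] with n h1 h2 h3
    have i1 : Integrable (fun y => ⟪ρ n y • F n y, w0 y • Φ y⟫_ℝ) ν :=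
      int_inner_of_memLp (h1.memLp (h.meas n) h2) (memLp_bdd_smul hΦ hw0m nK0)
    have i2 := (wcs (b := fun _ => (1:ℝ)) (by filter_upwards [h2] with y hy using hy.1)
      (h.meas n) h1 (hfield n h3 h2) aestronglyMeasurable_const (ae_of_all _ fun _ => by simp)
      zero_le_one).1
    rw [← integral_add i1 i2]
    refine integral_congr_ae (ae_of_all _ fun y => ?_)
    simp only [real_inner_smul_left, real_inner_smul_right]
    ring

/-- The weights `ρ n w n`. -/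
theorem WStar.mul_weight (h : WStar U ν K ρ ρ0)
    {w : ι → Y → ℝ} {w0 : Y → ℝ} {K' : ℝ} (hwm : ∀ n, AEStronglyMeasurable (w n) ν)
    (hw0m : AEStronglyMeasurable w0 ν)
    (hK' : ∀ᶠ n in (U : Filter ι), ∀ᵐ y ∂ν, 0 ≤ w n y ∧ w n y ≤ K')
    (hK0 : ∀ᵐ y ∂ν, 0 ≤ w0 y ∧ w0 y ≤ K')
    (hd : ∀ g : Y → ℝ, Integrable g ν →
      Tendsto (fun n => ∫ y, g y * (ρ n y * (w n y - w0 y) ^ 2) ∂ν) U (𝓝 0)) :
    WStar U ν (K * K') (fun n y => ρ n y * w n y) (fun y => ρ0 y * w0 y) where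
  meas := fun n => (h.meas n).mul (hwm n)
  meas0 := h.meas0.mul hw0m
  bd := by
    filter_upwards [h.bd, hK'] with n h1 h2
    filter_upwards [h1, h2] with y a1 a2
    exact ⟨mul_nonneg a1.1 a2.1, mul_le_mul a1.2 a2.2 a2.1 (a1.1.trans a1.2)⟩
  bd0 := by
    filter_upwards [h.bd0, hK0] with y a1 a2
    exact ⟨mul_nonneg a1.1 a2.1, mul_le_mul a1.2 a2.2 a2.1 (a1.1.trans a1.2)⟩
  lim := fun g hg => by
    have nK0 : ∀ᵐ y ∂ν, ‖w0 y‖ ≤ K' := by
      filter_upwards [hK0] with y hy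
      rw [Real.norm_of_nonneg hy.1]; exact hy.2
    have hw0g : Integrable (fun y => w0 y * g y) ν := hg.bdd_mul hw0m nK0
    have e1 := h.lim _ hw0g
    -- for `δ > 0`: `|w n - w0| ≤ δ + (w n - w0)² / δ`
    have e2 : Tendsto (fun n => ∫ y, g y * (ρ n y * (w n y - w0 y)) ∂ν) U (𝓝 0) := by
      rw [Metric.tendsto_nhds]
      intro ε hε
      set G := ∫ y, |g y| ∂ν with hG
      have hG0 : 0 ≤ G := integral_nonneg fun y => abs_nonneg _
      obtain ⟨δ, hδ, hδε⟩ : ∃ δ > 0, |K| * G * δ < ε / 2 := by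
        refine ⟨ε / 2 / (|K| * G + 1), by positivity, ?_⟩
        rw [mul_div_assoc', div_lt_iff₀ (by positivity)]
        nlinarith
      have e3 := (hd _ hg.abs).const_mul δ⁻¹
      rw [mul_zero] at e3
      filter_upwards [e3.eventually (gt_mem_nhds (half_pos hε)), h.bd, hK'] with n h1 h2 h3
      rw [dist_zero_right]
      have j0 : AEStronglyMeasurable (fun y => w n y - w0 y) ν := (hwm n).sub hw0m
      have jb : ∀ᵐ y ∂ν, |w n y - w0 y| ≤ 2 * |K'| := by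
        filter_upwards [h3, hK0] with y a1 a2
        rw [abs_le]
        have := le_abs_self K'
        constructor <;> linarith [a1.1, a1.2, a2.1, a2.2]
      have j1 : Integrable (fun y => g y * (ρ n y * (w n y - w0 y))) ν := by
        refine hg.mul_bdd (c := |K| * (2 * |K'|)) ((h.meas n).mul j0) ?_
        filter_upwards [h2, jb] with y a1 a2
        rw [norm_mul, Real.norm_of_nonneg a1.1]
        exact mul_le_mul (a1.2.trans (le_abs_self _)) a2 (norm_nonneg _) (abs_nonneg _)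
      have j2 : Integrable (fun y => |g y| * (ρ n y * (w n y - w0 y) ^ 2)) ν := by
        refine hg.abs.mul_bdd (c := |K| * (2 * |K'|) ^ 2) ((h.meas n).mul (j0.pow 2)) ?_
        filter_upwards [h2, jb] with y a1 a2
        rw [norm_mul, Real.norm_of_nonneg a1.1]
        refine mul_le_mul (a1.2.trans (le_abs_self _)) ?_ (norm_nonneg _) (abs_nonneg _)
        rw [Real.norm_eq_abs, abs_of_nonneg (by positivity), ← sq_abs]
        exact pow_le_pow_left₀ (abs_nonneg _) a2 2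
      calc ‖∫ y, g y * (ρ n y * (w n y - w0 y)) ∂ν‖
          ≤ ∫ y, ‖g y * (ρ n y * (w n y - w0 y))‖ ∂ν := norm_integral_le_integral_norm _
        _ ≤ ∫ y, (|K| * δ * |g y| + δ⁻¹ * (|g y| * (ρ n y * (w n y - w0 y) ^ 2))) ∂ν := by
            refine integral_mono_ae j1.norm ((hg.abs.const_mul _).add (j2.const_mul _)) ?_
            filter_upwards [h2] with y a1
            simp only [norm_mul, Real.norm_eq_abs, abs_of_nonneg a1.1]
            have k1 : |w n y - w0 y| ≤ δ + δ⁻¹ * (w n y - w0 y) ^ 2 := by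
              have hx := abs_nonneg (w n y - w0 y)
              rw [← sq_abs]
              set x := |w n y - w0 y|
              have : 0 ≤ δ⁻¹ * (x - δ / 2) ^ 2 := by positivity
              have k : δ⁻¹ * (x - δ / 2) ^ 2 = δ⁻¹ * x ^ 2 - x + δ / 4 := by
                field_simp; ring
              nlinarith
            calc |g y| * (ρ n y * |w n y - w0 y|)
                ≤ |g y| * (ρ n y * (δ + δ⁻¹ * (w n y - w0 y) ^ 2)) :=
                  mul_le_mul_of_nonneg_left (mul_le_mul_of_nonneg_left k1 a1.1) (abs_nonneg _)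
              _ = ρ n y * (|g y| * δ) + δ⁻¹ * (|g y| * (ρ n y * (w n y - w0 y) ^ 2)) := by ring
              _ ≤ |K| * (|g y| * δ) + δ⁻¹ * (|g y| * (ρ n y * (w n y - w0 y) ^ 2)) := by
                  have := mul_le_mul_of_nonneg_right (a1.2.trans (le_abs_self K))
                    (mul_nonneg (abs_nonneg (g y)) hδ.le)
                  linarith
              _ = _ := by ring
        _ = |K| * δ * G + δ⁻¹ * ∫ y, |g y| * (ρ n y * (w n y - w0 y) ^ 2) ∂ν := by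
            rw [integral_add (hg.abs.const_mul _) (j2.const_mul _), integral_const_mul,
              integral_const_mul]
        _ < ε := by nlinarith
    have e3 := e1.add e2
    rw [add_zero] at e3
    have e4 : ∫ y, ρ0 y * w0 y * g y ∂ν = ∫ y, ρ0 y * (w0 y * g y) ∂ν :=
      integral_congr_ae (ae_of_all _ fun y => by simp only; ring)
    rw [e4]
    refine e3.congr' ?_
    filter_upwards [h.bd, hK'] with n h2 h3
    have i1 : Integrable (fun y => ρ n y * (w0 y * g y)) ν := by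
      refine hw0g.bdd_mul (h.meas n) (c := K) ?_
      filter_upwards [h2] with y hy
      rw [Real.norm_of_nonneg hy.1]; exact hy.2
    have i2 : Integrable (fun y => g y * (ρ n y * (w n y - w0 y))) ν := by
      refine hg.mul_bdd (c := |K| * (|K'| + |K'|)) ((h.meas n).mul ((hwm n).sub hw0m)) ?_
      filter_upwards [h2, h3, hK0] with y a1 a2 a3
      rw [norm_mul, Real.norm_of_nonneg a1.1]
      refine mul_le_mul (a1.2.trans (le_abs_self _)) ?_ (norm_nonneg _) (abs_nonneg _)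
      refine (norm_sub_le _ _).trans (add_le_add ?_ ?_)
      · rw [Real.norm_of_nonneg a2.1]; exact a2.2.trans (le_abs_self _)
      · rw [Real.norm_of_nonneg a3.1]; exact a3.2.trans (le_abs_self _)
    rw [← integral_add i1 i2]
    refine integral_congr_ae (ae_of_all _ fun y => ?_)
    simp only; ring

/-- The weak limit with respect to the new weights. -/
theorem WLim.change {F0 : Y → E} {w : ι → Y → ℝ} {w0 : Y → ℝ} (hm : AEStronglyMeasurable F0 ν)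
    (hF : WLim U ν ρ ρ0 (fun n y => w n y • F n y) (fun y => w0 y • F0 y)) :
    WLim U ν (fun n y => ρ n y * w n y) (fun y => ρ0 y * w0 y) F F0 where
  meas := hm
  mem := by simpa only [smul_smul] using hF.mem
  lim := fun Φ hΦ => by simpa only [smul_smul] using hF.lim Φ hΦ


omit [InnerProductSpace ℝ E] [NormedAddCommGroup E] in
/-- A function with nonnegative integrals against nonnegative bounded functions. -/
theorem nonneg_of_forall_bdd {f : Y → ℝ} (hf : Integrable f ν)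
    (h : ∀ c : Y → ℝ, AEStronglyMeasurable c ν → (∀ y, 0 ≤ c y ∧ c y ≤ 1) →
      0 ≤ ∫ y, c y * f y ∂ν) : ∀ᵐ y ∂ν, 0 ≤ f y := by
  refine ae_nonneg_of_forall_setIntegral_nonneg hf fun s hs _ => ?_
  have := h (s.indicator fun _ => 1) ((aestronglyMeasurable_const (b := (1:ℝ))).indicator hs)
    (fun y => by by_cases hy : y ∈ s <;> simp [hy])
  rw [← integral_indicator hs]
  refine this.trans (le_of_eq (integral_congr_ae (ae_of_all _ fun y => ?_)))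
  by_cases hy : y ∈ s <;> simp [hy]

/-- Symmetry passes to the limit. -/
theorem WLim.symm {F' : ι → Y → E} {F0 F1 : Y → E} (h : WLim U ν ρ ρ0 F F0)
    (h' : WLim U ν ρ ρ0 F' F1) {X X' : Y → E} (hX : MemLp X 2 ν) (hX' : MemLp X' 2 ν)
    (he : ∀ᶠ n in (U : Filter ι), ∀ᵐ y ∂ν, ⟪F n y, X' y⟫_ℝ = ⟪F' n y, X y⟫_ℝ) :
    ∀ᵐ y ∂ν, ρ0 y ≠ 0 → ⟪F0 y, X' y⟫_ℝ = ⟪F1 y, X y⟫_ℝ := by
  have key : ∀ c : Y → ℝ, AEStronglyMeasurable c ν → (∀ y, 0 ≤ c y ∧ c y ≤ 1) →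
      ∫ y, c y * (⟪ρ0 y • F0 y, X' y⟫_ℝ - ⟪ρ0 y • F1 y, X y⟫_ℝ) ∂ν = 0 := by
    intro c hc hc1
    have nc : ∀ᵐ y ∂ν, ‖c y‖ ≤ 1 := ae_of_all _ fun y => by
      rw [Real.norm_of_nonneg (hc1 y).1]; exact (hc1 y).2
    have a1 := h.lim _ (memLp_bdd_smul hX' hc nc)
    have a2 := h'.lim _ (memLp_bdd_smul hX hc nc)
    have a3 : Tendsto (fun n => ∫ y, ⟪ρ n y • F n y, c y • X' y⟫_ℝ ∂ν) U
        (𝓝 (∫ y, ⟪ρ0 y • F1 y, c y • X y⟫_ℝ ∂ν)) := by
      refine a2.congr' ?_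
      filter_upwards [he] with n hn
      refine integral_congr_ae ?_
      filter_upwards [hn] with y hy
      rw [real_inner_smul_left, real_inner_smul_left, real_inner_smul_right,
        real_inner_smul_right, hy]
    have a4 := tendsto_nhds_unique a1 a3
    have i1 := int_inner_of_memLp h.mem (memLp_bdd_smul hX' hc nc)
    have i2 := int_inner_of_memLp h'.mem (memLp_bdd_smul hX hc nc)
    have : ∀ y, c y * (⟪ρ0 y • F0 y, X' y⟫_ℝ - ⟪ρ0 y • F1 y, X y⟫_ℝ)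
        = ⟪ρ0 y • F0 y, c y • X' y⟫_ℝ - ⟪ρ0 y • F1 y, c y • X y⟫_ℝ := by
      intro y
      rw [real_inner_smul_right, real_inner_smul_right]; ring
    simp only [this]
    rw [integral_sub i1 i2, a4, sub_self]
  have hint : Integrable (fun y => ⟪ρ0 y • F0 y, X' y⟫_ℝ - ⟪ρ0 y • F1 y, X y⟫_ℝ) ν :=
    (int_inner_of_memLp h.mem hX').sub (int_inner_of_memLp h'.mem hX)
  have h1 := nonneg_of_forall_bdd hint (fun c hc hc1 => (key c hc hc1).ge)
  have h2 := nonneg_of_forall_bdd hint.neg (fun c hc hc1 => by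
    have := key c hc hc1
    simp only [Pi.neg_apply, mul_neg, integral_neg]
    rw [this]; simp)
  filter_upwards [h1, h2] with y a1 a2 hρ
  simp only [Pi.neg_apply, Left.nonneg_neg_iff] at a2
  have a3 := le_antisymm a2 a1
  rw [real_inner_smul_left, real_inner_smul_left, ← mul_sub, mul_eq_zero] at a3
  exact sub_eq_zero.1 (a3.resolve_left hρ)

/-- Nonnegativity passes to the limit. -/
theorem WLim.nonneg {Λ : ι → Y → ℝ} {Λ0 : Y → ℝ} (hΛ : WLim U ν ρ ρ0 Λ Λ0)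
    (hs : WStar U ν K ρ ρ0) (h0 : ∀ᶠ n in (U : Filter ι), ∀ᵐ y ∂ν, 0 ≤ Λ n y) :
    ∀ᵐ y ∂ν, ρ0 y ≠ 0 → 0 ≤ Λ0 y := by
  -- test with the negative part
  have hm : MemLp (fun y => max (-(ρ0 y • Λ0 y)) 0) 2 ν := by
    refine hΛ.mem.mono (hΛ.mem.1.neg.sup aestronglyMeasurable_const) (ae_of_all _ fun y => ?_)
    rw [Real.norm_of_nonneg (le_max_right _ _), Real.norm_eq_abs]
    exact max_le (neg_le_abs _) (abs_nonneg _)
  have a1 := hΛ.lim _ hm
  have a2 : 0 ≤ ∫ y, ⟪ρ0 y • Λ0 y, max (-(ρ0 y • Λ0 y)) 0⟫_ℝ ∂ν := by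
    refine ge_of_tendsto a1 ?_
    filter_upwards [h0, hs.bd] with n h1 h2
    refine integral_nonneg_of_ae ?_
    filter_upwards [h1, h2] with y b1 b2
    simp only [inner_re, smul_eq_mul, Pi.zero_apply]
    exact mul_nonneg (mul_nonneg b2.1 b1) (le_max_right _ _)
  have a3 : ∀ y, ⟪ρ0 y • Λ0 y, max (-(ρ0 y • Λ0 y)) 0⟫_ℝ = -(max (-(ρ0 y • Λ0 y)) 0 ^ 2) := by
    intro y
    rw [inner_re]
    rcases le_total (-(ρ0 y • Λ0 y)) 0 with h | h
    · rw [max_eq_right h]; ring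
    · rw [max_eq_left h]; ring
  simp only [a3] at a2
  rw [integral_neg, le_neg, neg_zero] at a2
  have hi : Integrable (fun y => max (-(ρ0 y • Λ0 y)) 0 ^ 2) ν := by
    have := (memLp_two_iff_integrable_sq_norm hm.1).1 hm
    simpa only [Real.norm_eq_abs, sq_abs] using this
  have a4 := (integral_eq_zero_iff_of_nonneg (fun y => by positivity) hi).1
    (le_antisymm a2 (integral_nonneg fun y => by positivity))
  filter_upwards [a4, hs.bd0] with y h1 h2 h3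
  have h4 : max (-(ρ0 y • Λ0 y)) 0 = 0 := (pow_eq_zero_iff two_ne_zero).1 h1
  have h5 : 0 ≤ ρ0 y * Λ0 y := by
    have := max_eq_right_iff.1 h4
    simpa using this
  exact nonneg_of_mul_nonneg_right h5 (lt_of_le_of_ne h2.1 (Ne.symm h3))

/-- A pointwise bound passes to the limit. -/
theorem WLim.bound {F0 : Y → E} {Λ : ι → Y → ℝ} {Λ0 : Y → ℝ} (h : WLim U ν ρ ρ0 F F0)
    (hΛ : WLim U ν ρ ρ0 Λ Λ0) (hs : WStar U ν K ρ ρ0)
    (hΛE : ∀ᶠ n in (U : Filter ι), EBd ν C (ρ n) (Λ n)) {C1 : ℝ}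
    (hF : ∀ᶠ n in (U : Filter ι), EBd ν C1 (ρ n) (F n))
    (hΛ0 : ∀ᵐ y ∂ν, ρ0 y ≠ 0 → 0 ≤ Λ0 y)
    {X : Y → ℝ} {L : ℝ} (hX : AEStronglyMeasurable X ν) (hXL : ∀ᵐ y ∂ν, 0 ≤ X y ∧ X y ≤ L)
    (he : ∀ᶠ n in (U : Filter ι), ∀ᵐ y ∂ν, ‖F n y‖ ≤ Λ n y * X y) :
    ∀ᵐ y ∂ν, ρ0 y ≠ 0 → ‖F0 y‖ ≤ Λ0 y * X y := by
  have nX : ∀ᵐ y ∂ν, ‖X y‖ ≤ L := by
    filter_upwards [hXL] with y hy
    rw [Real.norm_of_nonneg hy.1]; exact hy.2
  have hXG : MemLp (fun y => X y • ‖ρ0 y • F0 y‖) 2 ν := memLp_bdd_smul h.mem.norm hX nX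
  have hint : Integrable (fun y => ⟪ρ0 y • Λ0 y, X y • ‖ρ0 y • F0 y‖⟫_ℝ
      - ⟪ρ0 y • F0 y, ρ0 y • F0 y⟫_ℝ) ν :=
    (int_inner_of_memLp hΛ.mem hXG).sub (int_inner_of_memLp h.mem h.mem)
  have h1 := nonneg_of_forall_bdd hint (fun c hc hc1 => by
    have nc : ∀ᵐ y ∂ν, ‖c y‖ ≤ 1 := ae_of_all _ fun y => by
      rw [Real.norm_of_nonneg (hc1 y).1]; exact (hc1 y).2
    have a1 := h.lim _ (memLp_bdd_smul h.mem hc nc)
    have a2 := hΛ.lim _ (memLp_bdd_smul hXG hc nc)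
    have a3 := le_of_tendsto_of_tendsto a1 a2 (by
      filter_upwards [he, hs.bd, hΛE, hF] with n b1 b2 b3 b4
      refine integral_mono_ae (int_inner_of_memLp (b4.memLp (hs.meas n) b2)
        (memLp_bdd_smul h.mem hc nc)) (int_inner_of_memLp (b3.memLp (hs.meas n) b2)
        (memLp_bdd_smul hXG hc nc)) ?_
      filter_upwards [b1, b2] with y c1 c2
      simp only [smul_eq_mul, inner_re]
      calc ⟪ρ n y • F n y, c y • (ρ0 y • F0 y)⟫_ℝ
          ≤ ‖ρ n y • F n y‖ * ‖c y • (ρ0 y • F0 y)‖ := real_inner_le_norm _ _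
        _ = ρ n y * ‖F n y‖ * (c y * ‖ρ0 y • F0 y‖) := by
            rw [norm_smul, norm_smul (c y), Real.norm_of_nonneg c2.1,
              Real.norm_of_nonneg (hc1 y).1]
        _ ≤ ρ n y * (Λ n y * X y) * (c y * ‖ρ0 y • F0 y‖) :=
            mul_le_mul_of_nonneg_right (mul_le_mul_of_nonneg_left c1 c2.1)
              (mul_nonneg (hc1 y).1 (norm_nonneg _))
        _ = _ := by ring)
    have i1 := int_inner_of_memLp hΛ.mem (memLp_bdd_smul hXG hc nc)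
    have i2 := int_inner_of_memLp h.mem (memLp_bdd_smul h.mem hc nc)
    have e : ∀ y, c y * (⟪ρ0 y • Λ0 y, X y • ‖ρ0 y • F0 y‖⟫_ℝ - ⟪ρ0 y • F0 y, ρ0 y • F0 y⟫_ℝ)
        = ⟪ρ0 y • Λ0 y, c y • (X y • ‖ρ0 y • F0 y‖)⟫_ℝ
          - ⟪ρ0 y • F0 y, c y • (ρ0 y • F0 y)⟫_ℝ := by
      intro y
      rw [real_inner_smul_right (ρ0 y • Λ0 y) _ (c y),
        real_inner_smul_right (ρ0 y • F0 y) _ (c y)]
      ring
    simp only [e]
    rw [integral_sub i1 i2]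
    linarith)
  filter_upwards [h1, hs.bd0, hΛ0, hXL] with y a1 a2 a4 a5 hρ
  have hpos : 0 < ρ0 y := lt_of_le_of_ne a2.1 (Ne.symm hρ)
  simp only [smul_eq_mul, inner_re, real_inner_self_eq_norm_sq, norm_smul,
    Real.norm_of_nonneg a2.1] at a1
  have a3 : ρ0 y ^ 2 * ‖F0 y‖ * (Λ0 y * X y - ‖F0 y‖) ≥ 0 := by nlinarith
  rcases eq_or_lt_of_le (norm_nonneg (F0 y)) with h0 | h0
  · rw [← h0]
    exact mul_nonneg (a4 hρ) a5.1
  · have : 0 < ρ0 y ^ 2 * ‖F0 y‖ := by positivity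
    have := (mul_nonneg_iff_of_pos_left this).1 a3
    linarith


/-- **The limit tensor.** A family `A n j` of vector fields indexed by `j`, with
`|A n j| ≤ Λ n |X j|` and `∫ ρ n (Λ n)² ≤ C`, has a weighted weak limit `H j` with
`|H j| ≤ Λ0 |X j|`, where `Λ0` does not depend on `j`. -/
theorem exists_tensor [CompleteSpace E] (hK : 0 ≤ K) (hs : WStar U ν K ρ ρ0) {J : Type*}
    {X : J → Y → E} {L : J → ℝ} (hX : ∀ j, AEStronglyMeasurable (X j) ν)
    (hXL : ∀ j, ∀ᵐ y ∂ν, ‖X j y‖ ≤ L j)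
    {A : ι → J → Y → E} (hA : ∀ n j, AEStronglyMeasurable (A n j) ν)
    {Λ : ι → Y → ℝ} (hΛ : ∀ᶠ n in (U : Filter ι), EBd ν C (ρ n) (Λ n))
    (hΛ0 : ∀ᶠ n in (U : Filter ι), ∀ᵐ y ∂ν, 0 ≤ Λ n y)
    (hAΛ : ∀ j, ∀ᶠ n in (U : Filter ι), ∀ᵐ y ∂ν, ‖A n j y‖ ≤ Λ n y * ‖X j y‖) :
    (∀ j, ∀ᶠ n in (U : Filter ι), EBd ν (L j ^ 2 * C) (ρ n) (A n j)) ∧
    ∃ (H : J → Y → E) (Λ0 : Y → ℝ), WLim U ν ρ ρ0 Λ Λ0 ∧ EBd ν C ρ0 Λ0 ∧ (∀ y, 0 ≤ Λ0 y) ∧
      (∀ j, WLim U ν ρ ρ0 (fun n => A n j) (H j)) ∧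
      (∀ j, ∀ᵐ y ∂ν, ‖H j y‖ ≤ Λ0 y * ‖X j y‖) ∧ ∀ j y, ρ0 y = 0 → H j y = 0 := by
  classical
  have hE : ∀ j, ∀ᶠ n in (U : Filter ι), EBd ν (L j ^ 2 * C) (ρ n) (A n j) := by
    intro j
    filter_upwards [hΛ, hs.bd, hΛ0, hAΛ j] with n h1 h2 h3 h4
    have hb : ∀ᵐ y ∂ν, ρ n y * ‖A n j y‖ ^ 2 ≤ L j ^ 2 * (ρ n y * ‖Λ n y‖ ^ 2) := by
      filter_upwards [h2, h3, h4, hXL j] with y a1 a2 a3 a4
      have a5 : ‖A n j y‖ ≤ Λ n y * L j := a3.trans (mul_le_mul_of_nonneg_left a4 a2)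
      have a6 := pow_le_pow_left₀ (norm_nonneg _) a5 2
      rw [Real.norm_of_nonneg a2]
      calc ρ n y * ‖A n j y‖ ^ 2 ≤ ρ n y * (Λ n y * L j) ^ 2 := mul_le_mul_of_nonneg_left a6 a1.1
        _ = _ := by ring
    have hi : Integrable (fun y => ρ n y * ‖A n j y‖ ^ 2) ν := by
      refine (h1.int.const_mul (L j ^ 2)).mono' ((hs.meas n).mul ((hA n j).norm.pow 2)) ?_
      filter_upwards [hb, h2] with y a1 a2
      rw [Real.norm_of_nonneg (mul_nonneg a2.1 (by positivity))]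
      exact a1
    refine ⟨hA n j, hi, (integral_mono_ae hi (h1.int.const_mul _) hb).trans ?_⟩
    rw [integral_const_mul]
    exact mul_le_mul_of_nonneg_left h1.le (by positivity)
  refine ⟨hE, ?_⟩
  obtain ⟨Λ1, hΛ1, hΛ1z⟩ := exists_wlim hK hs hΛ
  have hΛ1n := hΛ1.nonneg hs hΛ0
  let Λ2 : Y → ℝ := fun y => max (Λ1 y) 0
  have h12 : ∀ᵐ y ∂ν, Λ1 y = Λ2 y := by
    filter_upwards [hΛ1n] with y hy
    by_cases h0 : ρ0 y = 0
    · simp [Λ2, hΛ1z y h0]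
    · exact (max_eq_left (hy h0)).symm
  have hΛ2 : WLim U ν ρ ρ0 Λ Λ2 := hΛ1.congr0 (hΛ1.meas.sup aestronglyMeasurable_const) (by
    filter_upwards [h12] with y hy; rw [hy])
  choose H hH hHz using fun j => exists_wlim hK hs (hE j)
  have hb : ∀ j, ∀ᵐ y ∂ν, ρ0 y ≠ 0 → ‖H j y‖ ≤ Λ2 y * ‖X j y‖ := fun j =>
    (hH j).bound hΛ2 hs hΛ (hE j) (ae_of_all _ fun y _ => le_max_right _ _) (hX j).norm
      (by filter_upwards [hXL j] with y hy using ⟨norm_nonneg _, hy⟩) (hAΛ j)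
  refine ⟨H, Λ2, hΛ2, hΛ2.ebd hs hΛ, fun y => le_max_right _ _, hH, fun j => ?_, hHz⟩
  filter_upwards [hb j] with y hy
  by_cases h0 : ρ0 y = 0
  · rw [hHz j y h0, norm_zero]
    exact mul_nonneg (le_max_right _ _) (norm_nonneg _)
  · exact hy h0


end weighted

end Vale.Agent.P233.H994
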